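import Vale.Agent.P328.Inst

/-! The penalised measure gives constant mass to the feasible points. -/

namespace Vale.Agent.P328

open Finset

theorem shift {σ Λ : Type} [DecidableEq σ] [Fintype Λ] (Ω V : Finset σ) (Ys : Finset ℕ)
    {w : σ → ℝ} (hw : ∀ X, 0 ≤ w X) (U : Λ → ℕ → σ → σ) (ok : Λ → ℕ → σ → Prop)
    [∀ l y X, Decidable (ok l y X)] {η : ℝ} (hη : 0 ≤ η) {μ : ℕ}
    (h1 : ∀ X ∈ V, ∃ l, ∀ y ∈ Ys, ∃ X' ∈ Ω, U l y X' = X ∧ ok l y X' ∧ w X ≤ η * w X')
    (h2 : ∀ l X', (Ys.filter fun y => ok l y X' ∧ U l y X' ∈ V).card ≤ μ) :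
    Ys.card * ∑ X ∈ V, w X ≤ Fintype.card Λ * (η * μ * ∑ X ∈ Ω, w X) := by
  have nn : ∀ l y X X', 0 ≤ if U l y X' = X ∧ ok l y X' then η * w X' else 0 := fun l y X X' => by
    split_ifs; exacts [mul_nonneg hη (hw _), le_rfl]
  have a1 : Ys.card * ∑ X ∈ V, w X ≤ ∑ X ∈ V, ∑ l, ∑ X' ∈ Ω, ∑ y ∈ Ys,
      if U l y X' = X ∧ ok l y X' then η * w X' else 0 := by
    rw [mul_sum]
    refine sum_le_sum fun X hX => ?_
    obtain ⟨l, hl⟩ := h1 X hX
    refine le_trans ?_ (single_le_sum (f := fun l => ∑ X' ∈ Ω, ∑ y ∈ Ys,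
      if U l y X' = X ∧ ok l y X' then η * w X' else 0)
      (fun l _ => sum_nonneg fun _ _ => sum_nonneg fun _ _ => nn _ _ _ _) (mem_univ l))
    rw [sum_comm, ← nsmul_eq_mul]
    refine card_nsmul_le_sum _ _ _ fun y hy => ?_
    obtain ⟨X', hX', e1, e2, e3⟩ := hl y hy
    refine le_trans ?_ (single_le_sum (fun _ _ => nn l y X _) hX')
    rwa [if_pos ⟨e1, e2⟩]
  refine a1.trans ?_
  rw [sum_comm, ← nsmul_eq_mul, ← card_univ]
  refine sum_le_card_nsmul _ _ _ fun l _ => ?_
  rw [sum_comm, mul_sum]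
  refine sum_le_sum fun X' _ => ?_
  rw [sum_comm, sum_congr rfl (g := fun y => if ok l y X' ∧ U l y X' ∈ V then η * w X' else 0)
    fun y _ => by by_cases h : ok l y X' <;> simp [h], ← sum_filter, sum_const, nsmul_eq_mul,
    mul_right_comm, mul_comm _ (μ : ℝ)]
  exact mul_le_mul_of_nonneg_right (Nat.cast_le.2 (h2 l X')) (mul_nonneg hη (hw _))

variable {m n : ℕ}

/-- The parameters of the algorithm. -/
structure Par (r : Fin m → ℕ) (c : Fin n → ℕ) (i₀ : Fin m) (j₀ : Fin n) (q Q : ℕ)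
    (h M : Fin (m * n) → ℕ) (g : Con m n → ℕ) : Prop where
  hQ : Q = 2 ^ q
  big : 256 + m + n ≤ Q
  tot : ∑ i, r i = ∑ j, c j
  rmax : ∀ i, r i ≤ r i₀
  cmax : ∀ j, c j ≤ c j₀
  hpos : ∀ l, 0 < h l
  hstar : ∀ l, star i₀ j₀ l → h l = 1 ∧ M l = 1
  hfree : ∀ l, ¬star i₀ j₀ l → M l = Q ^ 17 ∧ uu r c l < h l * Q ^ 17 ∧
    (h l = 1 ∨ h l * Q ^ 17 ≤ 2 * uu r c l)
  gsome : ∀ o, 0 < g (some o) ∧ bd r c i₀ j₀ (some o) < g (some o) * Q ^ 12 ∧
    (g (some o) = 1 ∨ g (some o) * Q ^ 12 ≤ 2 * bd r c i₀ j₀ (some o))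
  gnone : ∃ g', g none = 2 * g' ∧ 0 < g' ∧ min (r i₀) (c j₀) < g' * Q ^ 6 ∧
    (g' = 1 ∨ g' * Q ^ 6 ≤ 2 * min (r i₀) (c j₀))

variable (r : Fin m → ℕ) (c : Fin n → ℕ) (i₀ : Fin m) (j₀ : Fin n)

/-- The penalty, in bits. -/
noncomputable def E0 (q : ℕ) (g : Con m n → ℕ) (X : Fin (m * n) → ℕ) : ℝ :=
  ∑ o, 8 * q * (viol r c i₀ j₀ 0 o X : ℝ) / g o

/-- The penalised weight. -/
noncomputable def w0 (q : ℕ) (g : Con m n → ℕ) (X : Fin (m * n) → ℕ) : ℝ :=
  Real.exp (-(Real.log 2 * E0 r c i₀ j₀ q g X))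

variable {r c i₀ j₀} {q Q : ℕ} {h M : Fin (m * n) → ℕ} {g : Con m n → ℕ}

theorem exp_log_two (k : ℕ) : Real.exp (Real.log 2 * k) = 2 ^ k := by
  rw [mul_comm, Real.exp_nat_mul, Real.exp_log two_pos]

theorem w0_le {X X' : Fin (m * n) → ℕ} {a : ℝ} (h : E0 r c i₀ j₀ q g X' ≤ E0 r c i₀ j₀ q g X + a) :
    w0 r c i₀ j₀ q g X ≤ Real.exp (Real.log 2 * a) * w0 r c i₀ j₀ q g X' := by
  rw [w0, w0, ← Real.exp_add, Real.exp_le_exp]
  nlinarith [Real.log_pos one_lt_two]

namespace Par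
variable (P : Par r c i₀ j₀ q Q h M g)
include P

theorem dim : m * n ≤ Q ^ 2 := by have := P.big; rw [sq]; exact Nat.mul_le_mul (by omega) (by omega)

theorem qle : 8 * q ≤ Q := by
  have h1 := P.big
  rw [P.hQ] at h1 ⊢
  by_contra hc
  have h2 : 8 ≤ q := by
    by_contra h3
    have := Nat.pow_le_pow_right two_pos (show q ≤ 7 by omega)
    omega
  obtain ⟨k, rfl⟩ := Nat.exists_eq_add_of_le h2
  have := @Nat.lt_two_pow_self k
  rw [pow_add] at hc
  omega

theorem gpos : ∀ o, 0 < g o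
  | none => by obtain ⟨g', h1, h2, -⟩ := P.gnone; omega
  | some o => (P.gsome o).1

theorem bd_le (o : Fin m ⊕ Fin n) : bd r c i₀ j₀ (some o) ≤ Q * min (r i₀) (c j₀) := by
  have hQ := P.big
  have a1 : ∑ i, r i ≤ Q * r i₀ := (sum_le_card_nsmul _ _ _ fun i _ => P.rmax i).trans (by
    simp only [card_univ, Fintype.card_fin, smul_eq_mul]; exact Nat.mul_le_mul_right _ (by omega))
  have a2 : ∑ j, c j ≤ Q * c j₀ := (sum_le_card_nsmul _ _ _ fun i _ => P.cmax i).trans (by
    simp only [card_univ, Fintype.card_fin, smul_eq_mul]; exact Nat.mul_le_mul_right _ (by omega))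
  have a3 := P.tot
  have : bd r c i₀ j₀ (some o) ≤ ∑ i, r i := by
    rcases o with i | j
    · exact single_le_sum (f := r) (fun _ _ => Nat.zero_le _) (mem_univ i)
    · rw [a3]; exact single_le_sum (f := c) (fun _ _ => Nat.zero_le _) (mem_univ j)
  rw [mul_min]; omega

theorem g_sep (o : Fin m ⊕ Fin n) (h1 : g (some o) ≠ 1) : g (some o) * Q ^ 5 ≤ g none := by
  obtain ⟨g', e, -, h2, -⟩ := P.gnone
  have h3 := ((P.gsome o).2.2).resolve_left h1
  have h4 := P.bd_le o
  have h5 := Nat.mul_le_mul_left Q h2.le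
  have hQ : 0 < Q := by have := P.big; omega
  refine Nat.le_of_mul_le_mul_right ?_ (pow_pos hQ 7)
  calc g (some o) * Q ^ 5 * Q ^ 7 = g (some o) * Q ^ 12 := by ring
    _ ≤ 2 * (Q * (g' * Q ^ 6)) := by omega
    _ = g none * Q ^ 7 := by rw [e]; ring

theorem bad {o : Con m n} {y₀ : ℕ} (hy : 0 < y₀) (U : Fin (m * n) → ℕ → (Fin (m * n) → ℕ) →
    Fin (m * n) → ℕ) (ex : (Fin (m * n) → ℕ) → ℤ) (hex : ∀ X, viol r c i₀ j₀ 0 o X = (ex X).toNat)
    (H : ∀ X ∈ box fun l => h l * M l, 0 < viol r c i₀ j₀ 0 o X → ∃ l,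
      ∀ y, 0 < y → (y = y₀ ∨ (y₀ ≠ 1 ∧ y ≤ y₀ * Q ^ 4)) → ∃ X' ∈ box fun l => h l * M l,
        U l y X' = X ∧ ex X = ex X' + y ∧ E0 r c i₀ j₀ q g X' ≤ E0 r c i₀ j₀ q g X + 1 ∧
        (y = y₀ → y₀ ≤ viol r c i₀ j₀ 0 o X →
          E0 r c i₀ j₀ q g X' ≤ E0 r c i₀ j₀ q g X + -((4 * q : ℕ) : ℝ))) :
    ∑ X ∈ (box fun l => h l * M l).filter fun X => 0 < viol r c i₀ j₀ 0 o X, w0 r c i₀ j₀ q g X ≤
      3 / (Q : ℝ) ^ 2 * ∑ X ∈ box fun l => h l * M l, w0 r c i₀ j₀ q g X := by
  have hQ : (0 : ℝ) < Q := Nat.cast_pos.2 (by have := P.big; omega)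
  have hD : ((m * n : ℕ) : ℝ) ≤ (Q : ℝ) ^ 2 := by exact_mod_cast P.dim
  have hw : ∀ X, 0 ≤ w0 r c i₀ j₀ q g X := fun X => (Real.exp_pos _).le
  set Z := ∑ X ∈ box fun l => h l * M l, w0 r c i₀ j₀ q g X with hZ
  have hZ0 : 0 ≤ Z := sum_nonneg fun X _ => hw X
  rw [← sum_filter_add_sum_filter_not _ fun X => y₀ ≤ viol r c i₀ j₀ 0 o X]
  have hA := shift (box fun l => h l * M l) (((box fun l => h l * M l).filter
    fun X => 0 < viol r c i₀ j₀ 0 o X).filter fun X => y₀ ≤ viol r c i₀ j₀ 0 o X) {y₀} hw U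
    (fun _ _ _ => True) (η := Real.exp (Real.log 2 * -((4 * q : ℕ) : ℝ))) (Real.exp_pos _).le
    (μ := 1) (fun X hX => by
      simp only [mem_filter] at hX
      obtain ⟨l, hl⟩ := H X hX.1.1 hX.1.2
      obtain ⟨X', h1, h2, -, -, h3⟩ := hl y₀ hy (Or.inl rfl)
      exact ⟨l, fun y hy => ⟨X', h1, mem_singleton.1 hy ▸ h2, trivial, w0_le (h3 rfl hX.2)⟩⟩)
    fun _ _ => (card_filter_le _ _).trans (by simp)
  rw [mul_neg, Real.exp_neg, exp_log_two, show (2 : ℝ) ^ (4 * q) = (Q : ℝ) ^ 4 by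
    rw [P.hQ, mul_comm, pow_mul]; simp] at hA
  simp only [card_singleton, Nat.cast_one, one_mul, mul_one, Fintype.card_fin] at hA
  have hA' : ((m * n : ℕ) : ℝ) * (((Q : ℝ) ^ 4)⁻¹ * Z) ≤ 1 / (Q : ℝ) ^ 2 * Z :=
    (mul_le_mul_of_nonneg_right hD (by positivity)).trans (le_of_eq (by field_simp))
  have hB : ∑ X ∈ ((box fun l => h l * M l).filter fun X => 0 < viol r c i₀ j₀ 0 o X).filter
      fun X => ¬y₀ ≤ viol r c i₀ j₀ 0 o X, w0 r c i₀ j₀ q g X ≤ 2 / (Q : ℝ) ^ 2 * Z := by
    by_cases h1 : y₀ = 1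
    · rw [sum_eq_zero fun X hX => by simp only [mem_filter] at hX; omega]; positivity
    have := shift (box fun l => h l * M l) (((box fun l => h l * M l).filter
      fun X => 0 < viol r c i₀ j₀ 0 o X).filter fun X => ¬y₀ ≤ viol r c i₀ j₀ 0 o X)
      (Icc 1 (y₀ * Q ^ 4)) hw U (fun l y X' => ex (U l y X') = ex X' + y)
      (η := Real.exp (Real.log 2 * 1)) (Real.exp_pos _).le (μ := y₀) (fun X hX => by
        simp only [mem_filter] at hX
        obtain ⟨l, hl⟩ := H X hX.1.1 hX.1.2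
        refine ⟨l, fun y hy => ?_⟩
        rw [mem_Icc] at hy
        obtain ⟨X', h2, h3, h4, h5, -⟩ := hl y hy.1 (Or.inr ⟨h1, hy.2⟩)
        exact ⟨X', h2, h3, h3 ▸ h4, w0_le h5⟩)
      fun l X' => (card_le_card (t := Ico (-ex X').toNat ((-ex X').toNat + y₀)) fun y hy => by
        simp only [mem_filter, hex] at hy
        rw [mem_Ico]; omega).trans (by simp)
    rw [mul_one, Real.exp_log two_pos, Nat.card_Icc, Fintype.card_fin, Nat.add_sub_cancel] at this
    have hy' : (0 : ℝ) < y₀ := Nat.cast_pos.2 hy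
    refine le_of_mul_le_mul_left (this.trans ((mul_le_mul_of_nonneg_right hD
      (by positivity)).trans (le_of_eq ?_))) (by push_cast; positivity)
    rw [← hZ]
    push_cast; field_simp
  linarith [show 3 / (Q : ℝ) ^ 2 * Z = 1 / (Q : ℝ) ^ 2 * Z + 2 / (Q : ℝ) ^ 2 * Z by ring]

theorem bad_some (o : Fin m ⊕ Fin n) :
    ∑ X ∈ (box fun l => h l * M l).filter fun X => 0 < viol r c i₀ j₀ 0 (some o) X,
      w0 r c i₀ j₀ q g X ≤ 3 / (Q : ℝ) ^ 2 * ∑ X ∈ box fun l => h l * M l, w0 r c i₀ j₀ q g X := by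
  refine P.bad (P.gpos (some o)) (fun l y X => Function.update X l (X l + y))
    (fun X => sN (some o) X - bd r c i₀ j₀ (some o)) (fun X => by simp only [viol]; omega)
    fun X hX hv => ?_
  obtain ⟨l, hl, hl'⟩ : ∃ l, mem (some o) l ∧ bd r c i₀ j₀ (some o) < m * n * X l := by
    by_contra hc
    push Not at hc
    have : m * n * sN (some o) X ≤ m * n * bd r c i₀ j₀ (some o) := by
      rw [sN, mul_sum]
      refine (sum_le_card_nsmul _ _ (bd r c i₀ j₀ (some o)) fun l _ => ?_).trans (by simp)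
      split_ifs with h
      exacts [hc l h, Nat.zero_le _]
    have h2 := Nat.le_of_mul_le_mul_left this (Nat.mul_pos i₀.pos j₀.pos)
    simp only [viol] at hv; omega
  refine ⟨l, fun y hy0 hy => ?_⟩
  have hQ : 256 ≤ Q := by have := P.big; omega
  have hg := P.gpos (some o)
  have hQ4 : g (some o) ≤ g (some o) * Q ^ 4 := Nat.le_mul_of_pos_right _ (by positivity)
  have hyX : y ≤ X l := by
    by_cases h1 : g (some o) = 1
    · have : X l ≠ 0 := fun h => by simp [h] at hl'
      omega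
    · have h2 := ((P.gsome o).2.2).resolve_left h1
      have h3 := Nat.mul_le_mul_right (X l) P.dim
      have h4 : g (some o) * Q ^ 4 ≤ X l := by
        refine Nat.le_of_mul_le_mul_left (c := 2 * Q ^ 2) ?_ (by positivity)
        calc 2 * Q ^ 2 * (g (some o) * Q ^ 4) = g (some o) * (2 * Q ^ 6) := by ring
          _ ≤ g (some o) * (Q ^ 6 * Q ^ 6) := by
            gcongr; exact le_trans (by omega) (Nat.le_self_pow (by norm_num) Q)
          _ = g (some o) * Q ^ 12 := by ring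
          _ ≤ _ := by rw [mul_assoc]; omega
      omega
  have hs := fun o' => sN_update o' X l (X l - y)
  have hE : E0 r c i₀ j₀ q g (Function.update X l (X l - y)) ≤ E0 r c i₀ j₀ q g X +
      8 * q * (y : ℝ) / g none - 8 * q * (min y (viol r c i₀ j₀ 0 (some o) X) : ℕ) / g (some o) := by
    have : ∀ o', 8 * q * (viol r c i₀ j₀ 0 o' (Function.update X l (X l - y)) : ℝ) / g o' ≤
        8 * q * (viol r c i₀ j₀ 0 o' X : ℝ) / g o' + (if o' = none then 8 * q * (y : ℝ) / g o' else 0)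
        - if o' = some o then 8 * q * (min y (viol r c i₀ j₀ 0 o' X) : ℕ) / (g o' : ℝ) else 0 := by
      intro o'
      have h1 := hs o'
      have h2 : viol r c i₀ j₀ 0 o' (Function.update X l (X l - y)) +
          (if o' = some o then min y (viol r c i₀ j₀ 0 o' X) else 0) ≤
          viol r c i₀ j₀ 0 o' X + if o' = none then y else 0 := by
        rcases o' with _ | o'
        · simp only [viol, mem, if_true, reduceCtorEq, if_false] at h1 ⊢; omega
        · by_cases h3 : o' = o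
          · subst h3; simp only [viol, hl, if_true, reduceCtorEq, if_false] at h1 ⊢; omega
          · simp only [viol, Option.some.injEq, h3, reduceCtorEq, if_false]
            split_ifs at h1 <;> omega
      have h3 := div_le_div_of_nonneg_right (mul_le_mul_of_nonneg_left ((Nat.cast_le (α := ℝ)).2 h2)
        (by positivity : (0 : ℝ) ≤ 8 * q)) (Nat.cast_nonneg (g o'))
      push_cast at h3 ⊢
      rw [mul_add, mul_add, add_div, add_div] at h3
      split_ifs at h3 ⊢ <;> (try simp only [mul_zero, zero_div] at h3) <;> linarith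
    refine (sum_le_sum fun o' _ => this o').trans (le_of_eq ?_)
    simp only [sum_sub_distrib, sum_add_distrib, sum_ite_eq', mem_univ, if_true, E0]
  have hg0 : (0 : ℝ) < g none := Nat.cast_pos.2 (P.gpos none)
  have hg1 : (0 : ℝ) < g (some o) := Nat.cast_pos.2 hg
  have h2g : 2 * g (some o) ≤ g none := by
    by_cases h1 : g (some o) = 1
    · obtain ⟨g', e, h2, -⟩ := P.gnone; omega
    · refine le_trans ?_ (P.g_sep o h1)
      rw [mul_comm]; gcongr; exact le_trans (by omega) (Nat.le_self_pow (by norm_num) Q)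
  have hA : y = g (some o) → 8 * q * (y : ℝ) / g none ≤ 4 * q := fun e => by
    rw [div_le_iff₀ hg0, e]
    have := mul_le_mul_of_nonneg_left ((Nat.cast_le (α := ℝ)).2 h2g) (by positivity : (0 : ℝ) ≤ 4 * q)
    push_cast at this; linarith
  refine ⟨Function.update X l (X l - y), mem_box.2 fun k => ?_, ?_, ?_, ?_, fun e he => ?_⟩
  · have := mem_box.1 hX k
    by_cases hk : k = l
    · subst hk; simp only [Function.update_self]; omega
    · rwa [Function.update_of_ne hk]
  · simp [Nat.sub_add_cancel hyX]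
  · have := hs (some o); simp only [hl, if_true] at this; omega
  · by_cases h1 : g (some o) = 1
    · have e : y = g (some o) := by omega
      rw [min_eq_left (by omega), e, mul_div_cancel_right₀ _ hg1.ne'] at hE
      have := hA e
      rw [e] at this ⊢
      linarith [(Nat.cast_nonneg q : (0 : ℝ) ≤ q)]
    · have a1 : 8 * q * y ≤ g none := by
        refine le_trans (Nat.mul_le_mul P.qle (show y ≤ g (some o) * Q ^ 4 by omega))
          (le_trans (le_of_eq (by ring)) (P.g_sep o h1))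
      have a2 : 8 * q * (y : ℝ) / g none ≤ 1 := (div_le_one hg0).2 (by exact_mod_cast a1)
      have a3 : (0 : ℝ) ≤ 8 * q * (min y (viol r c i₀ j₀ 0 (some o) X) : ℕ) / g (some o) := by
        positivity
      linarith
  · rw [min_eq_left (by omega), e, mul_div_cancel_right₀ _ hg1.ne'] at hE
    have := hA e
    rw [e] at this ⊢
    push_cast; linarith

theorem bad_none :
    ∑ X ∈ (box fun l => h l * M l).filter fun X => 0 < viol r c i₀ j₀ 0 none X,
      w0 r c i₀ j₀ q g X ≤ 3 / (Q : ℝ) ^ 2 * ∑ X ∈ box fun l => h l * M l, w0 r c i₀ j₀ q g X := by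
  obtain ⟨g', e, hg', g1, g2⟩ := P.gnone
  refine P.bad hg' (fun l y X => Function.update X l (X l - y))
    (fun X => bd r c i₀ j₀ none - sN none X) (fun X => by simp only [viol]; omega)
    fun X hX hv => ?_
  simp only [viol, bd] at hv
  have hQ := P.big
  have z : ∀ l, star i₀ j₀ l → X l = 0 := fun l hl => by
    have := mem_box.1 hX l; rw [(P.hstar l hl).1, (P.hstar l hl).2] at this; omega
  obtain ⟨i, hi, hi'⟩ : ∃ i, i ≠ i₀ ∧ c j₀ < Q * (r i - sN (some (.inl i)) X) := by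
    by_contra hc
    push Not at hc
    have a1 := add_sum_erase _ r (mem_univ i₀)
    have a2 := add_sum_erase _ (fun i => sN (some (.inl i)) X) (mem_univ i₀)
    have a3 := sN_rows X
    have a4 : ∑ i ∈ univ.erase i₀, r i ≤ ∑ i ∈ univ.erase i₀, sN (some (.inl i)) X +
        ∑ i ∈ univ.erase i₀, (r i - sN (some (.inl i)) X) := by
      rw [← sum_add_distrib]; exact sum_le_sum fun _ _ => by omega
    have a5 : Q * ∑ i ∈ univ.erase i₀, (r i - sN (some (.inl i)) X) ≤ Q * c j₀ := by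
      rw [mul_sum]
      refine (sum_le_card_nsmul _ _ _ fun i hi => hc i (mem_erase.1 hi).1).trans ?_
      exact Nat.mul_le_mul_right _ ((card_le_univ _).trans (by simp; omega))
    have a6 := Nat.le_of_mul_le_mul_left a5 (by omega)
    omega
  obtain ⟨j, hj, hj'⟩ : ∃ j, j ≠ j₀ ∧ r i₀ < Q * (c j - sN (some (.inr j)) X) := by
    by_contra hc
    push Not at hc
    have a1 := add_sum_erase _ c (mem_univ j₀)
    have a2 := add_sum_erase _ (fun j => sN (some (.inr j)) X) (mem_univ j₀)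
    have a3 := sN_cols X
    have a4 : ∑ j ∈ univ.erase j₀, c j ≤ ∑ j ∈ univ.erase j₀, sN (some (.inr j)) X +
        ∑ j ∈ univ.erase j₀, (c j - sN (some (.inr j)) X) := by
      rw [← sum_add_distrib]; exact sum_le_sum fun _ _ => by omega
    have a5 : Q * ∑ j ∈ univ.erase j₀, (c j - sN (some (.inr j)) X) ≤ Q * r i₀ := by
      rw [mul_sum]
      refine (sum_le_card_nsmul _ _ _ fun i hi => hc i (mem_erase.1 hi).1).trans ?_
      exact Nat.mul_le_mul_right _ ((card_le_univ _).trans (by simp; omega))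
    have a6 := Nat.le_of_mul_le_mul_left a5 (by omega)
    have := P.tot
    omega
  refine ⟨cell i j, fun y hy0 hy => ?_⟩
  have hQ4 : g' ≤ g' * Q ^ 4 := Nat.le_mul_of_pos_right _ (pow_pos (by omega) _)
  have key : ∀ s, min (r i₀) (c j₀) < Q * s → y ≤ s := fun s hs => by
    by_cases h1 : g' = 1
    · have : s ≠ 0 := fun h => by simp [h] at hs
      omega
    · have h2 := g2.resolve_left h1
      have h4 : g' * Q ^ 4 ≤ s := by
        refine Nat.le_of_mul_le_mul_left (c := 2 * Q) ?_ (by omega)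
        calc 2 * Q * (g' * Q ^ 4) = g' * (2 * Q ^ 5) := by ring
          _ ≤ g' * (Q * Q ^ 5) := by gcongr; omega
          _ = g' * Q ^ 6 := by ring
          _ ≤ _ := by rw [mul_assoc]; omega
      omega
  have k1 := key _ ((min_le_right _ _).trans_lt hi')
  have k2 := key _ ((min_le_left _ _).trans_lt hj')
  have hs := fun o' => sN_update o' X (cell i j) (X (cell i j) + y)
  have hE : E0 r c i₀ j₀ q g (Function.update X (cell i j) (X (cell i j) + y)) ≤
      E0 r c i₀ j₀ q g X - 8 * q * (min y (viol r c i₀ j₀ 0 none X) : ℕ) / g none := by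
    have : ∀ o', 8 * q * (viol r c i₀ j₀ 0 o'
        (Function.update X (cell i j) (X (cell i j) + y)) : ℝ) / g o' ≤
        8 * q * (viol r c i₀ j₀ 0 o' X : ℝ) / g o'
        - if o' = none then 8 * q * (min y (viol r c i₀ j₀ 0 o' X) : ℕ) / (g o' : ℝ) else 0 := by
      intro o'
      have h1 := hs o'
      have h2 : viol r c i₀ j₀ 0 o' (Function.update X (cell i j) (X (cell i j) + y)) +
          (if o' = none then min y (viol r c i₀ j₀ 0 o' X) else 0) ≤ viol r c i₀ j₀ 0 o' X := by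
        rcases o' with _ | i' | j'
        · simp only [viol, mem, if_true] at h1 ⊢; omega
        · simp only [viol, bd, mem, cell_div, decide_eq_true_eq, reduceCtorEq, if_false] at h1 ⊢
          split_ifs at h1 with h3
          · subst h3; omega
          · omega
        · simp only [viol, bd, mem, cell_mod, decide_eq_true_eq, reduceCtorEq, if_false] at h1 ⊢
          split_ifs at h1 with h3
          · subst h3; omega
          · omega
      have h3 := div_le_div_of_nonneg_right (mul_le_mul_of_nonneg_left ((Nat.cast_le (α := ℝ)).2 h2)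
        (by positivity : (0 : ℝ) ≤ 8 * q)) (Nat.cast_nonneg (g o'))
      push_cast at h3 ⊢
      rw [mul_add, add_div] at h3
      split_ifs at h3 ⊢ <;> (try simp only [mul_zero, zero_div] at h3) <;> linarith
    refine (sum_le_sum fun o' _ => this o').trans (le_of_eq ?_)
    simp only [sum_sub_distrib, sum_ite_eq', mem_univ, if_true, E0]
  refine ⟨Function.update X (cell i j) (X (cell i j) + y), mem_box.2 fun k => ?_, ?_, ?_, ?_,
    fun e' he => ?_⟩
  · by_cases hk : k = cell i j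
    · subst hk
      have a1 := P.hfree (cell i j) (by simp [star, hi, hj])
      have a2 : X (cell i j) ≤ sN (some (.inl i)) X := by
        rw [sN_row]; exact single_le_sum (f := fun j => X (cell i j)) (fun _ _ => Nat.zero_le _)
          (mem_univ _)
      have a3 : X (cell i j) ≤ sN (some (.inr j)) X := by
        rw [sN_col]; exact single_le_sum (f := fun i => X (cell i j)) (fun _ _ => Nat.zero_le _)
          (mem_univ _)
      simp only [Function.update_self, a1.1]
      refine lt_of_le_of_lt ?_ a1.2.1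
      simp only [uu, cell_div, cell_mod]; omega
    · rw [Function.update_of_ne hk]; exact mem_box.1 hX k
  · simp
  · have := hs none; simp only [mem, if_true] at this; omega
  · have a3 : (0 : ℝ) ≤ 8 * q * (min y (viol r c i₀ j₀ 0 none X) : ℕ) / g none := by positivity
    linarith
  · rw [min_eq_left (by omega), e', e] at hE
    have : (0 : ℝ) < g' := Nat.cast_pos.2 hg'
    rw [e']
    refine hE.trans (le_of_eq ?_)
    push_cast; field_simp; ring

theorem accept : ∑ X ∈ box fun l => h l * M l, w0 r c i₀ j₀ q g X ≤ 2 * (tables r c).card := by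
  have hw : ∀ X, 0 ≤ w0 r c i₀ j₀ q g X := fun X => (Real.exp_pos _).le
  set Z := ∑ X ∈ box fun l => h l * M l, w0 r c i₀ j₀ q g X with hZ
  have hZ0 : 0 ≤ Z := sum_nonneg fun X _ => hw X
  have a1 := sum_filter_add_sum_filter_not (box fun l => h l * M l)
    (fun X => ∀ o, viol r c i₀ j₀ 0 o X = 0) (w0 r c i₀ j₀ q g)
  have a2 := sum_feas (R := fun l => h l * M l) P.tot
    (fun l hl => by simp [P.hstar l hl]) (fun l hl => by
      rw [(P.hfree l hl).1]; exact (P.hfree l hl).2.1) fun _ => 1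
  rw [sum_congr rfl (g := fun _ => (1 : ℝ)) fun X hX => by
    simp [w0, E0, (mem_filter.1 hX).2], a2] at a1
  have a3 : ∑ X ∈ (box fun l => h l * M l).filter fun X => ¬∀ o, viol r c i₀ j₀ 0 o X = 0,
      w0 r c i₀ j₀ q g X ≤ ∑ o, ∑ X ∈ (box fun l => h l * M l).filter
        fun X => 0 < viol r c i₀ j₀ 0 o X, w0 r c i₀ j₀ q g X := by
    simp only [sum_filter]
    rw [sum_comm]
    refine sum_le_sum fun X _ => ?_
    have nn : ∀ o ∈ univ, 0 ≤ if 0 < viol r c i₀ j₀ 0 o X then w0 r c i₀ j₀ q g X else 0 :=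
      fun o _ => by split_ifs; exacts [hw X, le_rfl]
    split_ifs with h1
    · exact sum_nonneg nn
    · push Not at h1
      obtain ⟨o, ho⟩ := h1
      refine le_trans ?_ (single_le_sum nn (mem_univ o))
      rw [if_pos (by omega)]
  have a4 := sum_le_card_nsmul univ _ (3 / (Q : ℝ) ^ 2 * Z) fun (o : Con m n) _ =>
    (by rcases o with _ | o; exacts [P.bad_none, P.bad_some o] :
      ∑ X ∈ (box fun l => h l * M l).filter fun X => 0 < viol r c i₀ j₀ 0 o X,
        w0 r c i₀ j₀ q g X ≤ 3 / (Q : ℝ) ^ 2 * Z)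
  have hQ : (256 + m + n : ℝ) ≤ Q := by exact_mod_cast P.big
  have hm : (0 : ℝ) ≤ m + n := by positivity
  have a5 : ((m : ℝ) + n + 1) * (3 / (Q : ℝ) ^ 2) ≤ 1 / 2 := by
    rw [← mul_div_assoc, div_le_iff₀ (by nlinarith)]; nlinarith
  simp only [card_univ, Fintype.card_option, Fintype.card_sum, Fintype.card_fin, nsmul_eq_mul,
    sum_const, mul_one] at a1 a4
  push_cast at a4
  nlinarith

end Par

end Vale.Agent.P328
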