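import Vale.Agent.P328.Ideal
import Vale.Agent.P328.Algo

/-! The program on lists computes the sampler on functions. -/

namespace Vale.Agent.P328

open Finset Vale.Agent.Lib.PolyTime

theorem map_range {β : Type} (D : ℕ) (f : ℕ → β) :
    (List.range D).map f = List.ofFn fun l : Fin D => f l := by
  apply List.ext_getElem <;> simp

theorem getD_ofFn {D : ℕ} (Z : Fin D → ℕ) (l : Fin D) : (List.ofFn Z).getD l 0 = Z l := by
  simp [List.getD_eq_getElem?_getD]

theorem amax_spec {m : ℕ} (hm : 1 ≤ m) (r : Fin m → ℕ) :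
    ∃ i₀ : Fin m, amax (List.ofFn r) = i₀ ∧ ∀ i, r i ≤ r i₀ := by
  obtain ⟨i, -, hi⟩ := exists_max_image univ r ⟨⟨0, hm⟩, mem_univ _⟩
  have e : r i = lmax (List.ofFn r) := le_antisymm (le_lmax (by simp))
    ((lmax_le _ _).2 fun x hx => by obtain ⟨k, rfl⟩ := List.mem_ofFn.1 hx; exact hi k (mem_univ _))
  unfold amax
  rcases hf : (List.range (List.ofFn r).length).find?
    (fun i => decide ((List.ofFn r).getD i 0 = lmax (List.ofFn r))) with _ | k
  · have := List.find?_eq_none.1 hf i (by simp)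
    rw [getD_ofFn] at this
    simp [e] at this
  · have h1 : k < m := by simpa using List.mem_of_find?_eq_some hf
    have h2 := List.find?_some hf
    rw [decide_eq_true_eq, show k = (⟨k, h1⟩ : Fin m).val from rfl, getD_ofFn, ← e] at h2
    exact ⟨⟨k, h1⟩, rfl, fun j => h2 ▸ hi j (mem_univ _)⟩

theorem sc_spec (u : ℕ) {P : ℕ} (hP : 0 < P) :
    0 < sc u P ∧ u < sc u P * P ∧ (sc u P = 1 ∨ sc u P * P ≤ 2 * u) := by
  refine ⟨Nat.pow_pos two_pos, (Nat.div_lt_iff_lt_mul hP).1 (Nat.lt_size_self _), ?_⟩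
  rcases Nat.eq_zero_or_pos (u / P) with h | h
  · exact Or.inl (by simp [sc, h])
  · refine Or.inr ((Nat.mul_le_mul_right _ (two_pow_size_le h)).trans ?_)
    rw [mul_assoc]; exact Nat.mul_le_mul_left _ (Nat.div_mul_le_self _ _)

variable {m n : ℕ}

/-- The entries of a table in one list. -/
def flt (Y : Fin m → Fin n → ℕ) : List ℕ := List.ofFn fun l : Fin (m * n) => Y l.divNat l.modNat

theorem entries_eq (Y : Fin m → Fin n → ℕ) : entries Y = flt Y := by
  rw [flt, List.ofFn_mul, entries]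
  congr 2
  funext i
  congr 1
  funext j
  have : ∀ hl, (⟨i * n + j, hl⟩ : Fin (m * n)) = cell i j := fun _ => Fin.ext (cell_val i j).symm
  rw [this, cell_div, cell_mod]

theorem flt_inj {Y Y' : Fin m → Fin n → ℕ} (h : flt Y = flt Y') : Y = Y' := by
  funext i j
  simpa using congrFun (List.ofFn_injective h) (cell i j)

/-- The instance. -/
def ins (r : Fin m → ℕ) (c : Fin n → ℕ) (e : ℕ) : Ins := (List.ofFn r, List.ofFn c, e)

/-- The scales of the constraints. -/
def gF (r : Fin m → ℕ) (c : Fin n → ℕ) (i₀ : Fin m) (j₀ : Fin n) (Q : ℕ) : Con m n → ℕ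
  | none => 2 * sc (min (r i₀) (c j₀)) (Q ^ 6)
  | some (.inl i) => sc (r i) (Q ^ 12)
  | some (.inr j) => sc (c j) (Q ^ 12)

/-- The north-west corner table. -/
def nwF (r : Fin m → ℕ) (c : Fin n → ℕ) : Fin m → Fin n → ℕ := fun i j =>
  min ((List.ofFn r).take (i + 1)).sum ((List.ofFn c).take (j + 1)).sum -
    max ((List.ofFn r).take i).sum ((List.ofFn c).take j).sum

theorem sum_take_le (L : List ℕ) (k : ℕ) : (L.take k).sum ≤ L.sum := by
  conv_rhs => rw [← List.take_append_drop k L, List.sum_append]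
  omega

theorem sum_take_succ (r : Fin m → ℕ) (i : Fin m) :
    ((List.ofFn r).take (i + 1)).sum = ((List.ofFn r).take i).sum + r i := by
  rw [List.sum_take_succ _ _ (by simp)]; simp

theorem telescope (c : Fin n → ℕ) {a b : ℕ} (hab : a ≤ b) (hb : b ≤ ∑ j, c j) :
    ∑ j : Fin n, (min b ((List.ofFn c).take (j + 1)).sum - max a ((List.ofFn c).take j).sum) =
      b - a := by
  have key : ∀ k ≤ n, ∑ j ∈ range k,
      (min b ((List.ofFn c).take (j + 1)).sum - max a ((List.ofFn c).take j).sum) =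
      min b ((List.ofFn c).take k).sum - a := by
    intro k
    induction k with
    | zero => simp
    | succ k ih =>
      intro hk
      have := sum_take_succ c ⟨k, hk⟩
      rw [sum_range_succ, ih (by omega)]
      simp only at this
      omega
  have := key n le_rfl
  rw [sum_range, List.take_of_length_le (l := List.ofFn c) (i := n) (by simp), List.sum_ofFn] at this
  omega

theorem nwF_mem {r : Fin m → ℕ} {c : Fin n → ℕ} (h : ∑ i, r i = ∑ j, c j) :
    nwF r c ∈ tables r c := by
  rw [mem_tables]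
  refine ⟨fun i => ?_, fun j => ?_⟩
  · have h1 := sum_take_succ r i
    have h2 := sum_take_le (List.ofFn r) (i + 1)
    rw [List.sum_ofFn] at h2
    simp only [nwF]
    rw [telescope c (by omega) (by omega)]; omega
  · have h1 := sum_take_succ c j
    have h2 := sum_take_le (List.ofFn c) (j + 1)
    rw [List.sum_ofFn] at h2
    simp only [nwF, min_comm ((List.ofFn r).take _).sum, max_comm ((List.ofFn r).take _).sum]
    rw [telescope r (by omega) (by omega)]; omega

variable {r : Fin m → ℕ} {c : Fin n → ℕ} {e : ℕ} {i₀ : Fin m} {j₀ : Fin n}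

theorem map_cells {β : Type} (f : ℕ → β) :
    (cells (ins r c e)).map f = List.ofFn fun l : Fin (m * n) => f l := by
  simp only [cells, ins, List.length_ofFn, map_range]

theorem rowS_eq (X : Fin (m * n) → ℕ) (i : Fin m) :
    rowS (ins r c e) (List.ofFn X) i = sN (some (.inl i)) X := by
  simp only [rowS, ins, List.length_ofFn, map_range, List.sum_ofFn, sN_row, ← cell_val, getD_ofFn]

theorem colS_eq (X : Fin (m * n) → ℕ) (j : Fin n) :
    colS (ins r c e) (List.ofFn X) j = sN (some (.inr j)) X := by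
  simp only [colS, ins, List.length_ofFn, map_range, List.sum_ofFn, sN_col, ← cell_val, getD_ofFn]

theorem sum_eq (X : Fin (m * n) → ℕ) : (List.ofFn X).sum = sN none X := by
  simp [List.sum_ofFn, sN, mem]

theorem nwL_eq : nwL (ins r c e) = flt (nwF r c) := by
  rw [nwL, map_cells]
  simp only [ins, List.length_ofFn]
  rfl

theorem setL_eq (Z : Fin (m * n) → ℕ) (l : Fin (m * n)) (v : ℕ) :
    setL (ins r c e) (List.ofFn Z) l v = List.ofFn (Function.update Z l v) := by
  rw [setL, map_cells]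
  congr 1
  funext k
  simp only [getD_ofFn, Function.update_apply, Fin.ext_iff]

theorem mvL_eq (Z : Fin (m * n) → ℕ) (l : Fin (m * n)) (d : Bool) :
    mvL (ins r c e) (List.ofFn Z) l d = List.ofFn (mv (fun l => ML (ins r c e) l) Z (l, d)) := by
  simp only [mvL, mv, dn, getD_ofFn, setL_eq, apply_ite List.ofFn]

section
variable (hi : amax (List.ofFn r) = i₀) (hj : amax (List.ofFn c) = j₀)
include hi hj

theorem starL_eq (l : Fin (m * n)) : starL (ins r c e) l = true ↔ star i₀ j₀ l := by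
  simp only [starL, ins, List.length_ofFn, hi, hj, decide_eq_true_eq, star, Fin.ext_iff,
    Fin.coe_divNat, Fin.coe_modNat]

theorem par (hN : ∑ i, r i = ∑ j, c j) (hr : ∀ i, r i ≤ r i₀) (hc : ∀ j, c j ≤ c j₀) :
    Par r c i₀ j₀ (qq (ins r c e)) (QQ (ins r c e)) (fun l => hL (ins r c e) l)
      (fun l => ML (ins r c e) l) (gF r c i₀ j₀ (QQ (ins r c e))) := by
  have hQ : ∀ k, 0 < QQ (ins r c e) ^ k := fun k => Nat.pow_pos (Nat.pow_pos two_pos)
  refine ⟨rfl, ?_, hN, hr, hc, fun l => ?_, fun l hl => ?_, fun l hl => ?_, ?_,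
    _, rfl, sc_spec _ (hQ _)⟩
  · refine le_trans ?_ (Nat.lt_size_self _).le
    simp [ins]
  · unfold hL; split_ifs; exacts [one_pos, (sc_spec _ (hQ _)).1]
  · simp only [hL, ML, starL_eq hi hj, hl, if_true, and_self]
  · simp only [hL, ML, starL_eq hi hj, hl, if_false, true_and]
    simp only [ins, List.length_ofFn, ← Fin.coe_divNat, ← Fin.coe_modNat, getD_ofFn]
    exact (sc_spec _ (hQ _)).2
  · rintro (i | j) <;> exact sc_spec _ (hQ _)

theorem r0_eq : r0 (ins r c e) + c0 (ins r c e) = r i₀ + c j₀ ∧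
    min (r0 (ins r c e)) (c0 (ins r c e)) = min (r i₀) (c j₀) := by
  simp only [r0, c0, ins, hi, hj, getD_ofFn, and_self]

theorem kfL_eq (X : Fin (m * n) → ℕ) : kfL (ins r c e) (List.ofFn X) =
    kf r c i₀ j₀ (qq (ins r c e)) (QQ (ins r c e)) (fun l => hL (ins r c e) l)
      (gF r c i₀ j₀ (QQ (ins r c e))) X := by
  rw [kfL, (r0_eq hi hj).1, (r0_eq hi hj).2, map_cells, kf, Fintype.sum_option,
    Fintype.sum_sum_type, sum_eq X]
  simp only [show (ins r c e).1 = List.ofFn r from rfl, show (ins r c e).2.1 = List.ofFn c from rfl,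
    List.length_ofFn, map_range, List.sum_ofFn, rowS_eq, colS_eq, getD_ofFn]
  rfl

theorem stepL_eq (Z : Fin (m * n) → ℕ) (b : List Bool) : stepL (ins r c e) (List.ofFn Z) b =
    List.ofFn (stepF r c i₀ j₀ (qq (ins r c e)) (QQ (ins r c e)) (fun l => hL (ins r c e) l)
      (fun l => ML (ins r c e) l) (gF r c i₀ j₀ (QQ (ins r c e))) Z b) := by
  simp only [stepL, stepF, show (ins r c e).1 = List.ofFn r from rfl,
    show (ins r c e).2.1 = List.ofFn c from rfl, List.length_ofFn]
  split_ifs with hl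
  · rw [mvL_eq Z ⟨_, hl⟩]
    simp only [tryL, tryF, kzL, map_cells, getD_ofFn, kfL_eq hi hj, apply_ite List.ofFn]
  · rfl

omit hi hj in
theorem foldl_map {σ τ β : Type} {f : σ → β → σ} {f' : τ → β → τ} (φ : σ → τ)
    (h : ∀ s b, f' (φ s) b = φ (f s b)) : ∀ (l : List β) (s : σ), l.foldl f' (φ s) = φ (l.foldl f s)
  | [], _ => rfl
  | b :: l, s => by rw [List.foldl_cons, h, foldl_map φ h l]; rfl

theorem pointL_eq (w : List Bool) : pointL (ins r c e) w =
    List.ofFn (pointF r c i₀ j₀ (qq (ins r c e)) (QQ (ins r c e)) (Nat.size (∑ i, r i))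
      (fun l => hL (ins r c e) l) (fun l => ML (ins r c e) l) (gF r c i₀ j₀ (QQ (ins r c e))) w) := by
  rw [pointL, map_cells, chainL, map_cells, foldl_map List.ofFn (stepL_eq hi hj)]
  simp only [getD_ofFn, show (ins r c e).1 = List.ofFn r from rfl, List.sum_ofFn]
  rfl

theorem feasL_eq (X : Fin (m * n) → ℕ) :
    feasL (ins r c e) (List.ofFn X) = true ↔ ∀ o, viol r c i₀ j₀ 0 o X = 0 := by
  rw [feasL, (r0_eq hi hj).1, sum_eq X, Option.forall, Sum.forall]
  simp only [show (ins r c e).1 = List.ofFn r from rfl, show (ins r c e).2.1 = List.ofFn c from rfl,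
    List.length_ofFn, List.sum_ofFn, Bool.and_eq_true, decide_eq_true_eq, List.all_eq_true,
    List.mem_range, viol, bd, Nat.sub_zero]
  refine and_congr Iff.rfl (and_congr ⟨fun H i => ?_, fun H i hi => ?_⟩
    ⟨fun H i => ?_, fun H i hi => ?_⟩)
  · simpa only [rowS_eq, getD_ofFn] using H i i.2
  · simpa only [← rowS_eq (r := r) (c := c) (e := e), ← getD_ofFn r] using H ⟨i, hi⟩
  · simpa only [colS_eq, getD_ofFn] using H i i.2
  · simpa only [← colS_eq (r := r) (c := c) (e := e), ← getD_ofFn c] using H ⟨i, hi⟩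

theorem fillL_eq (X : Fin (m * n) → ℕ) :
    fillL (ins r c e) (List.ofFn X) = flt (fill r c i₀ j₀ X) := by
  rw [fillL, (r0_eq hi hj).1, sum_eq X, map_cells, flt]
  congr 1
  funext l
  simp only [show (ins r c e).1 = List.ofFn r from rfl, show (ins r c e).2.1 = List.ofFn c from rfl,
    List.length_ofFn, List.sum_ofFn, hi, hj, ← Fin.coe_divNat, ← Fin.coe_modNat, getD_ofFn,
    rowS_eq, colS_eq, fill, Fin.ext_iff, cell_div_mod]

theorem mainL_eq (w : List Bool) : mainL (ins r c e) w =
    flt (mainF r c i₀ j₀ (qq (ins r c e)) (QQ (ins r c e)) (Nat.size (∑ i, r i))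
      (fun l => hL (ins r c e) l) (fun l => ML (ins r c e) l) (gF r c i₀ j₀ (QQ (ins r c e)))
      (nwF r c) w) := by
  rw [mainL, nwL_eq, foldl_map flt (f := attF r c i₀ j₀ (qq (ins r c e)) (QQ (ins r c e))
    (Nat.size (∑ i, r i)) (fun l => hL (ins r c e) l) (fun l => ML (ins r c e) l)
    (gF r c i₀ j₀ (QQ (ins r c e)))) fun Y b => by
      simp only [attL, attF, pointL_eq hi hj, feasL_eq hi hj, fillL_eq hi hj, apply_ite flt]]
  simp only [show (ins r c e).1 = List.ofFn r from rfl, show (ins r c e).2.1 = List.ofFn c from rfl,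
    List.length_ofFn, List.sum_ofFn]
  rfl

end

theorem hL_pow (l : Fin (m * n)) : ∃ k ≤ Nat.size (∑ i, r i), hL (ins r c e) l = 2 ^ k := by
  unfold hL
  split_ifs
  · exact ⟨0, Nat.zero_le _, rfl⟩
  · refine ⟨_, Nat.size_le_size ((Nat.div_le_self _ _).trans ((min_le_left _ _).trans ?_)), rfl⟩
    simp only [ins, List.length_ofFn, ← Fin.coe_divNat, getD_ofFn]
    exact single_le_sum (fun _ _ => Nat.zero_le _) (mem_univ _)

theorem sampler_input {T : ℕ} (ε : ℝ) (ω : Fin T → Bool) :
    sampler (input r c ε ω) = mainL (ins r c ⌈1 / ε⌉₊) (List.ofFn ω) := by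
  have e1 : ∀ A B : List ℕ, A.length = m → (A ++ B).take m = A ∧ (A ++ B).drop m = B :=
    fun A B h => h ▸ ⟨List.take_left, List.drop_left⟩
  have e2 : ∀ A B : List ℕ, A.length = n → (A ++ B).take n = A ∧ (A ++ B).drop n = B :=
    fun A B h => h ▸ ⟨List.take_left, List.drop_left⟩
  simp only [sampler, input, List.cons_append, List.nil_append, List.getD_cons_zero,
    List.getD_cons_succ, ← List.drop_drop, List.drop_succ_cons, List.drop_zero, List.append_assoc,
    e1 _ _ List.length_ofFn, e2 _ _ List.length_ofFn, List.map_ofFn, ins]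
  congr 2
  funext t
  rcases h : ω t <;> simp [h]

end Vale.Agent.P328
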