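import Vale.Agent.P328.Coarse

/-! The Metropolis chain on a box. -/

namespace Vale.Agent.P328

open Finset

variable {D : ℕ}

/-- The proposed moves. -/
def mv (M : Fin D → ℕ) (Z : Fin D → ℕ) (j : Fin D × Bool) : Fin D → ℕ :=
  if j.2 then (if Z j.1 + 1 < M j.1 then Function.update Z j.1 (Z j.1 + 1) else Z) else dn j.1 Z

theorem mv_mem {M Z : Fin D → ℕ} (hZ : Z ∈ box M) (j : Fin D × Bool) : mv M Z j ∈ box M := by
  rw [mem_box] at hZ ⊢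
  intro l
  have := hZ l
  unfold mv dn
  by_cases h : l = j.1
  · subst h; split_ifs <;> simp <;> omega
  · split_ifs <;> simp [h, this]

theorem mv_symm (M : Fin D → ℕ) (F : (Fin D → ℕ) → (Fin D → ℕ) → ℝ) (hF : ∀ Z, F Z Z = 0) :
    ∑ Z ∈ box M, ∑ j, F Z (mv M Z j) = ∑ Z ∈ box M, ∑ j, F (mv M Z j) Z := by
  have key : ∀ (F : (Fin D → ℕ) → (Fin D → ℕ) → ℝ), (∀ Z, F Z Z = 0) → ∀ l,
      ∑ Z ∈ box M, F Z (mv M Z (l, true)) = ∑ Z ∈ box M, F (mv M Z (l, false)) Z := by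
    intro F hF l
    rw [sum_box_split M l, sum_box_split M l]
    refine sum_congr rfl fun Z _ => ?_
    simp only [mv, dn, if_true, Function.update_self, Function.update_idem, Bool.false_eq_true,
      if_false]
    rcases M l with _ | r
    · rfl
    · rw [sum_range_succ, sum_range_succ', if_neg (lt_irrefl _), hF, hF]
      congr 1
      exact sum_congr rfl fun z hz => by
        rw [if_pos (by have := mem_range.1 hz; omega), Nat.add_sub_cancel]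
  rw [sum_comm, sum_comm (s := box M), Fintype.sum_prod_type, Fintype.sum_prod_type]
  refine sum_congr rfl fun l _ => ?_
  rw [Fintype.sum_bool, Fintype.sum_bool, key F hF l, key (fun a b => F b a) hF l, add_comm]

/-- The acceptance probability. -/
noncomputable def acc (μ : (Fin D → ℕ) → ℝ) (Z Z' : Fin D → ℕ) : ℝ := min 1 (μ Z' / μ Z)

/-- One step of the chain, acting on functions. -/
noncomputable def Pk (M : Fin D → ℕ) (ρ : ℝ) (μ ψ : (Fin D → ℕ) → ℝ) (Z : Fin D → ℕ) : ℝ :=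
  ψ Z + ρ * ∑ j, acc μ Z (mv M Z j) * (ψ (mv M Z j) - ψ Z)

variable {M : Fin D → ℕ} {ρ : ℝ} {μ : (Fin D → ℕ) → ℝ}

theorem mul_acc (hw : ∀ Z, 0 < μ Z) (Z Z' : Fin D → ℕ) : μ Z * acc μ Z Z' = min (μ Z) (μ Z') := by
  rw [acc, mul_min_of_nonneg _ _ (hw Z).le, mul_one, mul_div_cancel₀ _ (hw Z).ne']

theorem acc_nonneg (hw : ∀ Z, 0 < μ Z) (Z Z' : Fin D → ℕ) : 0 ≤ acc μ Z Z' :=
  le_min zero_le_one (div_nonneg (hw _).le (hw _).le)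

theorem sum_Pk (hw : ∀ Z, 0 < μ Z) (ψ : (Fin D → ℕ) → ℝ) :
    ∑ Z ∈ box M, μ Z * Pk M ρ μ ψ Z = ∑ Z ∈ box M, μ Z * ψ Z := by
  have h1 : ∑ Z ∈ box M, μ Z * Pk M ρ μ ψ Z = ∑ Z ∈ box M, μ Z * ψ Z + ρ * ∑ Z ∈ box M, ∑ j,
      min (μ Z) (μ (mv M Z j)) * (ψ (mv M Z j) - ψ Z) := by
    rw [mul_sum, ← sum_add_distrib]
    refine sum_congr rfl fun Z _ => ?_
    simp only [Pk, ← mul_acc hw, mul_assoc, ← mul_sum]
    ring
  have h2 := mv_symm M (fun Z Z' => min (μ Z) (μ Z') * (ψ Z' - ψ Z)) fun _ => by simp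
  have h3 : ∑ Z ∈ box M, ∑ j, min (μ (mv M Z j)) (μ Z) * (ψ Z - ψ (mv M Z j)) =
      -∑ Z ∈ box M, ∑ j, min (μ Z) (μ (mv M Z j)) * (ψ (mv M Z j) - ψ Z) := by
    simp only [← sum_neg_distrib]
    refine sum_congr rfl fun Z _ => sum_congr rfl fun j _ => ?_
    rw [min_comm]; ring
  rw [h1]
  have : ∑ Z ∈ box M, ∑ j, min (μ Z) (μ (mv M Z j)) * (ψ (mv M Z j) - ψ Z) = 0 := by linarith
  rw [this]; ring

theorem Pk_sq_le (hw : ∀ Z, 0 < μ Z) (hρ0 : 0 ≤ ρ) (hρ : ρ * (2 * D) ≤ 1 / 2)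
    (ψ : (Fin D → ℕ) → ℝ) (Z : Fin D → ℕ) : Pk M ρ μ ψ Z ^ 2 ≤ Pk M ρ μ (fun Z => ψ Z ^ 2) Z -
      (ρ / 2) * ∑ j, acc μ Z (mv M Z j) * (ψ Z - ψ (mv M Z j)) ^ 2 := by
  let p : Fin D × Bool → ℝ := fun j => acc μ Z (mv M Z j)
  let δ : Fin D × Bool → ℝ := fun j => ψ (mv M Z j) - ψ Z
  have hp : ∀ j, 0 ≤ p j := fun j => acc_nonneg hw _ _
  have e2 : ∑ j, acc μ Z (mv M Z j) * (ψ Z - ψ (mv M Z j)) ^ 2 = ∑ j, p j * δ j ^ 2 :=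
    sum_congr rfl fun j _ => by simp only [p, δ]; ring
  have e3 : ∑ j, acc μ Z (mv M Z j) * (ψ (mv M Z j) ^ 2 - ψ Z ^ 2) =
      ∑ j, p j * δ j ^ 2 + 2 * ψ Z * ∑ j, p j * δ j := by
    simp only [p, δ, mul_sum, ← sum_add_distrib]
    exact sum_congr rfl fun j _ => by ring
  have cs : (∑ j, p j * δ j) ^ 2 ≤ (∑ j, p j) * ∑ j, p j * δ j ^ 2 :=
    sum_sq_le_sum_mul_sum_of_sq_le_mul univ (fun j _ => hp j)
      (fun j _ => mul_nonneg (hp j) (sq_nonneg _)) (fun j _ => le_of_eq (by ring))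
  have hsum : ∑ j, p j ≤ 2 * D := by
    have := sum_le_card_nsmul univ p 1 fun j _ => min_le_left _ _
    simp only [card_univ, Fintype.card_prod, Fintype.card_fin, Fintype.card_bool, nsmul_eq_mul,
      mul_one] at this
    push_cast at this
    linarith
  have hB : 0 ≤ ∑ j, p j * δ j ^ 2 := sum_nonneg fun j _ => mul_nonneg (hp j) (sq_nonneg _)
  simp only [Pk]
  rw [e2, e3]
  change (ψ Z + ρ * ∑ j, p j * δ j) ^ 2 ≤ _
  set A := ∑ j, p j * δ j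
  set B := ∑ j, p j * δ j ^ 2
  have h1 : ρ * ∑ j, p j ≤ 1 / 2 := (mul_le_mul_of_nonneg_left hsum hρ0).trans hρ
  have h2 : ρ ^ 2 * A ^ 2 ≤ ρ / 2 * B := by
    have := mul_le_mul_of_nonneg_left cs (sq_nonneg ρ)
    have h3 := mul_le_mul_of_nonneg_right h1 (mul_nonneg hρ0 hB)
    nlinarith
  nlinarith

theorem mixing (hw : ∀ Z, 0 < μ Z) (hρ0 : 0 ≤ ρ) (hρ : ρ * (2 * D) ≤ 1 / 2) {C K γ : ℝ}
    (hK1 : 1 ≤ K) (hC : 0 ≤ C) (hK : ∀ Z ∈ box M, ∀ l, μ Z ≤ K * μ (dn l Z))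
    (hP : ∀ F : (Fin D → ℕ) → ℝ, ∃ t, ∑ Z ∈ box M, μ Z * (F Z - t) ^ 2 ≤
      C * ∑ l, ∑ Z ∈ box M, μ Z * (F Z - F (dn l Z)) ^ 2)
    (hγ : γ * (C * K) ≤ ρ / 2) (hγ0 : 0 ≤ γ) (hγ1 : γ ≤ 1) (ψ : (Fin D → ℕ) → ℝ) (t : ℝ)
    (ht : ∑ Z ∈ box M, μ Z * (ψ Z - t) = 0) (T : ℕ) :
    ∑ Z ∈ box M, μ Z * ((Pk M ρ μ)^[T] ψ Z - t) = 0 ∧
    ∑ Z ∈ box M, μ Z * ((Pk M ρ μ)^[T] ψ Z - t) ^ 2 ≤
      (1 - γ) ^ T * ∑ Z ∈ box M, μ Z * (ψ Z - t) ^ 2 := by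
  induction T with
  | zero => exact ⟨ht, by simp⟩
  | succ T ih =>
    set φ := (Pk M ρ μ)^[T] ψ with hφ
    have e : ∀ Z, (Pk M ρ μ)^[T + 1] ψ Z - t = Pk M ρ μ (fun Z => φ Z - t) Z := by
      intro Z
      rw [Function.iterate_succ_apply', ← hφ]
      simp only [Pk, sub_sub_sub_cancel_right]
      ring
    simp only [e]
    refine ⟨by rw [sum_Pk hw, ih.1], ?_⟩
    set E := ∑ Z ∈ box M, μ Z * ∑ j, acc μ Z (mv M Z j) * (φ Z - φ (mv M Z j)) ^ 2 with hE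
    have h1 : ∑ Z ∈ box M, μ Z * Pk M ρ μ (fun Z => φ Z - t) Z ^ 2 ≤
        ∑ Z ∈ box M, μ Z * (φ Z - t) ^ 2 - ρ / 2 * E := by
      rw [← sum_Pk (ρ := ρ) hw fun Z => (φ Z - t) ^ 2, hE, mul_sum, ← sum_sub_distrib]
      refine sum_le_sum fun Z _ => ?_
      have := mul_le_mul_of_nonneg_left (Pk_sq_le (M := M) hw hρ0 hρ (fun Z => φ Z - t) Z) (hw Z).le
      simp only [sub_sub_sub_cancel_right] at this
      linarith
    have h2 : ∑ l, ∑ Z ∈ box M, μ Z * (φ Z - φ (dn l Z)) ^ 2 ≤ K * E := by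
      rw [sum_comm, hE, mul_sum]
      refine sum_le_sum fun Z hZ => ?_
      rw [mul_sum, mul_sum, Fintype.sum_prod_type]
      refine sum_le_sum fun l _ => ?_
      rw [Fintype.sum_bool]
      refine le_add_of_nonneg_of_le (mul_nonneg (by linarith) (mul_nonneg (hw Z).le
        (mul_nonneg (acc_nonneg hw _ _) (sq_nonneg _)))) ?_
      rw [← mul_assoc (μ Z), mul_acc hw, ← mul_assoc, mul_min_of_nonneg _ _ (by linarith)]
      exact mul_le_mul_of_nonneg_right (le_min (le_mul_of_one_le_left (hw Z).le hK1) (hK Z hZ l))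
        (sq_nonneg _)
    have h3 : ∑ Z ∈ box M, μ Z * (φ Z - t) ^ 2 ≤ C * (K * E) := by
      obtain ⟨t', ht'⟩ := hP φ
      refine le_trans ?_ (ht'.trans (mul_le_mul_of_nonneg_left h2 hC))
      have : ∑ Z ∈ box M, μ Z * (φ Z - t') ^ 2 = ∑ Z ∈ box M, μ Z * (φ Z - t) ^ 2 +
          2 * (t - t') * ∑ Z ∈ box M, μ Z * (φ Z - t) + ∑ Z ∈ box M, μ Z * (t - t') ^ 2 := by
        simp only [mul_sum, ← sum_add_distrib]
        exact sum_congr rfl fun _ _ => by ring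
      rw [this, ih.1]
      have := sum_nonneg fun Z (_ : Z ∈ box M) => mul_nonneg (hw Z).le (sq_nonneg (t - t'))
      linarith
    have hE0 : 0 ≤ E := sum_nonneg fun Z _ => mul_nonneg (hw Z).le
      (sum_nonneg fun j _ => mul_nonneg (acc_nonneg hw _ _) (sq_nonneg _))
    have h4 := mul_le_mul_of_nonneg_left h3 hγ0
    have h5 := mul_le_mul_of_nonneg_left ih.2 (by linarith : 0 ≤ 1 - γ)
    have h6 := mul_le_mul_of_nonneg_right hγ hE0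
    rw [pow_succ]
    linarith

/-- Pointwise convergence for a function with values in `[0,1]`. -/
theorem mixing_point (hw : ∀ Z, 0 < μ Z) (hρ0 : 0 ≤ ρ) (hρ : ρ * (2 * D) ≤ 1 / 2) {C K γ : ℝ}
    (hK1 : 1 ≤ K) (hC : 0 ≤ C) (hK : ∀ Z ∈ box M, ∀ l, μ Z ≤ K * μ (dn l Z))
    (hP : ∀ F : (Fin D → ℕ) → ℝ, ∃ t, ∑ Z ∈ box M, μ Z * (F Z - t) ^ 2 ≤
      C * ∑ l, ∑ Z ∈ box M, μ Z * (F Z - F (dn l Z)) ^ 2)
    (hγ : γ * (C * K) ≤ ρ / 2) (hγ0 : 0 ≤ γ) (hγ1 : γ ≤ 1) (ψ : (Fin D → ℕ) → ℝ)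
    (h0 : ∀ Z, 0 ≤ ψ Z) (h1 : ∀ Z, ψ Z ≤ 1) (T : ℕ) {Z₀ : Fin D → ℕ} (hZ₀ : Z₀ ∈ box M) :
    μ Z₀ * ((Pk M ρ μ)^[T] ψ Z₀ - (∑ Z ∈ box M, μ Z * ψ Z) / ∑ Z ∈ box M, μ Z) ^ 2 ≤
      (1 - γ) ^ T * ∑ Z ∈ box M, μ Z := by
  have hZ : 0 < ∑ Z ∈ box M, μ Z := sum_pos (fun Z _ => hw Z) ⟨_, hZ₀⟩
  set t := (∑ Z ∈ box M, μ Z * ψ Z) / ∑ Z ∈ box M, μ Z with ht
  have ht0 : 0 ≤ t := div_nonneg (sum_nonneg fun Z _ => mul_nonneg (hw Z).le (h0 Z)) hZ.le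
  have ht1 : t ≤ 1 := by
    rw [ht, div_le_one hZ]
    exact sum_le_sum fun Z _ => mul_le_of_le_one_right (hw Z).le (h1 Z)
  have := (mixing hw hρ0 hρ hK1 hC hK hP hγ hγ0 hγ1 ψ t (by
    simp only [mul_sub, sum_sub_distrib, ← sum_mul]
    rw [ht, mul_div_cancel₀ _ hZ.ne', sub_self]) T).2
  refine le_trans (single_le_sum (f := fun Z => μ Z * ((Pk M ρ μ)^[T] ψ Z - t) ^ 2)
    (fun Z _ => mul_nonneg (hw Z).le (sq_nonneg _)) hZ₀) (this.trans ?_)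
  refine mul_le_mul_of_nonneg_left ?_ (pow_nonneg (by linarith) _)
  refine sum_le_sum fun Z _ => mul_le_of_le_one_right (hw Z).le ?_
  have := h0 Z
  have := h1 Z
  nlinarith

end Vale.Agent.P328
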