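import Vale.Agent.P328.Fine

/-! Passing from the fine box to the box of blocks. -/

namespace Vale.Agent.P328

open Finset

/-- The point `x` is close to the block number `z`. -/
def near (h x z : ℕ) : Prop := h * z ≤ x + (h - 1) ∧ x ≤ h * z + 2 * (h - 1)

instance (h x z : ℕ) : Decidable (near h x z) := inferInstanceAs (Decidable (_ ∧ _))

theorem near_div {h : ℕ} (hh : 0 < h) (x : ℕ) : near h x (x / h) := by
  have := Nat.div_add_mod x h
  have := Nat.mod_lt x hh
  constructor <;> omega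

theorem near_mem {h x z : ℕ} (hh : 0 < h) (hn : near h x z) : x / h ≤ z + 1 ∧ z ≤ x / h + 1 := by
  obtain ⟨h1, h2⟩ := hn
  constructor
  · refine Nat.lt_succ_iff.1 ((Nat.div_lt_iff_lt_mul hh).2 ?_)
    have : (z + 1).succ * h = h * z + 2 * h := by simp only [Nat.succ_eq_add_one]; ring
    omega
  · by_contra hc
    have h3 : x / h + 2 ≤ z := by omega
    have h4 := Nat.mul_le_mul_left h h3
    have := Nat.div_add_mod x h
    have := Nat.mod_lt x hh
    rw [mul_add] at h4
    omega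

/-- The clamped linear ramp. -/
noncomputable def ramp (h : ℕ) (y : ℝ) : ℝ := max 0 (min 1 (y / (2 * h)))

/-- Tail probabilities of the interpolation kernel. -/
noncomputable def Qk (h M x z : ℕ) : ℝ :=
  if z = 0 then 1 else if z < M then ramp h (2 * x + 1 + h - 2 * h * z) else 0

/-- The interpolation kernel. -/
noncomputable def pk (h M x z : ℕ) : ℝ := Qk h M x z - Qk h M x (z + 1)

/-- The indicator of closeness. -/
noncomputable def bk (h x z : ℕ) : ℝ := if near h x z then 1 else 0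

/-- The point mass at the block of `x`. -/
noncomputable def dk (h x z : ℕ) : ℝ := if z = x / h then 1 else 0

section
variable {h M : ℕ}

theorem ramp_mono (hh : 0 < h) {y y' : ℝ} (hy : y ≤ y') : ramp h y ≤ ramp h y' :=
  max_le_max le_rfl (min_le_min le_rfl (div_le_div_of_nonneg_right hy (by positivity)))

theorem ramp_le_one (y : ℝ) : ramp h y ≤ 1 := max_le zero_le_one (min_le_left _ _)

theorem ramp_nonneg (y : ℝ) : 0 ≤ ramp h y := le_max_left _ _

theorem ramp_zero (hh : 0 < h) {y : ℝ} (hy : y ≤ 0) : ramp h y = 0 :=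
  max_eq_left ((min_le_right _ _).trans (div_nonpos_of_nonpos_of_nonneg hy (by positivity)))

theorem ramp_one (hh : 0 < h) {y : ℝ} (hy : 2 * h ≤ y) : ramp h y = 1 := by
  rw [ramp, min_eq_left ((one_le_div (by positivity)).2 hy), max_eq_right zero_le_one]

theorem ramp_lip (hh : 0 < h) (y : ℝ) : ramp h (y + 2) ≤ ramp h y + 1 / h := by
  have e : (y + 2) / (2 * h) = y / (2 * h) + 1 / h := by field_simp
  have : (0 : ℝ) < 1 / h := by positivity
  simp only [ramp, e, max_def, min_def]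
  split_ifs <;> linarith

theorem ramp_symm (hh : 0 < h) (y : ℝ) : ramp h (2 * h - y) = 1 - ramp h y := by
  have e : (2 * h - y) / (2 * h) = 1 - y / (2 * h) := by field_simp
  simp only [ramp, e, max_def, min_def]
  split_ifs <;> linarith

theorem Qk_nonneg (x z : ℕ) : 0 ≤ Qk h M x z := by
  unfold Qk; split_ifs; exacts [zero_le_one, ramp_nonneg _, le_rfl]

theorem Qk_le_one (x z : ℕ) : Qk h M x z ≤ 1 := by
  unfold Qk; split_ifs; exacts [le_rfl, ramp_le_one _, zero_le_one]

theorem pk_nonneg (hh : 0 < h) (x z : ℕ) : 0 ≤ pk h M x z := by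
  simp only [pk, Qk, Nat.succ_ne_zero, if_false, sub_nonneg]
  have := ramp_le_one (h := h) (2 * x + 1 + h - 2 * h * (z + 1 : ℕ))
  have := ramp_nonneg (h := h) (2 * x + 1 + h - 2 * h * z)
  have := ramp_mono hh (y := 2 * x + 1 + h - 2 * h * (z + 1 : ℕ)) (y' := 2 * x + 1 + h - 2 * h * z)
    (by push_cast; linarith [(Nat.cast_nonneg h : (0 : ℝ) ≤ h)])
  split_ifs <;> linarith

theorem abel (hM : 0 < M) (x : ℕ) (φ : ℕ → ℝ) : ∑ z ∈ range M, pk h M x z * φ z =
    φ 0 + ∑ z ∈ range M, Qk h M x z * (φ z - φ (z - 1)) := by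
  have key : ∀ n, ∑ z ∈ range n, pk h M x z * φ z = Qk h M x 0 * φ 0 - Qk h M x n * φ (n - 1) +
      ∑ z ∈ range n, Qk h M x z * (φ z - φ (z - 1)) := by
    intro n
    induction n with
    | zero => simp
    | succ n ih => rw [sum_range_succ, sum_range_succ, ih, pk, Nat.add_sub_cancel]; ring
  rw [key]
  simp [Qk, hM.ne']

theorem pk_sum (hM : 0 < M) (x : ℕ) : ∑ z ∈ range M, pk h M x z = 1 := by
  simpa using abel hM x fun _ => 1

theorem Qk_col (hh : 0 < h) {z : ℕ} (hz : z ≤ M) :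
    ∑ x ∈ range (h * M), Qk h M x z = h * (M - z) := by
  rcases Nat.eq_zero_or_pos z with h0 | h0
  · simp [Qk, h0]
  rcases hz.eq_or_lt with h1 | h1
  · simp [Qk, h1, show M ≠ 0 by omega]
  obtain ⟨u, rfl⟩ : ∃ u, z = u + 1 := ⟨z - 1, by omega⟩
  obtain ⟨w, rfl⟩ : ∃ w, M = u + 2 + w := ⟨M - (u + 2), by omega⟩
  have hh' : (0 : ℝ) < h := Nat.cast_pos.2 hh
  simp only [Qk, h0.ne', h1, if_false, if_true]
  rw [show h * (u + 2 + w) = h * u + 2 * h + h * w by ring, sum_range_add, sum_range_add,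
    sum_eq_zero fun x hx => ramp_zero hh (by
      have : ((x + 1 : ℕ) : ℝ) ≤ (h * u : ℕ) := Nat.cast_le.2 (mem_range.1 hx)
      push_cast at this ⊢; linarith),
    sum_congr rfl (g := fun _ => (1 : ℝ)) (s₁ := range (h * w)) fun x _ => ramp_one hh (by
      push_cast; linarith [(Nat.cast_nonneg x : (0 : ℝ) ≤ x)])]
  have e1 : ∑ x ∈ range (2 * h), ramp h (2 * (h * u + x : ℕ) + 1 + h - 2 * h * (u + 1 : ℕ)) =
      ∑ x ∈ range (2 * h), ramp h (2 * x + 1 - h) :=
    sum_congr rfl fun x _ => by congr 1; push_cast; ring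
  have e2 : ∑ x ∈ range (2 * h), ramp h (2 * x + 1 - h) =
      ∑ x ∈ range (2 * h), (1 - ramp h (2 * x + 1 - h)) := by
    rw [← sum_range_reflect]
    refine sum_congr rfl fun x hx => ?_
    rw [← ramp_symm hh]
    congr 1
    have := mem_range.1 hx
    rw [Nat.sub_sub, Nat.cast_sub (by omega)]
    push_cast; ring
  rw [sum_sub_distrib] at e2
  simp only [sum_const, card_range, nsmul_eq_mul, mul_one] at e2 ⊢
  rw [e1]
  push_cast at e2 ⊢
  linarith

theorem pk_col (hh : 0 < h) {z : ℕ} (hz : z < M) : ∑ x ∈ range (h * M), pk h M x z ≤ h := by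
  simp only [pk, sum_sub_distrib]
  rw [Qk_col hh hz.le, Qk_col hh hz]
  push_cast; linarith

theorem pk_near (hh : 0 < h) {x z : ℕ} (hx : x < h * M) (hz : z < M) (hp : pk h M x z ≠ 0) :
    near h x z := by
  have h0 := pk_nonneg (M := M) hh x z
  constructor
  · by_contra hc
    have h1 : z ≠ 0 := by rintro rfl; simp at hc
    have h2 : ((x + h : ℕ) : ℝ) ≤ (h * z : ℕ) := Nat.cast_le.2 (by omega)
    have h3 : (1 : ℝ) ≤ h := Nat.one_le_cast.2 hh
    have h4 : Qk h M x z = 0 := by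
      rw [Qk, if_neg h1, if_pos hz, ramp_zero hh (by push_cast at h2; linarith)]
    have h5 : 0 ≤ Qk h M x (z + 1) := Qk_nonneg _ _
    rw [pk, h4] at h0 hp
    exact hp (by linarith)
  · by_contra hc
    have h1 : z + 1 < M := by
      by_contra h1
      have := Nat.mul_le_mul_left h (not_lt.1 h1)
      rw [mul_add] at this
      omega
    have h2 : ((h * z + 2 * h : ℕ) : ℝ) ≤ (x + 1 : ℕ) := Nat.cast_le.2 (by omega)
    have h3 : (1 : ℝ) ≤ h := Nat.one_le_cast.2 hh
    have h4 : Qk h M x (z + 1) = 1 := by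
      rw [Qk, if_neg (Nat.succ_ne_zero z), if_pos h1, ramp_one hh (by push_cast at h2 ⊢; linarith)]
    have h5 : Qk h M x z ≤ 1 := Qk_le_one _ _
    rw [pk, h4] at h0 hp
    exact hp (by linarith)

theorem bk_nonneg (x z : ℕ) : 0 ≤ bk h x z := by unfold bk; split_ifs <;> norm_num

theorem bk_col (hh : 0 < h) (z n : ℕ) : ∑ x ∈ range n, bk h x z ≤ 3 * h := by
  simp only [bk, sum_boole]
  have : ((range n).filter fun x => near h x z) ⊆ Ico (h * z - h) (h * z + 2 * h) := by
    intro x hx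
    obtain ⟨h1, h2⟩ := (mem_filter.1 hx).2
    rw [mem_Ico]; omega
  have h2 := card_le_card this
  rw [Nat.card_Ico] at h2
  exact_mod_cast h2.trans (by omega)

theorem ineq1 (hh : 0 < h) (hM : 0 < M) (x : ℕ) (φ : ℕ → ℝ) :
    (∑ z ∈ range M, pk h M x z * φ z - ∑ z ∈ range M, pk h M (x - 1) z * φ z) ^ 2 ≤
      3 / (h : ℝ) ^ 2 * ∑ z ∈ range M, bk h x z * (φ z - φ (z - 1)) ^ 2 := by
  rcases x with _ | y
  · simp only [zero_tsub, sub_self]
    have := sum_nonneg fun z (_ : z ∈ range M) =>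
      mul_nonneg (bk_nonneg (h := h) 0 z) (sq_nonneg (φ z - φ (z - 1)))
    rw [zero_pow two_ne_zero]; positivity
  rw [abel hM, abel hM, add_sub_add_left_eq_sub, ← sum_sub_distrib, Nat.add_sub_cancel]
  have hh' : (1 : ℝ) ≤ h := Nat.one_le_cast.2 hh
  have key : ∀ z, |Qk h M (y + 1) z - Qk h M y z| ≤ bk h (y + 1) z / h := by
    intro z
    have hb := div_nonneg (bk_nonneg (h := h) (y + 1) z) (Nat.cast_nonneg h)
    unfold Qk
    split_ifs with h1 h2
    · simpa using hb
    · have e : (2 * (y + 1 : ℕ) + 1 + h - 2 * h * z : ℝ) = (2 * y + 1 + h - 2 * h * z) + 2 := by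
        push_cast; ring
      rw [e]
      by_cases hn : near h (y + 1) z
      · rw [bk, if_pos hn, abs_le]
        have a1 := ramp_lip hh (2 * y + 1 + h - 2 * h * z)
        have a2 := ramp_mono hh (y := 2 * y + 1 + h - 2 * h * z)
          (y' := 2 * y + 1 + h - 2 * h * z + 2) (by linarith)
        have : (0 : ℝ) < 1 / h := by positivity
        constructor <;> linarith
      · rw [near, not_and_or] at hn
        rcases hn with hn | hn
        · have a1 : ((y + 1 + h : ℕ) : ℝ) ≤ (h * z : ℕ) := Nat.cast_le.2 (by omega)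
          push_cast at a1
          rw [ramp_zero hh (by linarith), ramp_zero hh (by linarith)]; simpa using hb
        · have a1 : ((h * z + 2 * h : ℕ) : ℝ) ≤ (y + 2 : ℕ) := Nat.cast_le.2 (by omega)
          push_cast at a1
          rw [ramp_one hh (by linarith), ramp_one hh (by linarith)]; simpa using hb
    · simpa using hb
  refine (sum_sq_le_sum_mul_sum_of_sq_le_mul (range M) (f := fun z => bk h (y + 1) z / h ^ 2)
    (g := fun z => bk h (y + 1) z * (φ z - φ (z - 1)) ^ 2)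
    (fun z _ => div_nonneg (bk_nonneg _ _) (sq_nonneg _))
    (fun z _ => mul_nonneg (bk_nonneg _ _) (sq_nonneg _)) fun z _ => ?_).trans ?_
  · rw [← sub_mul, mul_pow]
    have := sq_le_sq' (abs_le.1 (key z)).1 (abs_le.1 (key z)).2
    refine (mul_le_mul_of_nonneg_right this (sq_nonneg _)).trans (le_of_eq (by ring))
  · refine mul_le_mul_of_nonneg_right ?_
      (sum_nonneg fun z _ => mul_nonneg (bk_nonneg _ _) (sq_nonneg _))
    rw [← sum_div]
    refine div_le_div_of_nonneg_right ?_ (sq_nonneg _)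
    simp only [bk, sum_boole]
    have : ((range M).filter fun z => near h (y + 1) z) ⊆ Icc ((y + 1) / h - 1) ((y + 1) / h + 1) := by
      intro z hz
      have := near_mem hh (mem_filter.1 hz).2
      rw [mem_Icc]; omega
    have h2 := card_le_card this
    rw [Nat.card_Icc] at h2
    exact_mod_cast h2.trans (by omega)

theorem ineq2 (hh : 0 < h) {x : ℕ} (hx : x < h * M) (φ : ℕ → ℝ) :
    (∑ z ∈ range M, dk h x z * φ z - ∑ z ∈ range M, pk h M x z * φ z) ^ 2 ≤
      1 * ∑ z ∈ range M, bk h x z * (φ z - φ (z - 1)) ^ 2 := by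
  have hM : 0 < M := Nat.pos_of_mul_pos_left (by omega : 0 < h * M)
  have hd : x / h < M := (Nat.div_lt_iff_lt_mul hh).2 (by rwa [mul_comm])
  have e : ∑ z ∈ range M, dk h x z * φ z - ∑ z ∈ range M, pk h M x z * φ z =
      ∑ z ∈ range M, pk h M x z * (φ (x / h) - φ z) := by
    simp only [mul_sub, sum_sub_distrib, ← sum_mul, pk_sum hM]
    simp [dk, hd]
  set T := ∑ z ∈ range M, bk h x z * (φ z - φ (z - 1)) ^ 2 with hT
  have one : ∀ z < M, near h x z → (φ z - φ (z - 1)) ^ 2 ≤ T := fun z hz hn => by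
    have := single_le_sum (f := fun z => bk h x z * (φ z - φ (z - 1)) ^ 2)
      (fun z _ => mul_nonneg (bk_nonneg _ _) (sq_nonneg _)) (mem_range.2 hz)
    rwa [show bk h x z = 1 from if_pos hn, one_mul] at this
  rw [e]
  refine (sum_sq_le_sum_mul_sum_of_sq_le_mul (range M) (f := fun z => pk h M x z)
    (g := fun z => pk h M x z * T) (fun z _ => pk_nonneg hh _ _)
    (fun z _ => mul_nonneg (pk_nonneg hh _ _) ((sq_nonneg _).trans (one _ hd (near_div hh x))))
    fun z hz => ?_).trans (le_of_eq (by rw [← sum_mul, pk_sum hM]; ring))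
  by_cases hp : pk h M x z = 0
  · simp [hp]
  have hn := pk_near hh hx (mem_range.1 hz) hp
  have h1 := near_mem hh hn
  rw [mul_pow, ← mul_assoc, ← sq]
  refine mul_le_mul_of_nonneg_left ?_ (sq_nonneg _)
  rcases lt_trichotomy z (x / h) with h2 | h2 | h2
  · have := one _ hd (near_div hh x)
    rwa [show x / h - 1 = z by omega] at this
  · rw [h2, sub_self, zero_pow two_ne_zero]; exact (sq_nonneg _).trans (one _ hd (near_div hh x))
  · have := one _ (mem_range.1 hz) hn
    rw [show z - 1 = x / h by generalize x / h = w at *; omega] at this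
    linarith [show (φ (x / h) - φ z) ^ 2 = (φ z - φ (x / h)) ^ 2 by ring]

end

variable {D : ℕ}

theorem sum_box_split (M : Fin D → ℕ) (l : Fin D) (g : (Fin D → ℕ) → ℝ) :
    ∑ Z ∈ box M, g Z =
      ∑ Z ∈ box (Function.update M l 1), ∑ z ∈ range (M l), g (Function.update Z l z) := by
  rw [← sum_product']
  refine sum_nbij' (fun Z => (Function.update Z l 0, Z l)) (fun p => Function.update p.1 l p.2)
    ?_ ?_ ?_ ?_ ?_
  · intro Z hZ
    simp only [mem_product, mem_range, mem_box] at hZ ⊢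
    refine ⟨fun k => ?_, hZ l⟩
    by_cases hk : k = l
    · subst hk; simp
    · simpa [hk] using hZ k
  · intro p hp
    simp only [mem_product, mem_range, mem_box] at hp ⊢
    intro k
    by_cases hk : k = l
    · subst hk; simpa using hp.2
    · simpa [hk] using hp.1 k
  · intro Z _; simp
  · intro p hp
    simp only [mem_product, mem_range, mem_box] at hp
    have := hp.1 l
    simp only [Function.update_self] at this
    refine Prod.ext ?_ (by simp)
    simp only [Function.update_idem]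
    rw [← show p.1 l = 0 by omega, Function.update_eq_self]
  · intro Z _; simp

theorem sum_box_block (h M : Fin D → ℕ) (hh : ∀ l, 0 < h l) (g : (Fin D → ℕ) → ℝ) :
    ∑ X ∈ box fun l => h l * M l, g X =
      ∑ Z ∈ box M, ∑ ρ ∈ box h, g fun l => h l * Z l + ρ l := by
  rw [← sum_product']
  refine sum_nbij' (fun X => (fun l => X l / h l, fun l => X l % h l))
    (fun p l => h l * p.1 l + p.2 l) ?_ ?_ ?_ ?_ ?_
  · intro X hX
    simp only [mem_product, mem_box] at hX ⊢
    exact ⟨fun l => (Nat.div_lt_iff_lt_mul (hh l)).2 (by rw [mul_comm]; exact hX l),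
      fun l => Nat.mod_lt _ (hh l)⟩
  · intro p hp
    simp only [mem_product, mem_box] at hp ⊢
    intro l
    have := Nat.mul_le_mul_left (h l) (Nat.succ_le_of_lt (hp.1 l))
    have := hp.2 l
    rw [Nat.mul_succ] at *
    omega
  · intro X _; funext l; exact Nat.div_add_mod _ _
  · intro p hp
    simp only [mem_product, mem_box] at hp
    refine Prod.ext (funext fun l => ?_) (funext fun l => ?_)
    · simp [Nat.mul_add_div (hh l), Nat.div_eq_of_lt (hp.2 l)]
    · simp [Nat.mod_eq_of_lt (hp.2 l)]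
  · intro X _; congr 1; funext l; exact (Nat.div_add_mod _ _).symm

theorem sum_box_div (h M : Fin D → ℕ) (hh : ∀ l, 0 < h l) (g : (Fin D → ℕ) → ℝ) :
    ∑ X ∈ box fun l => h l * M l, g (fun l => X l / h l) = (∏ l, (h l : ℝ)) * ∑ Z ∈ box M, g Z := by
  rw [sum_box_block h M hh, mul_sum]
  refine sum_congr rfl fun Z _ => ?_
  rw [sum_congr rfl (g := fun _ => g Z) fun ρ hρ => by
    congr 1; funext l; simp [Nat.mul_add_div (hh l), Nat.div_eq_of_lt (mem_box.1 hρ l)]]
  simp [box]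

/-- Integration against a product kernel. -/
def EK (M : Fin D → ℕ) (k : Fin D → ℕ → ℝ) (F : (Fin D → ℕ) → ℝ) : ℝ :=
  ∑ Z ∈ box M, (∏ l, k l (Z l)) * F Z

theorem EK_split (M : Fin D → ℕ) (k : Fin D → ℕ → ℝ) (F : (Fin D → ℕ) → ℝ) (l : Fin D) :
    EK M k F = ∑ Z ∈ box (Function.update M l 1), (∏ j ∈ univ.erase l, k j (Z j)) *
      ∑ z ∈ range (M l), k l z * F (Function.update Z l z) := by
  rw [EK, sum_box_split M l]
  refine sum_congr rfl fun Z _ => ?_
  rw [mul_sum]
  refine sum_congr rfl fun z _ => ?_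
  rw [← mul_prod_erase univ _ (mem_univ l), Function.update_self,
    prod_congr rfl fun j hj => by rw [Function.update_of_ne (mem_erase.1 hj).1]]
  ring

theorem EK_change {M : Fin D → ℕ} {k k' : Fin D → ℕ → ℝ} {l : Fin D}
    (hk : ∀ j, j ≠ l → k' j = k j) (h0 : ∀ j z, 0 ≤ k j z) (h1 : ∀ j, ∑ z ∈ range (M j), k j z = 1)
    {β : ℕ → ℝ} {γ : ℝ} (hβ : ∀ φ : ℕ → ℝ, (∑ z ∈ range (M l), k l z * φ z -
      ∑ z ∈ range (M l), k' l z * φ z) ^ 2 ≤ γ * ∑ z ∈ range (M l), β z * (φ z - φ (z - 1)) ^ 2)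
    (F : (Fin D → ℕ) → ℝ) : (EK M k F - EK M k' F) ^ 2 ≤
      γ * EK M (Function.update k l β) fun Z => (F Z - F (dn l Z)) ^ 2 := by
  have e1 : ∑ Z ∈ box (Function.update M l 1), ∏ j ∈ univ.erase l, k j (Z j) = 1 := by
    have := EK_split M k (fun _ => 1) l
    simp only [mul_one, h1, EK] at this
    rw [← this, box, ← prod_univ_sum]
    simp [h1]
  rw [EK_split M k F l, EK_split M k' F l, EK_split M _ _ l, ← sum_sub_distrib, mul_sum]
  have e2 : ∀ Z : Fin D → ℕ, ∏ j ∈ univ.erase l, k' j (Z j) = ∏ j ∈ univ.erase l, k j (Z j) :=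
    fun Z => prod_congr rfl fun j hj => by rw [hk j (mem_erase.1 hj).1]
  have e3 : ∀ Z : Fin D → ℕ, ∏ j ∈ univ.erase l, Function.update k l β j (Z j) =
      ∏ j ∈ univ.erase l, k j (Z j) :=
    fun Z => prod_congr rfl fun j hj => by rw [Function.update_of_ne (mem_erase.1 hj).1]
  have hω : ∀ Z : Fin D → ℕ, 0 ≤ ∏ j ∈ univ.erase l, k j (Z j) :=
    fun Z => prod_nonneg fun j _ => h0 _ _
  simp only [e2, e3, Function.update_self, dn, Function.update_idem, ← mul_sub]
  rw [← one_mul (∑ Z ∈ box (Function.update M l 1), γ * _), ← e1]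
  refine sum_sq_le_sum_mul_sum_of_sq_le_mul _ (fun Z _ => hω Z) (fun Z _ => ?_) fun Z _ => ?_
  · rw [mul_left_comm]
    exact mul_nonneg (hω Z) ((sq_nonneg _).trans (hβ fun z => F (Function.update Z l z)))
  · rw [mul_pow, mul_left_comm γ, ← mul_assoc, ← sq]
    exact mul_le_mul_of_nonneg_left (hβ fun z => F (Function.update Z l z)) (sq_nonneg _)

theorem EK_bound {h M : Fin D → ℕ} {Φ μ : (Fin D → ℕ) → ℝ} {c : ℝ} (hc : 0 ≤ c)
    (hμ : ∀ Z, 0 ≤ μ Z) (hcmp : ∀ X ∈ box fun l => h l * M l, ∀ Z ∈ box M,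
      (∀ l, near (h l) (X l) (Z l)) → Φ X ≤ c * μ Z)
    {k : Fin D → ℕ → ℕ → ℝ} (h0 : ∀ l x z, 0 ≤ k l x z)
    (hn : ∀ l x z, x < h l * M l → z < M l → k l x z ≠ 0 → near (h l) x z) {cs : Fin D → ℝ}
    (hcs : ∀ l z, z < M l → ∑ x ∈ range (h l * M l), k l x z ≤ cs l) {g : (Fin D → ℕ) → ℝ}
    (hg : ∀ Z, 0 ≤ g Z) :
    ∑ X ∈ box fun l => h l * M l, Φ X * EK M (fun l => k l (X l)) g ≤
      c * (∏ l, cs l) * ∑ Z ∈ box M, μ Z * g Z := by
  simp only [EK, mul_sum]
  rw [sum_comm]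
  refine sum_le_sum fun Z hZ => ?_
  have : ∑ X ∈ box fun l => h l * M l, ∏ l, k l (X l) (Z l) ≤ ∏ l, cs l := by
    rw [box, ← prod_univ_sum (fun l => range (h l * M l)) fun l x => k l x (Z l)]
    exact prod_le_prod (fun l _ => sum_nonneg fun _ _ => h0 _ _ _) fun l _ =>
      hcs l _ (mem_box.1 hZ l)
  have h2 := mul_le_mul_of_nonneg_left this (mul_nonneg hc (mul_nonneg (hμ Z) (hg Z)))
  refine le_trans ?_ (h2.trans (le_of_eq (by ring)))
  rw [mul_sum]
  refine sum_le_sum fun X hX => ?_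
  by_cases hz : ∏ l, k l (X l) (Z l) = 0
  · simp [hz]
  · have := mul_le_mul_of_nonneg_right (hcmp X hX Z hZ fun l => hn l _ _ (mem_box.1 hX l)
      (mem_box.1 hZ l) (prod_ne_zero_iff.1 hz l (mem_univ l)))
      (mul_nonneg (prod_nonneg fun l (_ : l ∈ univ) => h0 l (X l) (Z l)) (hg Z))
    linarith

/-- The hybrid kernels. -/
noncomputable def kk (h M : Fin D → ℕ) (j : ℕ) (l : Fin D) : ℕ → ℕ → ℝ :=
  if l.val < j then pk (h l) (M l) else dk (h l)

theorem kk_nonneg {h M : Fin D → ℕ} (hh : ∀ l, 0 < h l) (j : ℕ) (l : Fin D) (x z : ℕ) :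
    0 ≤ kk h M j l x z := by
  unfold kk; split_ifs
  · exact pk_nonneg (hh l) _ _
  · unfold dk; split_ifs <;> norm_num

theorem kk_sum {h M : Fin D → ℕ} (hh : ∀ l, 0 < h l) (hM : ∀ l, 0 < M l) (j : ℕ) (l : Fin D)
    {x : ℕ} (hx : x < h l * M l) : ∑ z ∈ range (M l), kk h M j l x z = 1 := by
  unfold kk; split_ifs
  · exact pk_sum (hM l) _
  · simp [dk, (Nat.div_lt_iff_lt_mul (hh l)).2 (by rwa [mul_comm])]

theorem kk_bound {h M : Fin D → ℕ} (hh : ∀ l, 0 < h l) {Φ μ : (Fin D → ℕ) → ℝ} {c : ℝ}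
    (hc : 0 ≤ c) (hμ : ∀ Z, 0 ≤ μ Z) (hcmp : ∀ X ∈ box fun l => h l * M l, ∀ Z ∈ box M,
      (∀ l, near (h l) (X l) (Z l)) → Φ X ≤ c * μ Z) {g : (Fin D → ℕ) → ℝ} (hg : ∀ Z, 0 ≤ g Z)
    (j : ℕ) (l : Fin D) : ∑ X ∈ box fun l => h l * M l, Φ X * EK M (Function.update
      (fun i => kk h M j i (X i)) l (bk (h l) (X l))) g ≤
      c * (3 * ∏ l, (h l : ℝ)) * ∑ Z ∈ box M, μ Z * g Z := by
  have := EK_bound hc hμ hcmp
    (k := Function.update (kk h M j) l (bk (h l))) (cs := fun i => (if i = l then 3 else 1) * h i)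
    (fun i x z => by
      by_cases hi : i = l
      · subst hi; simpa using bk_nonneg _ _
      · simpa [hi] using kk_nonneg hh j i x z)
    (fun i x z hx hz hne => by
      by_cases hi : i = l
      · subst hi
        by_contra hc; simp [bk, hc] at hne
      · simp only [Function.update_of_ne hi, kk] at hne
        split_ifs at hne
        · exact pk_near (hh i) hx hz hne
        · have : z = x / h i := by by_contra hc; simp [dk, hc] at hne
          exact this ▸ near_div (hh i) x)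
    (fun i z hz => by
      by_cases hi : i = l
      · subst hi; simpa using bk_col (hh i) _ _
      · simp only [Function.update_of_ne hi, kk, hi, if_false, one_mul]
        split_ifs
        · exact pk_col (hh i) hz
        · simp only [dk, sum_boole]
          have : ((range (h i * M i)).filter fun x => z = x / h i) ⊆
              Ico (h i * z) (h i * z + h i) := by
            intro x hx
            have := Nat.div_add_mod x (h i)
            have := Nat.mod_lt x (hh i)
            rw [(mem_filter.1 hx).2, mem_Ico]; omega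
          simpa using card_le_card this) hg
  rw [prod_mul_distrib, prod_ite_eq', if_pos (mem_univ _)] at this
  refine le_trans (le_of_eq (sum_congr rfl fun X _ => ?_)) this
  congr 2
  funext i
  by_cases hi : i = l
  · subst hi; simp
  · simp [hi]

theorem kk_tele {h M : Fin D → ℕ} (hh : ∀ l, 0 < h l) (hM : ∀ l, 0 < M l) {X : Fin D → ℕ}
    (hX : X ∈ box fun l => h l * M l) (F : (Fin D → ℕ) → ℝ) :
    (F (fun l => X l / h l) - EK M (fun i => kk h M D i (X i)) F) ^ 2 ≤
      D * ∑ l : Fin D, EK M (Function.update (fun i => kk h M l i (X i)) l (bk (h l) (X l)))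
        fun Z => (F Z - F (dn l Z)) ^ 2 := by
  have e0 : F (fun l => X l / h l) = EK M (fun i => kk h M 0 i (X i)) F := by
    rw [EK, sum_eq_single_of_mem (fun l => X l / h l) (mem_box.2 fun l =>
      (Nat.div_lt_iff_lt_mul (hh l)).2 (by rw [mul_comm]; exact mem_box.1 hX l))]
    · simp [kk, dk]
    · intro Z _ hZ
      obtain ⟨i, hi⟩ := Function.ne_iff.1 hZ
      rw [prod_eq_zero (mem_univ i) (by simp [kk, dk, hi]), zero_mul]
  rw [e0, ← sum_range_sub' (fun j => EK M (fun i => kk h M j i (X i)) F) D,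
    ← Fin.sum_univ_eq_sum_range (fun j => EK M (fun i => kk h M j i (X i)) F -
      EK M (fun i => kk h M (j + 1) i (X i)) F)]
  refine sq_sum_le_card_mul_sum_sq.trans ?_
  rw [card_univ, Fintype.card_fin]
  refine mul_le_mul_of_nonneg_left (sum_le_sum fun l _ => ?_) (Nat.cast_nonneg _)
  refine (EK_change (γ := 1) (k := fun i => kk h M l i (X i)) (k' := fun i => kk h M (l + 1) i (X i))
    (l := l) (β := bk (h l) (X l)) (fun j hj => ?_) (fun j z => kk_nonneg hh _ _ _ _)
    (fun j => kk_sum hh hM _ _ (mem_box.1 hX j)) (fun φ => ?_) F).trans (le_of_eq (one_mul _))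
  · have : j.val ≠ l.val := fun h => hj (Fin.ext h)
    simp only [kk]
    rw [if_congr (show j.val < l.val + 1 ↔ j.val < l.val by omega) rfl rfl]
  · simpa [kk] using ineq2 (hh l) (mem_box.1 hX l) φ

/-- The Poincaré inequality for the blocks. -/
theorem coarse {h M : Fin D → ℕ} (hh : ∀ l, 0 < h l) (hM : ∀ l, 0 < M l)
    {Φ μ : (Fin D → ℕ) → ℝ} {c A B : ℝ} (hc : 0 ≤ c) (hA : 0 ≤ A) (hB : ∀ l, (M l : ℝ) ≤ B)
    (hΦ : ∀ X, 0 ≤ Φ X) (hμ : ∀ Z, 0 ≤ μ Z)
    (hcmp : ∀ X ∈ box fun l => h l * M l, ∀ Z ∈ box M,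
      (∀ l, near (h l) (X l) (Z l)) → Φ X ≤ c * μ Z ∧ μ Z ≤ c * Φ X)
    (hP : ∀ f : (Fin D → ℕ) → ℝ, ∃ t, ∑ X ∈ box fun l => h l * M l, Φ X * (f X - t) ^ 2 ≤
      ∑ l, A * ((h l * M l : ℕ) : ℝ) ^ 2 *
        ∑ X ∈ box fun l => h l * M l, Φ X * (f X - f (dn l X)) ^ 2)
    (F : (Fin D → ℕ) → ℝ) : ∃ t, ∑ Z ∈ box M, μ Z * (F Z - t) ^ 2 ≤
      c ^ 2 * (18 * A * B ^ 2 + 6 * D) * ∑ l, ∑ Z ∈ box M, μ Z * (F Z - F (dn l Z)) ^ 2 := by
  have bound := fun j l => kk_bound hh hc hμ (fun X hX Z hZ hn => (hcmp X hX Z hZ hn).1)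
    (g := fun Z => (F Z - F (dn l Z)) ^ 2) (fun _ => sq_nonneg _) j l
  set H : ℝ := ∏ l, (h l : ℝ) with hH
  have hH0 : 0 < H := prod_pos fun l _ => Nat.cast_pos.2 (hh l)
  set f : (Fin D → ℕ) → ℝ := fun X => EK M (fun i => kk h M D i (X i)) F with hf
  obtain ⟨t, ht⟩ := hP f
  refine ⟨t, le_of_mul_le_mul_left ?_ hH0⟩
  rw [← sum_box_div h M hh fun Z => μ Z * (F Z - t) ^ 2]
  set T : Fin D → ℝ := fun l => ∑ Z ∈ box M, μ Z * (F Z - F (dn l Z)) ^ 2 with hT
  have hT0 : ∀ l, 0 ≤ T l := fun l => sum_nonneg fun Z _ => mul_nonneg (hμ Z) (sq_nonneg _)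
  have b1 : ∑ X ∈ box fun l => h l * M l, Φ X * (f X - t) ^ 2 ≤
      ∑ l, A * B ^ 2 * 3 * (c * (3 * H) * T l) := by
    refine ht.trans (sum_le_sum fun l _ => ?_)
    have hl : (0 : ℝ) < h l := Nat.cast_pos.2 (hh l)
    have a1 : ∑ X ∈ box fun l => h l * M l, Φ X * (f X - f (dn l X)) ^ 2 ≤
        3 / (h l : ℝ) ^ 2 * (c * (3 * H) * T l) := by
      refine le_trans ?_ (mul_le_mul_of_nonneg_left (bound D l) (by positivity))
      rw [mul_sum]
      refine sum_le_sum fun X hX => ?_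
      rw [mul_left_comm]
      refine mul_le_mul_of_nonneg_left (EK_change (k := fun i => kk h M D i (X i))
        (k' := fun i => kk h M D i (dn l X i)) (l := l) (β := bk (h l) (X l))
        (fun j hj => by simp [dn, hj])
        (fun j z => kk_nonneg hh _ _ _ _) (fun j => kk_sum hh hM _ _ (mem_box.1 hX j))
        (fun φ => ?_) F) (hΦ X)
      simpa [kk, dn] using ineq1 (hh l) (hM l) (X l) φ
    refine (mul_le_mul_of_nonneg_left a1 (by positivity)).trans ?_
    have a2 : (M l : ℝ) ^ 2 ≤ B ^ 2 := pow_le_pow_left₀ (Nat.cast_nonneg _) (hB l) 2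
    have a3 := hT0 l
    calc _ = A * (M l : ℝ) ^ 2 * 3 * (c * (3 * H) * T l) := by push_cast; field_simp
      _ ≤ _ := by gcongr
  have b2 : ∑ X ∈ box fun l => h l * M l, Φ X * (F (fun l => X l / h l) - f X) ^ 2 ≤
      ∑ l, D * (c * (3 * H) * T l) := by
    refine le_trans ?_ (sum_le_sum fun l _ => mul_le_mul_of_nonneg_left (bound l l)
      (Nat.cast_nonneg D))
    rw [← mul_sum, sum_comm, mul_sum]
    refine sum_le_sum fun X hX => ?_
    rw [← mul_sum, mul_left_comm]
    exact mul_le_mul_of_nonneg_left (kk_tele hh hM hX F) (hΦ X)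
  have b3 : ∑ X ∈ box fun l => h l * M l, μ (fun l => X l / h l) * (F (fun l => X l / h l) - t) ^ 2
      ≤ ∑ X ∈ box fun l => h l * M l, 2 * c * (Φ X * (f X - t) ^ 2 +
        Φ X * (F (fun l => X l / h l) - f X) ^ 2) := by
    refine sum_le_sum fun X hX => ?_
    have a1 := (hcmp X hX (fun l => X l / h l) (mem_box.2 fun l =>
      (Nat.div_lt_iff_lt_mul (hh l)).2 (by rw [mul_comm]; exact mem_box.1 hX l))
      fun l => near_div (hh l) _).2
    refine (mul_le_mul_of_nonneg_right a1 (sq_nonneg _)).trans ?_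
    nlinarith [mul_nonneg (mul_nonneg hc (hΦ X))
      (sq_nonneg ((f X - t) - (F (fun l => X l / h l) - f X)))]
  rw [← mul_sum, sum_add_distrib] at b3
  refine b3.trans ((mul_le_mul_of_nonneg_left (add_le_add b1 b2) (by positivity)).trans
    (le_of_eq ?_))
  simp only [← mul_sum]
  ring

end Vale.Agent.P328
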