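import Mathlib

/-! Contingency tables and the input and output conventions of the sampler. -/

namespace Vale.Agent.P328

/-- The contingency tables with row sums `r` and column sums `c`. -/
def tables {m n : ℕ} (r : Fin m → ℕ) (c : Fin n → ℕ) : Finset (Fin m → Fin n → ℕ) :=
  (Fintype.piFinset fun i => Fintype.piFinset fun _ => Finset.range (r i + 1)).filter
    fun X => (∀ i, ∑ j, X i j = r i) ∧ ∀ j, ∑ i, X i j = c j

/-- The length `L` of the binary description of the margins. -/
noncomputable def inputLength {m n : ℕ} (r : Fin m → ℕ) (c : Fin n → ℕ) : ℝ :=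
  m + n + ∑ i, Real.logb 2 (r i + 2) + ∑ j, Real.logb 2 (c j + 2)

/-- The binary code of a list of natural numbers: every binary digit `b` is written `1 b`, and
every number is followed by `0`. -/
def code (l : List ℕ) : List Bool :=
  l.flatMap fun a => a.bits.flatMap (fun b => [true, b]) ++ [false]

/-- The input of the machine: `m`, `n`, `⌈1 / ε⌉`, the margins, and then the coin tosses `ω`. -/
noncomputable def input {m n T : ℕ} (r : Fin m → ℕ) (c : Fin n → ℕ) (ε : ℝ) (ω : Fin T → Bool) :
    List ℕ :=
  [m, n, ⌈1 / ε⌉₊] ++ List.ofFn r ++ List.ofFn c ++ List.ofFn fun t => (ω t).toNat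

/-- The entries of a table, row by row. -/
def entries {m n : ℕ} (X : Fin m → Fin n → ℕ) : List ℕ :=
  (List.ofFn fun i => List.ofFn (X i)).flatten

end Vale.Agent.P328
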