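import Vale.Agent.P328.Model

/-! The Poincaré inequality on the box at the natural scale of each cell. -/

namespace Vale.Agent.P328

open Finset Vale.Agent.P317

theorem quasi {W : ℕ → ℝ} (hW : ∀ x, 0 < W x) (hc : ∀ x, W x * W (x + 2) ≤ W (x + 1) ^ 2)
    {a z b : ℕ} (h1 : a ≤ z) (h2 : z ≤ b) : min (W a) (W b) ≤ W z := by
  have dec : ∀ k, W (k + 1) ≤ W k → ∀ j, k ≤ j → W (j + 1) ≤ W j := by
    intro k hk j hj
    induction j, hj using Nat.le_induction with
    | base => exact hk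
    | succ j _ ih =>
      have := hc j
      have h3 := hW j
      have h4 := hW (j + 1)
      by_contra hcon
      nlinarith [not_le.1 hcon]
  by_cases h : ∃ k, k < z ∧ W (k + 1) ≤ W k
  · obtain ⟨k, hk, hk'⟩ := h
    refine (min_le_right _ _).trans ?_
    induction b, h2 using Nat.le_induction with
    | base => exact le_rfl
    | succ j hj ih => exact (dec k hk' j (by omega)).trans ih
  · push Not at h
    refine (min_le_left _ _).trans ?_
    clear h2
    induction z, h1 using Nat.le_induction with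
    | base => exact le_rfl
    | succ j hj ih => exact (ih fun k hk => h k (by omega)).trans (h j (by omega)).le

theorem poin1 {W : ℕ → ℝ} (hW : ∀ x, 0 < W x) (hc : ∀ x, W x * W (x + 2) ≤ W (x + 1) ^ 2)
    {R : ℕ} (hR : 0 < R) (g : ℕ → ℝ) : ∃ t, ∑ x ∈ range R, W x * (g x - t) ^ 2 ≤
      (R : ℝ) ^ 2 * ∑ x ∈ range R, min (W x) (W (x - 1)) * (g x - g (x - 1)) ^ 2 := by
  obtain ⟨m, hm, hmax⟩ := exists_max_image (range R) W ⟨0, mem_range.2 hR⟩
  have tele : ∀ lo hi, lo ≤ hi → g hi - g lo = ∑ z ∈ Ioc lo hi, (g z - g (z - 1)) := by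
    intro lo hi h
    induction hi, h using Nat.le_induction with
    | base => simp
    | succ j hj ih => rw [sum_Ioc_succ_top hj, ← ih]; simp
  have key : ∀ lo hi, lo ≤ hi → hi < R → min (W lo) (W hi) * (g hi - g lo) ^ 2 ≤
      R * ∑ x ∈ range R, min (W x) (W (x - 1)) * (g x - g (x - 1)) ^ 2 := by
    intro lo hi h hhi
    have h0 : 0 ≤ min (W lo) (W hi) := le_min (hW _).le (hW _).le
    rw [tele lo hi h]
    refine (mul_le_mul_of_nonneg_left sq_sum_le_card_mul_sum_sq h0).trans ?_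
    rw [mul_left_comm, mul_sum]
    refine mul_le_mul (by simp only [Nat.card_Ioc, Nat.cast_le]; omega) ?_
      (sum_nonneg fun _ _ => mul_nonneg h0 (sq_nonneg _)) (Nat.cast_nonneg _)
    refine (sum_le_sum fun z hz => ?_).trans (sum_le_sum_of_subset_of_nonneg (s := Ioc lo hi)
      (fun z hz => by simp only [mem_Ioc, mem_range] at hz ⊢; omega)
      fun z _ _ => mul_nonneg (le_min (hW _).le (hW _).le) (sq_nonneg _))
    rw [mem_Ioc] at hz
    exact mul_le_mul_of_nonneg_right (le_min (quasi hW hc (by omega) (by omega))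
      (quasi hW hc (by omega) (by omega))) (sq_nonneg _)
  refine ⟨g m, (sum_le_card_nsmul _ _ (R * ∑ x ∈ range R, min (W x) (W (x - 1)) *
    (g x - g (x - 1)) ^ 2) fun x hx => ?_).trans (le_of_eq (by simp; ring))⟩
  rcases le_total x m with h | h
  · have := key x m h (mem_range.1 hm)
    rw [min_eq_left (hmax x hx)] at this
    linarith [show (g x - g m) ^ 2 = (g m - g x) ^ 2 by ring,
      show W x * (g x - g m) ^ 2 = W x * (g m - g x) ^ 2 by ring]
  · have := key m x h (mem_range.1 hx)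
    rwa [min_eq_right (hmax x hx)] at this

theorem sq_le_of_quad {P Q E : ℝ} (h : ∀ θ : ℝ, 2 * (θ * P) ≤ θ ^ 2 * Q + E) : P ^ 2 ≤ Q * E := by
  have := discrim_le_zero (a := Q) (b := -2 * P) (c := E) fun θ => by linarith [h θ]
  rw [discrim] at this
  linarith

theorem dn_zero {D : ℕ} (x : ℕ) (X : Fin D → ℕ) :
    dn 0 (Fin.cons x X : Fin (D + 1) → ℕ) = Fin.cons (x - 1) X := by
  simp [dn, Fin.update_cons_zero]

theorem dn_succ {D : ℕ} (l : Fin D) (x : ℕ) (X : Fin D → ℕ) :
    dn l.succ (Fin.cons x X : Fin (D + 1) → ℕ) = Fin.cons x (dn l X) := by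
  simp [dn, Fin.cons_update]

theorem bw_pos {D : ℕ} {s R X : Fin D → ℕ} (hR : ∀ l, R l ≤ s l + 1) (hX : X ∈ box R) :
    0 < bw s X := prod_pos fun l _ => Nat.cast_pos.2 (Nat.choose_pos (by
      have := hR l; have := mem_box.1 hX l; omega))

variable {I : Type} [Fintype I] {side : I → Bool} {κ lam : I → ℝ}

section
variable {D : ℕ} {mem : I → Fin (D + 1) → Bool} {e : I → ℤ → ℝ} {s R : Fin D → ℕ}

theorem WS_lin (x : ℤ) (α β : ℝ) (F F' : (Fin D → ℕ) → ℝ) :
    WS mem side e s R x (fun X => α * F X + β * F' X) =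
      α * WS mem side e s R x F + β * WS mem side e s R x F' := by
  simp only [WS, mul_sum, ← sum_add_distrib]
  exact sum_congr rfl fun _ _ => by ring

theorem WS_nonneg (x : ℤ) {F : (Fin D → ℕ) → ℝ} (hF : ∀ X, 0 ≤ F X) :
    0 ≤ WS mem side e s R x F :=
  sum_nonneg fun X _ => mul_nonneg (prod_nonneg fun _ _ => Nat.cast_nonneg _)
    (mul_nonneg (Real.exp_pos _).le (hF X))

theorem WS_pos (hR : ∀ l, 0 < R l) (hR' : ∀ l, R l ≤ s l + 1) (x : ℤ) :
    0 < WS mem side e s R x fun _ => 1 :=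
  sum_pos (fun _ hX => mul_pos (bw_pos hR' hX) (mul_pos (Real.exp_pos _) one_pos))
    ⟨0, mem_box.2 hR⟩

theorem WS_sq (x : ℤ) (F : (Fin D → ℕ) → ℝ) (t : ℝ) :
    WS mem side e s R x (fun X => (F X - t) ^ 2) = WS mem side e s R x (fun X => F X ^ 2) -
      2 * t * WS mem side e s R x F + t ^ 2 * WS mem side e s R x fun _ => 1 := by
  simp only [WS, mul_sum, ← sum_add_distrib, ← sum_sub_distrib]
  exact sum_congr rfl fun _ _ => by ring

theorem step_bound (hl : Lam2 mem side) (he : ∀ i, Cvx (e i) (κ i) (lam i)) (hR : ∀ l, 0 < R l)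
    (hR' : ∀ l, R l ≤ s l + 1) {L : ℝ} (hL : ∀ l, ∑ i, (if mem i l then lam i else 0) ≤ L)
    {κ₀ : ℝ} (hκ : ∑ i, (if mem i 0 then κ i else 0) ≤ κ₀) (x : ℤ) (F F' : (Fin D → ℕ) → ℝ) :
    min (WS mem side e s R (x + 1) fun _ => 1) (WS mem side e s R x fun _ => 1) *
      (WS mem side e s R (x + 1) F' / (WS mem side e s R (x + 1) fun _ => 1) -
        WS mem side e s R x F / WS mem side e s R x fun _ => 1) ^ 2 ≤
    2 * WS mem side e s R (x + 1) (fun X => (F' X - F X) ^ 2) +
      2 * (D * κ₀ * Real.exp (2 * L) * ∑ l, ((2 * s l : ℕ) : ℝ) *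
        (Real.exp (2 * L) * WS mem side e s R x fun X => (F X - F (dn l X)) ^ 2)) := by
  have pa := WS_pos (mem := mem) (side := side) (e := e) hR hR' (x + 1)
  have pb := WS_pos (mem := mem) (side := side) (e := e) hR hR' x
  have md := mean_diff s R hl he hR hR' hL hκ x F
  have cs := fun t => WS_sq (mem := mem) (side := side) (e := e) (s := s) (R := R) (x + 1)
    (fun X => F' X - F X) t
  have nn := fun t => WS_nonneg (mem := mem) (side := side) (e := e) (s := s) (R := R) (x + 1)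
    (F := fun X => (F' X - F X - t) ^ 2) fun _ => sq_nonneg _
  have lin := WS_lin (mem := mem) (side := side) (e := e) (s := s) (R := R) (x + 1) 1 (-1) F' F
  simp only [one_mul, neg_one_mul, ← sub_eq_add_neg] at lin
  set Za := WS mem side e s R (x + 1) fun _ => 1
  set Zb := WS mem side e s R x fun _ => 1
  set E := ∑ l, ((2 * s l : ℕ) : ℝ) *
    (Real.exp (2 * L) * WS mem side e s R x fun X => (F X - F (dn l X)) ^ 2)
  set α := WS mem side e s R (x + 1) (fun X => F' X - F X) / Za with hα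
  set δ := WS mem side e s R (x + 1) F / Za - WS mem side e s R x F / Zb with hδ
  have e1 : WS mem side e s R (x + 1) F' / Za - WS mem side e s R x F / Zb = α + δ := by
    rw [hα, hδ, lin]; ring
  have e2 : WS mem side e s R (x + 1) (fun X => F' X - F X) = α * Za :=
    (div_mul_cancel₀ _ pa.ne').symm
  have b1 : Za * α ^ 2 ≤ WS mem side e s R (x + 1) fun X => (F' X - F X) ^ 2 := by
    have := nn α
    rw [cs, e2] at this
    linarith
  have b2 : Zb * δ ^ 2 ≤ D * κ₀ * Real.exp (2 * L) * E := by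
    have e3 : Zb * WS mem side e s R (x + 1) F - Za * WS mem side e s R x F = Za * Zb * δ := by
      rw [hδ]; field_simp
    have := sq_le_of_quad (P := Za * Zb * δ) (Q := D * (κ₀ * Zb * Za * (Real.exp (2 * L) * Za)))
      (E := E) fun θ => by have := md θ; rw [e3] at this; linarith
    refine le_of_mul_le_mul_left ?_ (by positivity : 0 < Za ^ 2 * Zb)
    linarith
  rw [e1]
  have m1 := mul_le_mul_of_nonneg_right (min_le_left Za Zb) (sq_nonneg α)
  have m2 := mul_le_mul_of_nonneg_right (min_le_right Za Zb) (sq_nonneg δ)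
  nlinarith [mul_nonneg (le_min pa.le pb.le) (sq_nonneg (α - δ))]

end

theorem head_arith {R : ℕ} (hR : 0 < R) {A M U V b : ℕ → ℝ} {c₀ c : ℝ} (hA : ∀ x, 0 ≤ A x)
    (hU0 : ∀ x, 0 ≤ U x) (hV0 : ∀ x, 0 ≤ V x) (hb0 : ∀ x, 0 ≤ b x) (hb1 : ∀ x, b x ≤ b 0)
    (hb2 : ∀ x ∈ range R, b 0 ≤ 2 * b x) (hc₀ : 0 ≤ c₀)
    (ht : ∑ x ∈ range R, A x ≤ (R : ℝ) ^ 2 * ∑ x ∈ range R, M x)
    (head : ∀ x, M x ≤ 2 * U x + if x = 0 then 0 else 2 * c₀ * V (x - 1))
    (hc : 4 * (R : ℝ) ^ 2 * c₀ ≤ c) :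
    ∑ x ∈ range R, b x * A x ≤ ∑ x ∈ range R, b x * (4 * (R : ℝ) ^ 2 * U x + c * V x) := by
  have head2 : ∑ x ∈ range R, M x ≤ ∑ x ∈ range R, (2 * U x + 2 * c₀ * V x) := by
    refine (sum_le_sum fun x _ => head x).trans ?_
    rw [sum_add_distrib, sum_add_distrib]
    refine add_le_add le_rfl ?_
    obtain ⟨r, rfl⟩ : ∃ r, R = r + 1 := ⟨R - 1, by omega⟩
    rw [sum_range_succ', sum_range_succ]
    simp only [Nat.succ_ne_zero, if_false, if_true, Nat.add_sub_cancel]
    have := hV0 r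
    exact add_le_add le_rfl (by positivity)
  refine (sum_le_sum fun x _ => mul_le_mul_of_nonneg_right (hb1 x) (hA x)).trans ?_
  rw [← mul_sum]
  refine (mul_le_mul_of_nonneg_left (ht.trans (mul_le_mul_of_nonneg_left head2 (sq_nonneg _)))
    (hb0 0)).trans ?_
  rw [mul_sum, mul_sum]
  refine sum_le_sum fun x hx => ?_
  have a1 := hU0 x
  have a2 := hV0 x
  refine (mul_le_mul_of_nonneg_right (hb2 x hx) (by positivity)).trans ?_
  rw [mul_comm 2, mul_assoc]
  refine mul_le_mul_of_nonneg_left ?_ (hb0 x)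
  have a4 := mul_le_mul_of_nonneg_right hc a2
  linarith

theorem fine_bw {L Λ D₀ : ℝ} : ∀ {D : ℕ} {mem : I → Fin D → Bool} {e : I → ℤ → ℝ}
    {s R : Fin D → ℕ}, Lam2 mem side → (∀ i, Cvx (e i) (κ i) (lam i)) → (∀ l, 0 < R l) →
    (∀ l, R l ≤ s l + 1) → (∀ l, ∑ i, (if mem i l then lam i else 0) ≤ L) →
    (∀ l, (R l : ℝ) ^ 2 * ∑ i, (if mem i l then κ i else 0) ≤ Λ) →
    (∀ l x, x < R l → (2 * s l).choose (s l) ≤ 2 * (2 * s l).choose (s l + x)) → D ≤ D₀ →
    ∀ F : (Fin D → ℕ) → ℝ, ∃ t, ∑ X ∈ box R, bw s X * (Phi mem e X * (F X - t) ^ 2) ≤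
      ∑ l, (4 * (R l : ℝ) ^ 2 + D * (4 * D₀ * Λ * Real.exp (4 * L)) * (2 * s l : ℕ)) *
        ∑ X ∈ box R, bw s X * (Phi mem e X * (F X - F (dn l X)) ^ 2)
  | 0, _, _, _, _, _, _, _, _, _, _, _, _, F => ⟨F 0, by rw [sum_box_zero]; simp⟩
  | D + 1, mem, e, s, R, hl, he, hR, hR', hL, hΛ, hb, hD, F => by
    have split : ∀ H : (Fin (D + 1) → ℕ) → ℝ, ∑ X ∈ box R, bw s X * (Phi mem e X * H X) =
        ∑ x ∈ range (R 0), ((2 * s 0).choose (s 0 + x) : ℝ) *
          WS mem side e (Fin.tail s) (Fin.tail R) x fun X => H (Fin.cons x X) := by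
      intro H
      rw [sum_box_succ]
      refine sum_congr rfl fun x _ => ?_
      rw [WS, mul_sum]
      refine sum_congr rfl fun X _ => ?_
      rw [Phi_cons mem side, bw, Fin.prod_univ_succ, mul_assoc]; rfl
    have hRt : ∀ l, 0 < Fin.tail R l := fun l => hR l.succ
    have hRt' : ∀ l, Fin.tail R l ≤ Fin.tail s l + 1 := fun l => hR' l.succ
    set W : ℕ → ℝ := fun x => WS mem side e (Fin.tail s) (Fin.tail R) x fun _ => 1 with hW
    have hW0 : ∀ x, 0 < W x := fun x => WS_pos hRt hRt' _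
    set g : ℕ → ℝ := fun x =>
      WS mem side e (Fin.tail s) (Fin.tail R) x (fun X => F (Fin.cons x X)) / W x with hg
    obtain ⟨t, ht⟩ := poin1 hW0 (fun x => by
      simpa [hW] using logconc (Fin.tail s) (Fin.tail R) hl he hRt hRt' x) (hR 0) g
    refine ⟨t, ?_⟩
    set T : ℕ → Fin D → ℝ := fun x l => WS mem side e (Fin.tail s) (Fin.tail R) x
      fun X => (F (Fin.cons x X) - F (Fin.cons x (dn l X))) ^ 2 with hT
    have hT0 : ∀ x l, 0 ≤ T x l := fun x l => WS_nonneg _ fun _ => sq_nonneg _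
    set U : ℕ → ℝ := fun x => WS mem side e (Fin.tail s) (Fin.tail R) x
      fun X => (F (Fin.cons x X) - F (Fin.cons (x - 1) X)) ^ 2 with hU
    have hU0 : ∀ x, 0 ≤ U x := fun x => WS_nonneg _ fun _ => sq_nonneg _
    set b : ℕ → ℝ := fun x => ((2 * s 0).choose (s 0 + x) : ℝ) with hbdef
    have hb0 : ∀ x, 0 ≤ b x := fun x => Nat.cast_nonneg _
    have hb1 : ∀ x, b x ≤ b 0 := fun x => Nat.cast_le.2 (by
      have := Nat.choose_le_middle (s 0 + x) (2 * s 0)
      simpa using this)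
    have hb2 : ∀ x ∈ range (R 0), b 0 ≤ 2 * b x := fun x hx => by
      simp only [hbdef]; exact_mod_cast hb 0 x (mem_range.1 hx)
    set c := 4 * D₀ * Λ * Real.exp (4 * L) with hc
    set κ₀ := ∑ i, (if mem i 0 then κ i else 0) with hκ₀
    have hκ0 : 0 ≤ κ₀ := sum_nonneg fun i _ => by
      split_ifs
      · linarith [(he i).cvx 0, (he i).curv 0]
      · exact le_rfl
    have hΛ0 : 0 ≤ Λ := le_trans (by positivity) (hΛ 0)
    push_cast at hD
    have hD0 : (0 : ℝ) ≤ D := Nat.cast_nonneg D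
    have hc0 : 0 ≤ c := mul_nonneg (mul_nonneg (by linarith) hΛ0) (Real.exp_pos _).le
    have inner : ∀ x : ℕ, WS mem side e (Fin.tail s) (Fin.tail R) x
        (fun X => (F (Fin.cons x X) - t) ^ 2) ≤ W x * (g x - t) ^ 2 +
        ∑ l, (4 * (R l.succ : ℝ) ^ 2 + D * c * (2 * s l.succ : ℕ)) * T x l := by
      intro x
      obtain ⟨t', ht'⟩ := fine_bw (D₀ := D₀) (L := L) (Λ := Λ) (mem := fun i => Fin.tail (mem i))
        (e := sh mem side e x x) (s := Fin.tail s) (R := Fin.tail R)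
        (fun i j h => by
          rcases hl i j h with h | h | h
          exacts [Or.inl fun l => h _, Or.inr (Or.inl fun l => h _), Or.inr (Or.inr fun l => h _)])
        (fun i => (he i).shift _) hRt hRt' (fun l => hL l.succ) (fun l => hΛ l.succ)
        (fun l => hb l.succ) (by linarith) fun X => F (Fin.cons x X)
      have e1 := WS_sq (mem := mem) (side := side) (e := e) (s := Fin.tail s) (R := Fin.tail R) x
        (fun X => F (Fin.cons x X))
      have e2 : WS mem side e (Fin.tail s) (Fin.tail R) x (fun X => F (Fin.cons x X)) =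
          g x * W x := (div_mul_cancel₀ _ (hW0 x).ne').symm
      change WS mem side e (Fin.tail s) (Fin.tail R) x (fun X => (F (Fin.cons x X) - t') ^ 2) ≤
        ∑ l, (4 * (R l.succ : ℝ) ^ 2 + D * c * (2 * s l.succ : ℕ)) * T x l at ht'
      rw [e1, e2] at ht' ⊢
      change _ + _ * W x ≤ _ at ht' ⊢
      nlinarith [mul_nonneg (hW0 x).le (sq_nonneg (g x - t'))]
    set V : ℕ → ℝ := fun x => ∑ l, ((2 * s l.succ : ℕ) : ℝ) * T x l with hV
    have hV0 : ∀ x, 0 ≤ V x := fun x => sum_nonneg fun l _ => mul_nonneg (Nat.cast_nonneg _) (hT0 x l)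
    have head : ∀ x, min (W x) (W (x - 1)) * (g x - g (x - 1)) ^ 2 ≤
        2 * U x + if x = 0 then 0 else 2 * (D * κ₀ * Real.exp (4 * L)) * V (x - 1) := by
      intro x
      rcases x with _ | y
      · simpa using hU0 0
      · have := step_bound hl he hRt hRt' hL hκ₀.symm.le (y : ℤ) (fun X => F (Fin.cons y X))
          fun X => F (Fin.cons (y + 1) X)
        rw [if_neg (Nat.succ_ne_zero y), Nat.add_sub_cancel]
        simp only [hW, hg, hU, Nat.cast_succ, Nat.add_sub_cancel]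
        refine this.trans (le_of_eq ?_)
        congr 1
        simp only [hV, hT, mul_sum, show 4 * L = 2 * L + 2 * L by ring, Real.exp_add]
        exact sum_congr rfl fun l _ => by simp only [Fin.tail]; ring
    have head3 := head_arith (c := c) (hR 0) (fun x => mul_nonneg (hW0 x).le (sq_nonneg (g x - t)))
      hU0 hV0 hb0 hb1 hb2 (mul_nonneg (mul_nonneg hD0 hκ0) (Real.exp_pos _).le) ht head (by
        have a3 : D * ((R 0 : ℝ) ^ 2 * κ₀) ≤ D₀ * Λ :=
          mul_le_mul (by linarith) (hΛ 0) (mul_nonneg (sq_nonneg _) hκ0) (by linarith)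
        have a4 := mul_le_mul_of_nonneg_right a3 (Real.exp_pos (4 * L)).le
        rw [hc]
        linarith)
    simp only [split, Fin.sum_univ_succ, dn_zero, dn_succ]
    refine (sum_le_sum fun x _ => mul_le_mul_of_nonneg_left (inner x) (hb0 x)).trans ?_
    simp only [mul_add (b _), sum_add_distrib]
    refine (add_le_add head3 le_rfl).trans ?_
    rw [← sum_add_distrib, mul_sum, sum_congr rfl fun l _ => mul_sum _ _ _, sum_comm,
      ← sum_add_distrib]
    refine sum_le_sum fun x _ => ?_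
    have a1 : 0 ≤ ((D + 1 : ℕ) : ℝ) * c * (2 * s 0 : ℕ) * (b x * U x) :=
      mul_nonneg (mul_nonneg (mul_nonneg (Nat.cast_nonneg _) hc0) (Nat.cast_nonneg _))
        (mul_nonneg (hb0 x) (hU0 x))
    have a2 : ∑ l : Fin D, (4 * (R l.succ : ℝ) ^ 2 + (D + 1 : ℕ) * c * (2 * s l.succ : ℕ)) *
        (b x * T x l) = b x * (c * V x) +
        b x * ∑ l, (4 * (R l.succ : ℝ) ^ 2 + D * c * (2 * s l.succ : ℕ)) * T x l := by
      simp only [hV, mul_sum, ← sum_add_distrib]
      exact sum_congr rfl fun l _ => by push_cast; ring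
    change _ ≤ _ * (b x * U x) + ∑ l : Fin D, _ * (b x * T x l)
    rw [a2]
    linarith

theorem choose_lb (s : ℕ) : ∀ x : ℕ, (s - x ^ 2 : ℝ) * (2 * s).choose s ≤ s * (2 * s).choose (s + x)
  | 0 => by simp
  | x + 1 => by
    have ih := choose_lb s x
    have h0 : ((2 * s).choose (s + x) : ℝ) ≤ (2 * s).choose s := Nat.cast_le.2 (by
      simpa using Nat.choose_le_middle (s + x) (2 * s))
    have h1 : ((2 * s).choose (s + x) : ℝ) * (s - x) ≤ (2 * s).choose (s + (x + 1)) * (s + x + 1) := by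
      rcases le_total x s with h | h
      · have := Nat.choose_succ_right_eq (2 * s) (s + x)
        rw [show 2 * s - (s + x) = s - x by omega] at this
        have h2 : (((2 * s).choose (s + x + 1) * (s + x + 1) : ℕ) : ℝ) =
          ((2 * s).choose (s + x) * (s - x) : ℕ) := by rw [this]
        push_cast [h] at h2
        exact h2.ge
      · exact (mul_nonpos_of_nonneg_of_nonpos (Nat.cast_nonneg _)
          (sub_nonpos.2 (Nat.cast_le.2 h))).trans (by positivity)
    have ha : (0 : ℝ) ≤ (2 * s).choose (s + x) := Nat.cast_nonneg _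
    generalize (((2 * s).choose (s + x) : ℕ) : ℝ) = a at *
    generalize (((2 * s).choose (s + (x + 1)) : ℕ) : ℝ) = a' at *
    have hs : (0 : ℝ) ≤ s := Nat.cast_nonneg _
    have hx : (0 : ℝ) ≤ x := Nat.cast_nonneg _
    have h3 : s * a - (2 * x + 1) * a ≤ s * a' := by
      refine le_of_mul_le_mul_right ?_ (by positivity : (0 : ℝ) < s + x + 1)
      have := mul_le_mul_of_nonneg_left h1 hs
      nlinarith [mul_nonneg (mul_nonneg ha (by positivity : (0 : ℝ) ≤ 2 * x + 1))
        (by positivity : (0 : ℝ) ≤ x + 1)]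
    push_cast
    nlinarith

/-- The Poincaré inequality on the box. -/
theorem fine {L Λ : ℝ} {D : ℕ} {mem : I → Fin D → Bool} {e : I → ℤ → ℝ} {R : Fin D → ℕ}
    (hl : Lam2 mem side) (he : ∀ i, Cvx (e i) (κ i) (lam i)) (hR : ∀ l, 0 < R l)
    (hL : ∀ l, ∑ i, (if mem i l then lam i else 0) ≤ L)
    (hΛ : ∀ l, (R l : ℝ) ^ 2 * ∑ i, (if mem i l then κ i else 0) ≤ Λ) (F : (Fin D → ℕ) → ℝ) :
    ∃ t, ∑ X ∈ box R, Phi mem e X * (F X - t) ^ 2 ≤
      ∑ l, (8 + 32 * (D : ℝ) ^ 3 * Λ * Real.exp (4 * L)) * (R l : ℝ) ^ 2 *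
        ∑ X ∈ box R, Phi mem e X * (F X - F (dn l X)) ^ 2 := by
  set s : Fin D → ℕ := fun l => 2 * D * R l ^ 2 with hs
  have lb : ∀ l x, x < R l → (1 - 1 / (2 * D : ℝ)) * (2 * s l).choose (s l) ≤
      (2 * s l).choose (s l + x) := by
    intro l x hx
    have hD : (0 : ℝ) < D := Nat.cast_pos.2 l.pos
    have h1 := choose_lb (s l) x
    have h2 : (x : ℝ) ≤ R l := Nat.cast_le.2 hx.le
    have h3 : (0 : ℝ) < R l := Nat.cast_pos.2 (hR l)
    have h4 : (s l : ℝ) = 2 * D * (R l : ℝ) ^ 2 := by simp [hs]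
    refine le_of_mul_le_mul_left (le_trans ?_ h1) (by rw [h4]; positivity)
    rw [← mul_assoc]
    refine mul_le_mul_of_nonneg_right ?_ (Nat.cast_nonneg _)
    have : (s l : ℝ) * (1 / (2 * D)) = (R l : ℝ) ^ 2 := by rw [h4]; field_simp
    have := pow_le_pow_left₀ (Nat.cast_nonneg x) h2 2
    linarith
  have half : ∀ _ : Fin D, 1 / (2 * D : ℝ) ≤ 1 / 2 := fun l => by
    have hD : (1 : ℝ) ≤ D := Nat.one_le_cast.2 l.pos
    exact one_div_le_one_div_of_le two_pos (by linarith)
  obtain ⟨t, ht⟩ := fine_bw (D₀ := D) (s := s) hl he hR (fun l => by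
      have := l.pos; have := hR l; simp only [hs]; nlinarith) hL hΛ (fun l x hx => by
      have h1 := lb l x hx
      have h2 := mul_le_mul_of_nonneg_right (half l) (Nat.cast_nonneg ((2 * s l).choose (s l)))
      have : ((2 * s l).choose (s l) : ℝ) ≤ 2 * (2 * s l).choose (s l + x) := by linarith
      exact_mod_cast this) le_rfl F
  refine ⟨t, ?_⟩
  set β : ℝ := ∏ l, ((2 * s l).choose (s l) : ℝ) with hβ
  have hβ0 : 0 < β := prod_pos fun l _ => Nat.cast_pos.2 (Nat.choose_pos (by omega))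
  have up : ∀ X, bw s X ≤ β := fun X => prod_le_prod (fun _ _ => Nat.cast_nonneg _) fun l _ =>
    Nat.cast_le.2 (by simpa using Nat.choose_le_middle (s l + X l) (2 * s l))
  have lo : ∀ X ∈ box R, β / 2 ≤ bw s X := fun X hX => by
    refine le_trans ?_ (prod_le_prod (fun l _ => mul_nonneg (by linarith [half l])
      (Nat.cast_nonneg _)) fun l _ => lb l _ (mem_box.1 hX l))
    rw [prod_mul_distrib, prod_const, card_univ, Fintype.card_fin, div_eq_inv_mul]
    refine mul_le_mul_of_nonneg_right ?_ hβ0.le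
    rcases Nat.eq_zero_or_pos D with h | h
    · subst h; norm_num
    · have hD : (0 : ℝ) < D := Nat.cast_pos.2 h
      have := one_add_mul_le_pow (a := -(1 / (2 * D : ℝ))) (by linarith [half ⟨0, h⟩]) D
      rw [show (D : ℝ) * -(1 / (2 * D)) = -(1 / 2) by field_simp] at this
      rw [sub_eq_add_neg]
      linarith
  refine le_of_mul_le_mul_left ?_ (half_pos hβ0)
  rw [mul_sum]
  refine (sum_le_sum fun X hX => mul_le_mul_of_nonneg_right (lo X hX)
    (mul_nonneg (Real.exp_pos _).le (sq_nonneg _))).trans (ht.trans ?_)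
  rw [mul_sum]
  refine sum_le_sum fun l _ => ?_
  have hΛ0 : 0 ≤ Λ := le_trans (mul_nonneg (sq_nonneg _) (sum_nonneg fun i _ => by
    split_ifs
    · linarith [(he i).cvx 0, (he i).curv 0]
    · exact le_rfl)) (hΛ l)
  refine (mul_le_mul_of_nonneg_left (sum_le_sum fun X _ => mul_le_mul_of_nonneg_right (up X)
    (mul_nonneg (Real.exp_pos _).le (sq_nonneg _))) (by positivity)).trans (le_of_eq ?_)
  rw [← mul_sum]
  simp only [hs, Phi]
  push_cast
  ring

end Vale.Agent.P328
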