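import Vale.Agent.P328.Mix
import Vale.Agent.P328.Coins

/-! The sampler as a function of the coins, and its output law. -/

namespace Vale.Agent.P328

open Finset

theorem foldl_inv {σ β : Type} {f : σ → β → σ} {I : σ → Prop} (h : ∀ s b, I s → I (f s b)) :
    ∀ (l : List β) (s : σ), I s → I (l.foldl f s)
  | [], _, hs => hs
  | b :: l, s, hs => foldl_inv h l _ (h s b hs)

variable {m n : ℕ} (r : Fin m → ℕ) (c : Fin n → ℕ) (i₀ : Fin m) (j₀ : Fin n) (q Q W : ℕ)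
  (h M : Fin (m * n) → ℕ) (g : Con m n → ℕ)

/-- A proposed move is accepted when enough coins show heads. -/
def tryF (Z : Fin (m * n) → ℕ) (j : Fin (m * n) × Bool) (t : List Bool) : Fin (m * n) → ℕ :=
  if (t.take (kf r c i₀ j₀ q Q h g (fun l => h l * mv M Z j l) -
    kf r c i₀ j₀ q Q h g fun l => h l * Z l)).all id = true then mv M Z j else Z

/-- One step of the chain. -/
def stepF (Z : Fin (m * n) → ℕ) (b : List Bool) : Fin (m * n) → ℕ :=
  if hl : val (b.take (2 * q)) < m * n then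
    tryF r c i₀ j₀ q Q h M g Z (⟨_, hl⟩, (b.drop (2 * q)).headD false) (b.drop (2 * q)).tail
  else Z

/-- A run of the chain. -/
def chainF (w : List Bool) : Fin (m * n) → ℕ :=
  (chunks (2 * q + (Q ^ 21 + 1)) (Q ^ 226) w).foldl (stepF r c i₀ j₀ q Q h M g) fun _ => 0

/-- A random point of the block reached by the chain. -/
def pointF (w : List Bool) : Fin (m * n) → ℕ := fun l =>
  h l * chainF r c i₀ j₀ q Q h M g w l +
    val (((w.drop (Q ^ 226 * (2 * q + (Q ^ 21 + 1)))).drop (l * W)).take W) % h l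

/-- One attempt. -/
def attF (Y : Fin m → Fin n → ℕ) (w : List Bool) : Fin m → Fin n → ℕ :=
  if ∀ o, viol r c i₀ j₀ 0 o (pointF r c i₀ j₀ q Q W h M g w) = 0 then
    fill r c i₀ j₀ (pointF r c i₀ j₀ q Q W h M g w) else Y

/-- The whole sampler. -/
def mainF (Y : Fin m → Fin n → ℕ) (w : List Bool) : Fin m → Fin n → ℕ :=
  (chunks (Q ^ 226 * (2 * q + (Q ^ 21 + 1)) + m * n * W) (Q ^ 2) w).foldl
    (attF r c i₀ j₀ q Q W h M g) Y

variable {r c i₀ j₀ q Q W h M g}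

theorem stepF_mem {Z : Fin (m * n) → ℕ} (b : List Bool) (hZ : Z ∈ box M) :
    stepF r c i₀ j₀ q Q h M g Z b ∈ box M := by
  unfold stepF tryF
  split_ifs
  exacts [mv_mem hZ _, hZ, hZ]

namespace Par
variable (P : Par r c i₀ j₀ q Q h M g)
include P

theorem zero_mem : (fun _ => 0) ∈ box M := mem_box.2 fun l => (P.Mpos l).1

theorem chainF_mem (w : List Bool) : chainF r c i₀ j₀ q Q h M g w ∈ box M :=
  foldl_inv (I := fun Z => Z ∈ box M) (fun _ b => stepF_mem b) _ _ P.zero_mem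

theorem attF_mem {Y : Fin m → Fin n → ℕ} (w : List Bool) (hY : Y ∈ tables r c) :
    attF r c i₀ j₀ q Q W h M g Y w ∈ tables r c := by
  unfold attF
  split_ifs with hv
  · refine fill_mem P.tot (fun l hl => ?_) hv
    have := mem_box.1 (P.chainF_mem w) l
    rw [(P.hstar l hl).2] at this
    simp only [pointF, (P.hstar l hl).1]; omega
  · exact hY

theorem mainF_mem {Y : Fin m → Fin n → ℕ} (w : List Bool) (hY : Y ∈ tables r c) :
    mainF r c i₀ j₀ q Q W h M g Y w ∈ tables r c :=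
  foldl_inv (I := fun Y => Y ∈ tables r c) (fun _ b => P.attF_mem b) _ _ hY

theorem ex_try (ψ : (Fin (m * n) → ℕ) → ℝ) {Z : Fin (m * n) → ℕ} (hZ : Z ∈ box M)
    (j : Fin (m * n) × Bool) : Ex (Q ^ 21) (fun t => ψ (tryF r c i₀ j₀ q Q h M g Z j t)) =
      ψ Z + acc (mu r c i₀ j₀ q Q h g) Z (mv M Z j) * (ψ (mv M Z j) - ψ Z) := by
  have h1 := P.kf_le (P.corner_mem (mv_mem hZ j))
  simp only [tryF, apply_ite ψ, acc, mu]
  generalize kf r c i₀ j₀ q Q h g (fun l => h l * mv M Z j l) = a at h1 ⊢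
  generalize kf r c i₀ j₀ q Q h g (fun l => h l * Z l) = b
  rw [Ex_take (le_trans (Nat.sub_le _ _) h1) fun t => if t.all id = true then _ else _, Ex_all]
  congr 2
  rcases le_total a b with hab | hab
  · rw [Nat.sub_eq_zero_of_le hab, pow_zero, min_eq_left]
    rw [one_le_div (by positivity)]
    exact pow_le_pow_of_le_one (by norm_num) (by norm_num) hab
  · obtain ⟨d, rfl⟩ := Nat.exists_eq_add_of_le hab
    rw [Nat.add_sub_cancel_left, pow_add, mul_div_cancel_left₀ _ (by positivity), min_eq_right]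
    exact pow_le_one₀ (by norm_num) (by norm_num)

theorem ex_step (ψ : (Fin (m * n) → ℕ) → ℝ) {Z : Fin (m * n) → ℕ} (hZ : Z ∈ box M) :
    Ex (2 * q + (Q ^ 21 + 1)) (fun b => ψ (stepF r c i₀ j₀ q Q h M g Z b)) =
      Pk M (1 / (2 * Q ^ 2)) (mu r c i₀ j₀ q Q h g) ψ Z := by
  set F : Fin (m * n) × Bool → ℝ :=
    fun j => acc (mu r c i₀ j₀ q Q h g) Z (mv M Z j) * (ψ (mv M Z j) - ψ Z) with hF
  have e1 := Ex_split (2 * q) (Q ^ 21 + 1) fun u v => ψ (if hl : val u < m * n then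
    tryF r c i₀ j₀ q Q h M g Z (⟨_, hl⟩, v.headD false) v.tail else Z)
  have e2 : ∀ i : ℕ, Ex (Q ^ 21 + 1) (fun v => ψ (if hl : i < m * n then
      tryF r c i₀ j₀ q Q h M g Z (⟨_, hl⟩, v.headD false) v.tail else Z)) =
      ψ Z + 1 / 2 * if hl : i < m * n then ∑ b, F (⟨_, hl⟩, b) else 0 := by
    intro i
    split_ifs with hl
    · simp only [Ex, List.headD_cons, List.tail_cons, P.ex_try ψ hZ, Fintype.sum_bool, hF]; ring
    · simp [Ex_const]
  have e3 : 2 ^ (2 * q) = Q ^ 2 := by rw [P.hQ, ← pow_mul, mul_comm]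
  have e4 : (2 : ℝ) ^ (2 * q) = Q ^ 2 := by exact_mod_cast e3
  simp only [e2] at e1
  rw [Ex_affine, Ex_val _ fun i => if hl : i < m * n then ∑ b, F (⟨_, hl⟩, b) else 0, e3, e4,
    ← sum_subset (range_subset_range.2 P.dim) fun i _ hi => dif_neg (by simpa using hi),
    sum_range] at e1
  simp only [Fin.is_lt, dif_pos, Fin.eta] at e1
  rw [Pk, Fintype.sum_prod_type]
  exact e1.trans (by ring)

theorem ex_iter (ψ : (Fin (m * n) → ℕ) → ℝ) : ∀ (k : ℕ) {Z : Fin (m * n) → ℕ} (_ : Z ∈ box M),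
    (fun (φ : (Fin (m * n) → ℕ) → ℝ) s => Ex (2 * q + (Q ^ 21 + 1))
      fun b => φ (stepF r c i₀ j₀ q Q h M g s b))^[k] ψ Z =
      (Pk M (1 / (2 * Q ^ 2)) (mu r c i₀ j₀ q Q h g))^[k] ψ Z
  | 0, _, _ => rfl
  | k + 1, Z, hZ => by
    rw [Function.iterate_succ_apply', Function.iterate_succ_apply', ← P.ex_step _ hZ]
    exact Ex_congr fun b _ => ex_iter ψ k (stepF_mem b hZ)

theorem mu_feas {X : Fin (m * n) → ℕ} (hv : ∀ o, viol r c i₀ j₀ 0 o X = 0) :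
    mu r c i₀ j₀ q Q h g (fun l => X l / h l) = 1 := by
  have : ∀ o, viol r c i₀ j₀ (∑ l, (h l - 1)) o (fun l => h l * (X l / h l)) = 0 := by
    intro o
    have b1 : sN o (fun l => h l * (X l / h l)) ≤ sN o X :=
      sum_le_sum fun l _ => by have := Nat.mul_div_le (X l) (h l); split_ifs <;> omega
    have b2 : sN none X ≤ sN none (fun l => h l * (X l / h l)) + ∑ l, (h l - 1) := by
      simp only [sN, mem, if_true, ← sum_add_distrib]
      refine sum_le_sum fun l _ => ?_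
      have := Nat.div_add_mod (X l) (h l)
      have := Nat.mod_lt (X l) (P.hpos l)
      omega
    have := hv o
    rcases o with _ | o <;> simp only [viol] at this ⊢ <;> omega
  simp [mu, kf, this]

theorem stat : ∃ p : ℝ, 1 / 16 ≤ p ∧ p ≤ 1 ∧ ∀ (ψ : (Fin m → Fin n → ℕ) → ℝ) (y : ℝ),
    (∑ Z ∈ box M, mu r c i₀ j₀ q Q h g Z * ((∑ ρ ∈ box h,
      if ∀ o, viol r c i₀ j₀ 0 o (fun l => h l * Z l + ρ l) = 0 then
        ψ (fill r c i₀ j₀ fun l => h l * Z l + ρ l) else y) / ∏ l, (h l : ℝ))) /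
      ∑ Z ∈ box M, mu r c i₀ j₀ q Q h g Z =
        y + p * ((∑ Y ∈ tables r c, ψ Y) / (tables r c).card - y) := by
  have hH : 0 < ∏ l, (h l : ℝ) := prod_pos fun l _ => Nat.cast_pos.2 (P.hpos l)
  have hS : 0 < ∑ Z ∈ box M, mu r c i₀ j₀ q Q h g Z :=
    sum_pos (fun Z _ => mu_pos r c i₀ j₀ q Q h g Z) ⟨_, P.zero_mem⟩
  have e1 := sum_box_div h M P.hpos (mu r c i₀ j₀ q Q h g)
  have fe := sum_feas (i₀ := i₀) (j₀ := j₀) (R := fun l => h l * M l) P.tot
    (fun l hl => by simp only [(P.hstar l hl).1, (P.hstar l hl).2])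
    (fun l hl => by simp only [(P.hfree l hl).1, (P.hfree l hl).2.1])
  have e2 : ∀ (ψ : (Fin m → Fin n → ℕ) → ℝ), ∑ X ∈ box fun l => h l * M l,
      (if ∀ o, viol r c i₀ j₀ 0 o X = 0 then
        mu r c i₀ j₀ q Q h g (fun l => X l / h l) * ψ (fill r c i₀ j₀ X) else 0) =
      ∑ Y ∈ tables r c, ψ Y := fun ψ => by
    rw [← fe ψ, sum_filter]
    exact sum_congr rfl fun X _ => by split_ifs with hv; exacts [by rw [P.mu_feas hv, one_mul], rfl]
  have e3 := e2 fun _ => 1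
  simp only [mul_one, sum_const, nsmul_eq_mul] at e3
  have b1 : (∏ l, (h l : ℝ)) * ∑ Z ∈ box M, mu r c i₀ j₀ q Q h g Z ≤ 16 * (tables r c).card := by
    have := sum_le_sum fun X (_ : X ∈ box fun l => h l * M l) =>
      (P.mu_cmp (X := X) (Z := fun l => X l / h l) fun l => near_div (P.hpos l) _).2
    rw [← mul_sum, e1] at this
    linarith [P.accept]
  have b2 : ((tables r c).card : ℝ) ≤ (∏ l, (h l : ℝ)) * ∑ Z ∈ box M, mu r c i₀ j₀ q Q h g Z := by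
    rw [← e1, ← e3]
    exact sum_le_sum fun X _ => by
      split_ifs; exacts [le_rfl, (mu_pos r c i₀ j₀ q Q h g _).le]
  have hO : (0 : ℝ) < (tables r c).card := by linarith [mul_pos hH hS]
  refine ⟨(tables r c).card / ((∏ l, (h l : ℝ)) * ∑ Z ∈ box M, mu r c i₀ j₀ q Q h g Z),
    by rw [le_div_iff₀ (mul_pos hH hS)]; linarith, (div_le_one (mul_pos hH hS)).2 b2,
    fun ψ y => ?_⟩
  have e4 := sum_box_block h M P.hpos fun X => mu r c i₀ j₀ q Q h g (fun l => X l / h l) *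
    if ∀ o, viol r c i₀ j₀ 0 o X = 0 then ψ (fill r c i₀ j₀ X) else y
  have e5 : ∑ X ∈ box fun l => h l * M l, (mu r c i₀ j₀ q Q h g (fun l => X l / h l) *
      if ∀ o, viol r c i₀ j₀ 0 o X = 0 then ψ (fill r c i₀ j₀ X) else y) =
      ∑ Y ∈ tables r c, ψ Y + y * ((∏ l, (h l : ℝ)) * ∑ Z ∈ box M, mu r c i₀ j₀ q Q h g Z -
        (tables r c).card) := by
    rw [← e1, ← e3, ← e2 ψ, ← sum_sub_distrib, mul_sum, ← sum_add_distrib]
    exact sum_congr rfl fun X _ => by split_ifs <;> ring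
  have e6 : ∀ Z ∈ box M, ∑ ρ ∈ box h,
      (mu r c i₀ j₀ q Q h g (fun l => (h l * Z l + ρ l) / h l) *
      if ∀ o, viol r c i₀ j₀ 0 o (fun l => h l * Z l + ρ l) = 0 then
        ψ (fill r c i₀ j₀ fun l => h l * Z l + ρ l) else y) = mu r c i₀ j₀ q Q h g Z * ∑ ρ ∈ box h,
      if ∀ o, viol r c i₀ j₀ 0 o (fun l => h l * Z l + ρ l) = 0 then
        ψ (fill r c i₀ j₀ fun l => h l * Z l + ρ l) else y := fun Z _ => by
    rw [mul_sum]
    refine sum_congr rfl fun ρ hρ => ?_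
    congr 2
    funext l
    simp [Nat.mul_add_div (P.hpos l), Nat.div_eq_of_lt (mem_box.1 hρ l)]
  rw [sum_congr rfl e6, e5] at e4
  simp only [← mul_div_assoc, ← sum_div]
  rw [← e4]
  field_simp
  ring

theorem ex_att (hW : ∀ l, ∃ e ≤ W, h l = 2 ^ e) : ∃ p : ℝ, 1 / 16 ≤ p ∧ p ≤ 1 ∧
    ∀ (ψ : (Fin m → Fin n → ℕ) → ℝ), (∀ Y, 0 ≤ ψ Y) → (∀ Y, ψ Y ≤ 1) → ∀ Y,
      Ex (Q ^ 226 * (2 * q + (Q ^ 21 + 1)) + m * n * W)
        (fun w => ψ (attF r c i₀ j₀ q Q W h M g Y w)) ≤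
        ψ Y + p * ((∑ Y ∈ tables r c, ψ Y) / (tables r c).card - ψ Y) + Real.exp (-(Q : ℝ) ^ 2) := by
  obtain ⟨p, p1, p2, hp⟩ := P.stat
  refine ⟨p, p1, p2, fun ψ h0 h1 Y => ?_⟩
  set G : (Fin (m * n) → ℕ) → (Fin (m * n) → ℕ) → ℝ := fun Z ρ =>
    if ∀ o, viol r c i₀ j₀ 0 o (fun l => h l * Z l + ρ l) = 0 then
      ψ (fill r c i₀ j₀ fun l => h l * Z l + ρ l) else ψ Y with hG
  have hH : 0 < ∏ l, (h l : ℝ) := prod_pos fun l _ => Nat.cast_pos.2 (P.hpos l)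
  have e1 := Ex_split (Q ^ 226 * (2 * q + (Q ^ 21 + 1))) (m * n * W) fun u v =>
    G (chainF r c i₀ j₀ q Q h M g u) fun l => val ((v.drop (l * W)).take W) % h l
  simp only [Ex_box W h hW] at e1
  have e2 := Ex_fold (stepF r c i₀ j₀ q Q h M g) (2 * q + (Q ^ 21 + 1))
    (fun Z => (∑ ρ ∈ box h, G Z ρ) / ∏ l, (h l : ℝ)) (Q ^ 226) fun _ => 0
  rw [P.ex_iter _ _ P.zero_mem] at e2
  have e3 := P.mix (ψ := fun Z => (∑ ρ ∈ box h, G Z ρ) / ∏ l, (h l : ℝ))
    (fun Z => div_nonneg (sum_nonneg fun ρ _ => by simp only [hG]; split_ifs <;> exact h0 _) hH.le)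
    (fun Z => (div_le_one hH).2 ((sum_le_card_nsmul _ _ 1 fun ρ _ => by
      simp only [hG]; split_ifs <;> exact h1 _).trans_eq (by simp [box]))) P.zero_mem
  rw [hp ψ (ψ Y), ← e2] at e3
  refine le_trans (le_of_eq ?_) (e1.le.trans e3)
  refine Ex_congr fun w _ => ?_
  simp only [attF, chainF, chunks_take, hG, apply_ite ψ]
  rfl

theorem ex_main (hW : ∀ l, ∃ e ≤ W, h l = 2 ^ e) {ψ : (Fin m → Fin n → ℕ) → ℝ} (h0 : ∀ Y, 0 ≤ ψ Y)
    (h1 : ∀ Y, ψ Y ≤ 1) (Y : Fin m → Fin n → ℕ) {T : ℕ}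
    (hT : Q ^ 2 * (Q ^ 226 * (2 * q + (Q ^ 21 + 1)) + m * n * W) ≤ T) :
    Ex T (fun w => ψ (mainF r c i₀ j₀ q Q W h M g Y w)) ≤
      (∑ Y ∈ tables r c, ψ Y) / (tables r c).card + (1 / 2) ^ Q := by
  obtain ⟨p, p1, p2, hp⟩ := P.ex_att hW
  set U := (∑ Y ∈ tables r c, ψ Y) / (tables r c).card with hU
  set δ := Real.exp (-(Q : ℝ) ^ 2) with hδ
  have δ0 : 0 ≤ δ := (Real.exp_pos _).le
  have key : ∀ (k : ℕ) Y, (fun (φ : (Fin m → Fin n → ℕ) → ℝ) s =>
      Ex (Q ^ 226 * (2 * q + (Q ^ 21 + 1)) + m * n * W)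
        fun b => φ (attF r c i₀ j₀ q Q W h M g s b))^[k] ψ Y ≤
      U - (1 - p) ^ k * U + k * δ + (1 - p) ^ k * ψ Y := by
    intro k
    induction k with
    | zero => simp
    | succ k ih =>
      intro Y
      rw [Function.iterate_succ_apply']
      refine (Ex_mono fun w _ => ih _).trans ?_
      rw [Ex_affine]
      have a1 : 0 ≤ (1 - p) ^ k := pow_nonneg (by linarith) _
      have a2 : (1 - p) ^ k ≤ 1 := pow_le_one₀ (by linarith) (by linarith)
      have a3 := mul_le_mul_of_nonneg_left (hp ψ h0 h1 Y) a1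
      have a4 := mul_le_mul_of_nonneg_right a2 δ0
      push_cast
      rw [← hU] at a3
      rw [pow_succ (1 - p)]
      linarith
  have e1 := Ex_take hT fun w => ψ (mainF r c i₀ j₀ q Q W h M g Y w)
  simp only [mainF, chunks_take] at e1 ⊢
  rw [e1, Ex_fold]
  refine (key _ _).trans ?_
  have hQ : 256 ≤ Q := by have := P.big; omega
  have U0 : 0 ≤ U := div_nonneg (sum_nonneg fun _ _ => h0 _) (Nat.cast_nonneg _)
  have a1 : 0 ≤ (1 - p) ^ Q ^ 2 := pow_nonneg (by linarith) _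
  have a2 : (1 - p) ^ Q ^ 2 ≤ (1 / 2) ^ (Q + 1) :=
    calc _ ≤ (15 / 16 : ℝ) ^ Q ^ 2 := pow_le_pow_left₀ (by linarith) (by linarith) _
      _ ≤ (15 / 16 : ℝ) ^ (16 * (Q + 1)) :=
        pow_le_pow_of_le_one (by norm_num) (by norm_num) (by nlinarith)
      _ ≤ _ := by rw [pow_mul]; exact pow_le_pow_left₀ (by norm_num) (by norm_num) _
  have a3 : (Q ^ 2 : ℕ) * δ ≤ (1 / 2) ^ (Q + 1) := by
    have b1 : Q ^ 2 * 2 ^ (Q + 1) ≤ 2 ^ Q ^ 2 :=
      calc _ ≤ (2 ^ Q) ^ 2 * 2 ^ (Q + 1) :=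
            Nat.mul_le_mul_right _ (Nat.pow_le_pow_left Nat.lt_two_pow_self.le _)
        _ = 2 ^ (3 * Q + 1) := by ring
        _ ≤ _ := Nat.pow_le_pow_right two_pos (by nlinarith)
    have b2 : (2 : ℝ) ^ Q ^ 2 ≤ Real.exp ((Q : ℝ) ^ 2) := by
      rw [← exp_log_two, Real.exp_le_exp]
      push_cast
      nlinarith [Real.log_two_lt_d9, sq_nonneg (Q : ℝ)]
    rw [hδ, Real.exp_neg, one_div, inv_pow, ← div_eq_mul_inv, ← one_div,
      div_le_div_iff₀ (Real.exp_pos _) (by positivity), one_mul]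
    exact le_trans (by exact_mod_cast b1) b2
  have a4 := mul_le_mul_of_nonneg_left (h1 Y) a1
  have a5 := mul_nonneg a1 U0
  rw [pow_succ (1 / 2 : ℝ)] at a2 a3
  linarith

end Par

end Vale.Agent.P328
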