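import Vale.Agent.P328.Chain
import Vale.Agent.P328.Defs

/-! Free coordinates for contingency tables. -/

namespace Vale.Agent.P328

open Finset

variable {m n : ℕ}

/-- The index of a cell. -/
def cell (i : Fin m) (j : Fin n) : Fin (m * n) := finProdFinEquiv (i, j)

@[simp] theorem cell_div (i : Fin m) (j : Fin n) : (cell i j).divNat = i :=
  congrArg Prod.fst (finProdFinEquiv.symm_apply_apply (i, j))

@[simp] theorem cell_mod (i : Fin m) (j : Fin n) : (cell i j).modNat = j :=
  congrArg Prod.snd (finProdFinEquiv.symm_apply_apply (i, j))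

@[simp] theorem cell_div_mod (l : Fin (m * n)) : cell l.divNat l.modNat = l :=
  finProdFinEquiv.apply_symm_apply l

theorem cell_val (i : Fin m) (j : Fin n) : (cell i j).val = i.val * n + j.val := by
  simp [cell, finProdFinEquiv]; ring

theorem sum_cell {β : Type} [AddCommMonoid β] (f : Fin (m * n) → β) :
    ∑ l, f l = ∑ i, ∑ j, f (cell i j) := by
  rw [← finProdFinEquiv.sum_comp, Fintype.sum_prod_type]; rfl

/-- The constraints: total, rows, columns. -/
abbrev Con (m n : ℕ) : Type := Option (Fin m ⊕ Fin n)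

/-- The cells of a constraint. -/
def mem : Con m n → Fin (m * n) → Bool
  | none, _ => true
  | some (.inl i), l => l.divNat = i
  | some (.inr j), l => l.modNat = j

/-- The sum of the cells of a constraint. -/
def sN (o : Con m n) (X : Fin (m * n) → ℕ) : ℕ := ∑ l, if mem o l then X l else 0

theorem sN_row (i : Fin m) (X : Fin (m * n) → ℕ) : sN (some (.inl i)) X = ∑ j, X (cell i j) := by
  rw [sN, sum_cell, sum_comm]
  simp [mem]

theorem sN_col (j : Fin n) (X : Fin (m * n) → ℕ) : sN (some (.inr j)) X = ∑ i, X (cell i j) := by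
  rw [sN, sum_cell]
  simp [mem]

theorem sN_tot (X : Fin (m * n) → ℕ) : sN none X = ∑ i, ∑ j, X (cell i j) := by
  rw [sN, sum_cell]
  simp [mem]

theorem sN_rows (X : Fin (m * n) → ℕ) : sN none X = ∑ i, sN (some (.inl i)) X := by
  simp only [sN_tot, sN_row]

theorem sN_cols (X : Fin (m * n) → ℕ) : sN none X = ∑ j, sN (some (.inr j)) X := by
  simp only [sN_tot, sN_col]; exact sum_comm

theorem sN_update (o : Con m n) (X : Fin (m * n) → ℕ) (l : Fin (m * n)) (v : ℕ) :
    sN o (Function.update X l v) + (if mem o l then X l else 0) =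
      sN o X + if mem o l then v else 0 := by
  rw [sN, sN, ← add_sum_erase _ _ (mem_univ l), ← add_sum_erase (f := fun l => if mem o l then X l
    else 0) _ (mem_univ l), Function.update_self,
    sum_congr rfl fun k hk => by rw [Function.update_of_ne (mem_erase.1 hk).1]]
  ring

variable (r : Fin m → ℕ) (c : Fin n → ℕ) (i₀ : Fin m) (j₀ : Fin n)

/-- The bound of a constraint. -/
def bd : Con m n → ℕ
  | none => ∑ i, r i - (r i₀ + c j₀)
  | some (.inl i) => r i
  | some (.inr j) => c j

/-- The violation of a constraint; the total constraint is relaxed by `a`. -/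
def viol (a : ℕ) (o : Con m n) (X : Fin (m * n) → ℕ) : ℕ :=
  match o with
  | none => bd r c i₀ j₀ none - a - sN none X
  | some o => sN (some o) X - bd r c i₀ j₀ (some o)

/-- Cells in the largest row or column. -/
def star (l : Fin (m * n)) : Prop := l.divNat = i₀ ∨ l.modNat = j₀

instance (l : Fin (m * n)) : Decidable (star i₀ j₀ l) := inferInstanceAs (Decidable (_ ∨ _))

/-- Completion of the free cells to a table. -/
def fill (X : Fin (m * n) → ℕ) : Fin m → Fin n → ℕ := fun i j =>
  if i = i₀ then (if j = j₀ then sN none X + (r i₀ + c j₀) - ∑ i, r i else c j - sN (some (.inr j)) X)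
  else if j = j₀ then r i - sN (some (.inl i)) X else X (cell i j)

/-- The scale of a cell. -/
def uu (l : Fin (m * n)) : ℕ := min (r l.divNat) (c l.modNat)

theorem mem_tables {X : Fin m → Fin n → ℕ} :
    X ∈ tables r c ↔ (∀ i, ∑ j, X i j = r i) ∧ ∀ j, ∑ i, X i j = c j := by
  simp only [tables, mem_filter, Fintype.mem_piFinset, mem_range, and_iff_right_iff_imp]
  intro h i j
  have := single_le_sum (f := fun j => X i j) (fun _ _ => Nat.zero_le _) (mem_univ j)
  have := h.1 i
  omega

variable {r c i₀ j₀}

theorem fill_mem (hN : ∑ i, r i = ∑ j, c j) {X : Fin (m * n) → ℕ}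
    (h0 : ∀ l, star i₀ j₀ l → X l = 0) (hv : ∀ o, viol r c i₀ j₀ 0 o X = 0) :
    fill r c i₀ j₀ X ∈ tables r c := by
  have hr : ∀ i, sN (some (.inl i)) X ≤ r i := fun i => by
    have := hv (some (.inl i)); simp only [viol, bd] at this; omega
  have hc : ∀ j, sN (some (.inr j)) X ≤ c j := fun j => by
    have := hv (some (.inr j)); simp only [viol, bd] at this; omega
  have ht := hv none
  simp only [viol, bd] at ht
  have z1 : ∀ j, X (cell i₀ j) = 0 := fun j => h0 _ (Or.inl (by simp))
  have z2 : ∀ i, X (cell i j₀) = 0 := fun i => h0 _ (Or.inr (by simp))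
  rw [mem_tables]
  refine ⟨fun i => ?_, fun j => ?_⟩
  · rw [← add_sum_erase _ _ (mem_univ j₀)]
    by_cases hi : i = i₀
    · subst hi
      rw [sum_congr rfl fun j hj => by rw [fill, if_pos rfl, if_neg (mem_erase.1 hj).1],
        sum_tsub_distrib _ fun j _ => hc j]
      have a1 := add_sum_erase _ c (mem_univ j₀)
      have a2 := add_sum_erase _ (fun j => sN (some (.inr j)) X) (mem_univ j₀)
      have a3 := sN_cols X
      have a4 : sN (some (.inr j₀)) X = 0 := by simp [sN_col, z2]
      have a5 := sum_le_sum fun j (_ : j ∈ univ.erase j₀) => hc j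
      simp only [fill, if_true] at a2 ⊢
      omega
    · rw [sum_congr rfl fun j hj => by rw [fill, if_neg hi, if_neg (mem_erase.1 hj).1]]
      have a1 := add_sum_erase _ (fun j => X (cell i j)) (mem_univ j₀)
      have a2 := sN_row i X
      have := hr i
      simp only [fill, hi, if_true, if_false, z2] at a1 ⊢
      omega
  · rw [← add_sum_erase _ _ (mem_univ i₀)]
    by_cases hj : j = j₀
    · subst hj
      rw [sum_congr rfl fun i hi => by rw [fill, if_neg (mem_erase.1 hi).1, if_pos rfl],
        sum_tsub_distrib _ fun i _ => hr i]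
      have a1 := add_sum_erase _ r (mem_univ i₀)
      have a2 := add_sum_erase _ (fun i => sN (some (.inl i)) X) (mem_univ i₀)
      have a3 := sN_rows X
      have a4 : sN (some (.inl i₀)) X = 0 := by simp [sN_row, z1]
      have a5 := sum_le_sum fun i (_ : i ∈ univ.erase i₀) => hr i
      simp only [fill, if_true] at a2 ⊢
      omega
    · rw [sum_congr rfl fun i hi => by rw [fill, if_neg (mem_erase.1 hi).1, if_neg hj]]
      have a1 := add_sum_erase _ (fun i => X (cell i j)) (mem_univ i₀)
      have a2 := sN_col j X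
      have := hc j
      simp only [fill, hj, if_true, if_false, z1] at a1 ⊢
      omega

theorem sum_feas {R : Fin (m * n) → ℕ} (hN : ∑ i, r i = ∑ j, c j)
    (h1 : ∀ l, star i₀ j₀ l → R l = 1) (h2 : ∀ l, ¬star i₀ j₀ l → uu r c l < R l)
    (ψ : (Fin m → Fin n → ℕ) → ℝ) :
    ∑ X ∈ (box R).filter fun X => ∀ o, viol r c i₀ j₀ 0 o X = 0, ψ (fill r c i₀ j₀ X) =
      ∑ Y ∈ tables r c, ψ Y := by
  have h0 : ∀ X ∈ box R, ∀ l, star i₀ j₀ l → X l = 0 := fun X hX l hl => by
    have := mem_box.1 hX l; rw [h1 l hl] at this; omega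
  set inv : (Fin m → Fin n → ℕ) → Fin (m * n) → ℕ :=
    fun Y l => if star i₀ j₀ l then 0 else Y l.divNat l.modNat with hinv
  have row : ∀ Y ∈ tables r c, ∀ i, i ≠ i₀ → sN (some (.inl i)) (inv Y) + Y i j₀ = r i := by
    intro Y hY i hi
    rw [← ((mem_tables r c).1 hY).1 i, sN_row, ← add_sum_erase _ (Y i) (mem_univ j₀),
      ← add_sum_erase _ _ (mem_univ j₀),
      sum_congr rfl (g := Y i) fun j hj => by simp [hinv, star, hi, (mem_erase.1 hj).1]]
    simp [hinv, star, add_comm]
  have col : ∀ Y ∈ tables r c, ∀ j, j ≠ j₀ → sN (some (.inr j)) (inv Y) + Y i₀ j = c j := by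
    intro Y hY j hj
    rw [← ((mem_tables r c).1 hY).2 j, sN_col, ← add_sum_erase _ (fun i => Y i j) (mem_univ i₀),
      ← add_sum_erase _ _ (mem_univ i₀),
      sum_congr rfl (g := fun i => Y i j) fun i hi => by simp [hinv, star, hj, (mem_erase.1 hi).1]]
    simp [hinv, star, add_comm]
  have row0 : ∀ Y, sN (some (.inl i₀)) (inv Y) = 0 := fun Y => by simp [sN_row, hinv, star]
  have col0 : ∀ Y, sN (some (.inr j₀)) (inv Y) = 0 := fun Y => by simp [sN_col, hinv, star]
  have tot : ∀ Y ∈ tables r c, sN none (inv Y) + (r i₀ + c j₀) = ∑ i, r i + Y i₀ j₀ := by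
    intro Y hY
    have a1 := add_sum_erase _ r (mem_univ i₀)
    have a2 := add_sum_erase _ (fun i => sN (some (.inl i)) (inv Y)) (mem_univ i₀)
    have a3 := add_sum_erase _ (fun i => Y i j₀) (mem_univ i₀)
    have a4 : ∑ i ∈ univ.erase i₀, (sN (some (.inl i)) (inv Y) + Y i j₀) =
        ∑ i ∈ univ.erase i₀, r i := sum_congr rfl fun i hi => row Y hY i (mem_erase.1 hi).1
    have a5 := ((mem_tables r c).1 hY).2 j₀
    have a6 := sN_rows (inv Y)
    rw [sum_add_distrib] at a4
    simp only [row0] at a2 a3
    omega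
  refine sum_nbij' (fill r c i₀ j₀) inv ?_ ?_ ?_ ?_ fun _ _ => rfl
  · intro X hX
    exact fill_mem hN (h0 X (mem_filter.1 hX).1) (mem_filter.1 hX).2
  · intro Y hY
    refine mem_filter.2 ⟨mem_box.2 fun l => ?_, ?_⟩
    · simp only [hinv]
      split_ifs with h
      · rw [h1 l h]; exact one_pos
      · refine lt_of_le_of_lt (le_min ?_ ?_) (h2 l h)
        · rw [← ((mem_tables r c).1 hY).1]
          exact single_le_sum (f := Y _) (fun _ _ => Nat.zero_le _) (mem_univ _)
        · rw [← ((mem_tables r c).1 hY).2]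
          exact single_le_sum (f := fun i => Y i _) (fun _ _ => Nat.zero_le _) (mem_univ _)
    · rintro (_ | i | j) <;> simp only [viol, bd]
      · have := tot Y hY; omega
      · by_cases hi : i = i₀
        · rw [hi, row0]; omega
        · have := row Y hY i hi; omega
      · by_cases hj : j = j₀
        · rw [hj, col0]; omega
        · have := col Y hY j hj; omega
  · intro X hX
    funext l
    simp only [hinv]
    split_ifs with h
    · exact (h0 X (mem_filter.1 hX).1 l h).symm
    · rw [star, not_or] at h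
      simp [fill, h.1, h.2]
  · intro Y hY
    funext i j
    simp only [fill]
    split_ifs with hi hj hj
    · have := tot Y hY; rw [hi, hj]; omega
    · have := col Y hY j hj; rw [hi]; omega
    · have := row Y hY i hi; rw [hj]; omega
    · simp [hinv, star, hi, hj]

end Vale.Agent.P328
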