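import Vale.Agent.P328.Bridge

/-! The almost uniform sampler. -/

namespace Vale.Agent.P328

open Finset Vale.Agent.Lib.PolyTime

theorem tv_le {Ω σ : Type} [Fintype Ω] [Nonempty Ω] [DecidableEq σ] {S : Finset σ} {G : Ω → σ}
    (hG : ∀ ω, G ω ∈ S) {ε : ℝ} (h : ∀ ψ : σ → ℝ, (∀ X, 0 ≤ ψ X) → (∀ X, ψ X ≤ 1) →
      (∑ ω, ψ (G ω)) / Fintype.card Ω ≤ (∑ X ∈ S, ψ X) / S.card + ε) :
    1 / 2 * ∑ X ∈ S, |((univ.filter fun ω => G ω = X).card : ℝ) / Fintype.card Ω - 1 / S.card| ≤ ε := by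
  set p : σ → ℝ := fun X => ((univ.filter fun ω => G ω = X).card : ℝ) / Fintype.card Ω with hp
  have e1 : ∀ ψ : σ → ℝ, (∑ ω, ψ (G ω)) / Fintype.card Ω = ∑ X ∈ S, ψ X * p X := fun ψ => by
    rw [← sum_fiberwise_of_maps_to (s := univ) (t := S) (g := G) fun ω _ => hG ω, sum_div]
    refine sum_congr rfl fun X _ => ?_
    rw [sum_congr rfl (g := fun _ => ψ X) fun ω hω => by rw [(mem_filter.1 hω).2]]
    simp only [sum_const, nsmul_eq_mul, hp]; ring
  have hS : (0 : ℝ) < S.card := Nat.cast_pos.2 (card_pos.2 ⟨_, hG (Classical.arbitrary Ω)⟩)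
  have hO : (0 : ℝ) < Fintype.card Ω := Nat.cast_pos.2 Fintype.card_pos
  have e2 := e1 fun _ => 1
  simp only [sum_const, card_univ, nsmul_eq_mul, mul_one, one_mul, div_self hO.ne'] at e2
  have e3 := h (fun X => if 1 / (S.card : ℝ) ≤ p X then 1 else 0)
    (fun X => by split_ifs <;> norm_num) fun X => by split_ifs <;> norm_num
  rw [e1 fun X => if 1 / (S.card : ℝ) ≤ p X then 1 else 0, sum_div] at e3
  have e4 : ∑ X ∈ S, |p X - 1 / S.card| = ∑ X ∈ S,
      (2 * ((if 1 / (S.card : ℝ) ≤ p X then 1 else 0) * p X -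
        (if 1 / (S.card : ℝ) ≤ p X then 1 else 0) / S.card) - (p X - 1 / S.card)) :=
    sum_congr rfl fun X _ => by
      split_ifs with hX
      · rw [abs_of_nonneg (by linarith)]; ring
      · rw [abs_of_neg (by linarith)]; ring
  rw [e4, sum_sub_distrib, ← mul_sum, sum_sub_distrib, sum_sub_distrib, ← e2, sum_const,
    nsmul_eq_mul, mul_one_div_cancel hS.ne']
  linarith

theorem poly_bound (C : ℕ) (p : Polynomial ℕ) : ∃ k : ℕ, ∀ (x : ℕ) (y : ℝ), 1 ≤ y → x ≤ C * y →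
    ((p.eval x : ℕ) : ℝ) ≤ k * y ^ k := by
  induction p using Polynomial.induction_on' with
  | add p q hp hq =>
    obtain ⟨a, ha⟩ := hp
    obtain ⟨b, hb⟩ := hq
    refine ⟨a + b, fun x y hy hx => ?_⟩
    have h1 := mul_le_mul_of_nonneg_left (pow_le_pow_right₀ hy (Nat.le_add_right a b))
      (Nat.cast_nonneg (α := ℝ) a)
    have h2 := mul_le_mul_of_nonneg_left (pow_le_pow_right₀ hy (Nat.le_add_left b a))
      (Nat.cast_nonneg (α := ℝ) b)
    rw [Polynomial.eval_add]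
    push_cast
    linarith [ha x y hy hx, hb x y hy hx]
  | monomial d a =>
    refine ⟨a * C ^ d + d, fun x y hy hx => ?_⟩
    rw [Polynomial.eval_monomial]
    push_cast
    calc _ ≤ (a : ℝ) * (C * y) ^ d := by gcongr
      _ = a * C ^ d * y ^ d := by ring
      _ ≤ _ := mul_le_mul (le_add_of_nonneg_right (Nat.cast_nonneg _))
          (pow_le_pow_right₀ hy (Nat.le_add_left _ _)) (by positivity) (by positivity)

theorem size_le_logb (a : ℕ) : (Nat.size a : ℝ) ≤ Real.logb 2 (a + 2) + 1 := by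
  have h : 2 ^ Nat.size a ≤ 2 * (a + 2) := by
    rcases Nat.eq_zero_or_pos a with rfl | h
    · simp
    · have := two_pow_size_le h; omega
  rw [← sub_le_iff_le_add, Real.le_logb_iff_rpow_le one_lt_two (by positivity),
    Real.rpow_sub two_pos, Real.rpow_natCast, Real.rpow_one, div_le_iff₀' two_pos]
  exact_mod_cast h

theorem size_ceil {ε : ℝ} (h0 : 0 < ε) (h1 : ε < 1) :
    (Nat.size ⌈1 / ε⌉₊ : ℝ) ≤ 2 + 2 * Real.log (1 / ε) := by
  have a1 : 1 < 1 / ε := one_lt_one_div h0 h1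
  have a2 : (2 : ℝ) ^ Nat.size ⌈1 / ε⌉₊ ≤ 2 * ⌈1 / ε⌉₊ := by
    exact_mod_cast two_pow_size_le (Nat.ceil_pos.2 (by linarith))
  have a3 := Nat.ceil_lt_add_one (by linarith : 0 ≤ 1 / ε)
  have a4 := Real.log_le_log (by positivity)
    (by linarith : (2 : ℝ) ^ Nat.size ⌈1 / ε⌉₊ ≤ 2 ^ 2 * (1 / ε))
  rw [Real.log_mul (by positivity) (by positivity), Real.log_pow, Real.log_pow] at a4
  have a5 := Real.log_pos a1
  have a6 := Real.log_two_gt_d9
  push_cast at a4
  nlinarith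

theorem size_sum_le {m : ℕ} (r : Fin m → ℕ) : Nat.size (∑ i, r i) ≤ ∑ i, (Nat.size (r i) + 1) := by
  refine Finset.induction_on univ (by simp) fun i s hi ih => ?_
  have := size_add_le (r i) (∑ i ∈ s, r i)
  rw [sum_insert hi, sum_insert hi]; omega

theorem code_length (l : List ℕ) : (code l).length = (l.map fun a => 2 * Nat.size a + 1).sum := by
  simp [code, List.length_flatMap, ← Nat.size_eq_bits_len, mul_comm]

variable {m n : ℕ}

theorem sum_size_le (r : Fin m → ℕ) :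
    ∑ i, (Nat.size (r i) : ℝ) ≤ ∑ i, Real.logb 2 (r i + 2) + m := by
  simpa [sum_add_distrib] using sum_le_sum fun i (_ : i ∈ univ) => size_le_logb (r i)

theorem sum_logb_nonneg (r : Fin m → ℕ) : 0 ≤ ∑ i, Real.logb 2 (r i + 2) :=
  sum_nonneg fun i _ => Real.logb_nonneg one_lt_two (by linarith [Nat.cast_nonneg (α := ℝ) (r i)])

theorem input_length {T : ℕ} (r : Fin m → ℕ) (c : Fin n → ℕ) (hm : 1 ≤ m) {ε : ℝ} (h0 : 0 < ε)
    (h1 : ε < 1) (ω : Fin T → Bool) : ((code (input r c ε ω)).length : ℝ) ≤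
      (12 : ℕ) * (inputLength r c + Real.log (1 / ε) + T) := by
  have a1 := size_ceil h0 h1
  have a2 : (Nat.size m : ℝ) ≤ m := Nat.cast_le.2 (sz_nat_le m)
  have a3 : (Nat.size n : ℝ) ≤ n := Nat.cast_le.2 (sz_nat_le n)
  have a4 := sum_size_le r
  have a5 := sum_size_le c
  have a6 : ∑ t, (Nat.size (ω t).toNat : ℝ) ≤ T := by
    simpa using sum_le_card_nsmul univ (fun t => (Nat.size (ω t).toNat : ℝ)) 1 fun t _ => by
      rcases ω t <;> simp
  have a7 := sum_logb_nonneg r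
  have a8 := sum_logb_nonneg c
  have a9 := Real.log_pos (one_lt_one_div h0 h1)
  have b1 : (1 : ℝ) ≤ m := Nat.one_le_cast.2 hm
  have b2 : (0 : ℝ) ≤ n := Nat.cast_nonneg _
  have b3 : (0 : ℝ) ≤ T := Nat.cast_nonneg _
  simp only [code_length, input, List.map_append, List.sum_append, List.map_ofFn, List.sum_ofFn,
    List.map_cons, List.sum_cons, List.map_nil, List.sum_nil, Function.comp, inputLength]
  push_cast
  simp only [sum_add_distrib, ← mul_sum, sum_const, card_univ, Fintype.card_fin, nsmul_eq_mul]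
  linarith

theorem coins_le : ∃ k : ℕ, ∀ (m n : ℕ) (r : Fin m → ℕ) (c : Fin n → ℕ), 1 ≤ m → ∀ ε : ℝ, 0 < ε →
    ε < 1 → ((QQ (ins r c ⌈1 / ε⌉₊) ^ 2 * (QQ (ins r c ⌈1 / ε⌉₊) ^ 226 *
      (2 * qq (ins r c ⌈1 / ε⌉₊) + (QQ (ins r c ⌈1 / ε⌉₊) ^ 21 + 1)) +
        m * n * Nat.size (∑ i, r i)) : ℕ) : ℝ) ≤ k * (inputLength r c + Real.log (1 / ε)) ^ k := by
  obtain ⟨k, hk⟩ := poly_bound 600 (Polynomial.X ^ 2 * (Polynomial.X ^ 226 *
    (2 * Polynomial.X + (Polynomial.X ^ 21 + 1)) + Polynomial.X * Polynomial.X * Polynomial.X))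
  refine ⟨k, fun m n r c hm ε h0 h1 => ?_⟩
  have a1 := size_ceil h0 h1
  have a4 := sum_size_le r
  have a7 := sum_logb_nonneg r
  have a8 := sum_logb_nonneg c
  have a9 := Real.log_pos (one_lt_one_div h0 h1)
  have b1 : (1 : ℝ) ≤ m := Nat.one_le_cast.2 hm
  have b2 : (0 : ℝ) ≤ n := Nat.cast_nonneg _
  have c1 : QQ (ins r c ⌈1 / ε⌉₊) ≤ 2 * (256 + m + n + Nat.size ⌈1 / ε⌉₊) := by
    simpa [QQ, qq, ins] using two_pow_size_le (x := 256 + m + n + Nat.size ⌈1 / ε⌉₊) (by omega)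
  have c2 : 256 + m + n + Nat.size ⌈1 / ε⌉₊ < QQ (ins r c ⌈1 / ε⌉₊) := by
    simpa [QQ, qq, ins] using Nat.lt_size_self (256 + m + n + Nat.size ⌈1 / ε⌉₊)
  have c3 : qq (ins r c ⌈1 / ε⌉₊) < QQ (ins r c ⌈1 / ε⌉₊) := Nat.lt_two_pow_self
  have c4 := (Nat.cast_le (α := ℝ)).2 (size_sum_le r)
  have c5 := (Nat.cast_le (α := ℝ)).2 c1
  push_cast at c4 c5
  simp only [sum_add_distrib, sum_const, card_univ, Fintype.card_fin, nsmul_eq_mul] at c4
  refine le_trans (Nat.cast_le.2 ?_) (hk (QQ (ins r c ⌈1 / ε⌉₊) + Nat.size (∑ i, r i)) _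
    (by rw [inputLength]; linarith) (by rw [inputLength]; push_cast; linarith))
  simp only [Polynomial.eval_add, Polynomial.eval_mul, Polynomial.eval_pow, Polynomial.eval_X,
    Polynomial.eval_one, Polynomial.eval_ofNat]
  gcongr <;> omega

theorem main : ∃ (F : List ℕ → List ℕ) (M : Turing.TM2ComputableInPolyTime code code F) (k : ℕ),
    (∀ s, Finite (M.tm.Γ s)) ∧
    ∀ (m n : ℕ) (r : Fin m → ℕ) (c : Fin n → ℕ), 1 ≤ m → 1 ≤ n → ∑ i, r i = ∑ j, c j →
      ∀ ε : ℝ, 0 < ε → ε < 1 → ∀ T : ℕ, k * (inputLength r c + Real.log (1 / ε)) ^ k ≤ T →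
        (∀ ω : Fin T → Bool, (∃ X ∈ tables r c, F (input r c ε ω) = entries X) ∧
          ((M.time.eval (code (input r c ε ω)).length : ℕ) : ℝ) ≤
            k * (inputLength r c + Real.log (1 / ε) + T) ^ k) ∧
        1 / 2 * ∑ X ∈ tables r c,
          |((Finset.univ.filter fun ω : Fin T → Bool => F (input r c ε ω) = entries X).card : ℝ) /
            2 ^ T - 1 / (tables r c).card| ≤ ε := by
  obtain ⟨M, hM⟩ := PT.machine pt_sampler id id sampler fun _ => rfl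
  obtain ⟨k₁, h₁⟩ := coins_le
  obtain ⟨k₂, h₂⟩ := poly_bound 12 M.time
  refine ⟨sampler, M, k₁ + k₂, hM, fun m n r c hm hn hN ε h0 h1 T hT => ?_⟩
  have mono : ∀ (a b : ℕ) (y : ℝ), 1 ≤ y → a ≤ b → a * y ^ a ≤ b * y ^ b := fun a b y hy hab =>
    mul_le_mul (Nat.cast_le.2 hab) (pow_le_pow_right₀ hy hab) (by positivity) (by positivity)
  have hS : 1 ≤ inputLength r c + Real.log (1 / ε) := by
    have := Real.log_pos (one_lt_one_div h0 h1)
    have b1 : (1 : ℝ) ≤ m := Nat.one_le_cast.2 hm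
    rw [inputLength]
    linarith [sum_logb_nonneg r, sum_logb_nonneg c, Nat.cast_nonneg (α := ℝ) n]
  have hS' : 1 ≤ inputLength r c + Real.log (1 / ε) + T := by
    linarith [Nat.cast_nonneg (α := ℝ) T]
  obtain ⟨i₀, hi, hr⟩ := amax_spec hm r
  obtain ⟨j₀, hj, hc⟩ := amax_spec hn c
  have P := par (e := ⌈1 / ε⌉₊) hi hj hN hr hc
  have hT' := Nat.cast_le.1 ((h₁ m n r c hm ε h0 h1).trans
    ((mono _ _ _ hS (Nat.le_add_right _ _)).trans hT))
  simp only [sampler_input, mainL_eq hi hj, entries_eq]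
  refine ⟨fun ω => ⟨⟨_, P.mainF_mem _ (nwF_mem hN), rfl⟩,
    (h₂ _ _ hS' (input_length r c hm h0 h1 ω)).trans (mono _ _ _ hS' (Nat.le_add_left _ _))⟩, ?_⟩
  have key := tv_le (ε := ε) (fun ω : Fin T → Bool => P.mainF_mem (W := Nat.size (∑ i, r i))
    (List.ofFn ω) (nwF_mem hN)) fun ψ p0 p1 => by
      have e := P.ex_main hL_pow p0 p1 (nwF r c) hT'
      rw [Ex_ofFn] at e
      have b1 : (1 / 2 : ℝ) ^ QQ (ins r c ⌈1 / ε⌉₊) ≤ ε := by
        have c2 : 256 + m + n + Nat.size ⌈1 / ε⌉₊ < QQ (ins r c ⌈1 / ε⌉₊) := by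
          simpa [QQ, qq, ins] using Nat.lt_size_self (256 + m + n + Nat.size ⌈1 / ε⌉₊)
        rw [one_div_pow, one_div_le (by positivity) h0]
        refine (Nat.le_ceil _).trans ?_
        exact_mod_cast (Nat.size_le.1 (by omega)).le
      simp only [Fintype.card_pi, Fintype.card_bool, prod_const, card_univ, Fintype.card_fin]
      push_cast
      linarith
  simp only [Fintype.card_pi, Fintype.card_bool, prod_const, card_univ, Fintype.card_fin] at key
  push_cast at key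
  simpa only [show ∀ Y Y' : Fin m → Fin n → ℕ, flt Y = flt Y' ↔ Y = Y' from
    fun _ _ => ⟨flt_inj, congrArg flt⟩] using key

end Vale.Agent.P328
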