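import Vale.Agent.P328.Accept

/-! Rapid mixing of the chain on blocks. -/

namespace Vale.Agent.P328

open Finset

/-- A smoothed positive part. -/
noncomputable def hub (w : ℕ) (y : ℤ) : ℝ := ∑ z ∈ range y.toNat, ramp w (2 * (z + 1))

theorem hub_succ {w : ℕ} (hw : 0 < w) (y : ℤ) : hub w (y + 1) = hub w y + ramp w (2 * (y + 1)) := by
  rcases le_or_gt 0 y with h | h
  · obtain ⟨k, rfl⟩ := Int.eq_ofNat_of_zero_le h
    rw [hub, show ((k : ℤ) + 1).toNat = k + 1 by omega, sum_range_succ]; simp [hub]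
  · rw [hub, hub, show (y + 1).toNat = 0 by omega, show y.toNat = 0 by omega, ramp_zero hw]
    · simp
    · have : ((y + 1 : ℤ) : ℝ) ≤ 0 := by exact_mod_cast (by omega : y + 1 ≤ 0)
      push_cast at this; linarith

theorem hub_cvx {w : ℕ} (hw : 0 < w) : Cvx (hub w) (1 / w) 1 := by
  have e : ∀ t : ℤ, hub w (t + 2) = hub w (t + 1) + ramp w (2 * (t + 1) + 2) := fun t => by
    rw [show t + 2 = t + 1 + 1 by ring, hub_succ hw]; congr 2; push_cast; ring
  refine ⟨fun t => ?_, fun t => ?_, fun t => ?_⟩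
  · linarith [e t, hub_succ hw t, ramp_mono hw (y := 2 * (t + 1)) (y' := 2 * (t + 1) + 2) (by linarith)]
  · linarith [e t, hub_succ hw t, ramp_lip hw (2 * (t + 1))]
  · rw [hub_succ hw, add_sub_cancel_left, abs_of_nonneg (ramp_nonneg _)]; exact ramp_le_one _

theorem hub_bounds {w : ℕ} (hw : 0 < w) (y : ℤ) :
    (y.toNat : ℝ) - (w - 1 : ℕ) ≤ hub w y ∧ hub w y ≤ y.toNat := by
  unfold hub
  generalize y.toNat = k
  constructor
  · induction k with
    | zero => simp
    | succ k ih =>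
      rcases le_or_gt (k + 1) (w - 1) with h | h
      · exact (sub_nonpos.2 (Nat.cast_le.2 h)).trans (sum_nonneg fun _ _ => ramp_nonneg _)
      · have : ((w : ℕ) : ℝ) ≤ (k + 1 : ℕ) := Nat.cast_le.2 (by omega)
        push_cast at this ⊢
        rw [sum_range_succ, ramp_one hw (by linarith)]; linarith
  · simpa using sum_le_card_nsmul (range k) _ 1 fun z _ => ramp_le_one (h := w) (2 * ((z : ℝ) + 1))

theorem Cvx.smul {e : ℤ → ℝ} {κ lam a : ℝ} (h : Cvx e κ lam) (ha : 0 ≤ a) :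
    Cvx (fun t => a * e t) (a * κ) (a * lam) where
  cvx := fun t => by nlinarith [h.cvx t]
  curv := fun t => by nlinarith [h.curv t]
  lip := fun t => by
    rw [← mul_sub, abs_mul, abs_of_nonneg ha]; exact mul_le_mul_of_nonneg_left (h.lip t) ha

theorem Cvx.refl {e : ℤ → ℝ} {κ lam : ℝ} (h : Cvx e κ lam) (b : ℤ) :
    Cvx (fun t => e (b - t)) κ lam where
  cvx := fun t => by have := h.cvx (b - t - 2); ring_nf at this ⊢; linarith
  curv := fun t => by have := h.curv (b - t - 2); ring_nf at this ⊢; linarith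
  lip := fun t => by have := h.lip (b - t - 1); rw [abs_sub_comm]; ring_nf at this ⊢; exact this

theorem Phi_dn {I : Type} [Fintype I] {D : ℕ} {mem : I → Fin D → Bool} {e : I → ℤ → ℝ}
    {κ lam : I → ℝ} (he : ∀ i, Cvx (e i) (κ i) (lam i)) {L : ℝ} {l : Fin D}
    (hL : ∑ i, (if mem i l then lam i else 0) ≤ L) (X : Fin D → ℕ) :
    Phi mem e X ≤ Real.exp L * Phi mem e (dn l X) := by
  rw [Phi, Phi, ← Real.exp_add, Real.exp_le_exp]
  have : ∑ i, e i (sig (mem i) (dn l X)) ≤
      ∑ i, (e i (sig (mem i) X) + if mem i l then lam i else 0) := by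
    refine sum_le_sum fun i _ => ?_
    have h0 : 0 ≤ lam i := (abs_nonneg _).trans ((he i).lip 0)
    have e1 : sig (mem i) X = sig (mem i) (dn l X) + if mem i l then (X l - (X l - 1 : ℕ) : ℤ) else 0 := by
      rw [sig, sig, ← add_sum_erase _ _ (mem_univ l), ← add_sum_erase _ _ (mem_univ l),
        sum_congr rfl (g := fun k => if mem i k then (X k : ℤ) else 0) (s₁ := univ.erase l)
          (f := fun k => if mem i k then (dn l X k : ℤ) else 0)
          fun k hk => by rw [dn, Function.update_of_ne (mem_erase.1 hk).1]]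
      simp only [dn, Function.update_self]; split_ifs <;> ring
    rw [e1]
    split_ifs
    · rcases Nat.eq_zero_or_pos (X l) with h | h
      · simp [h, h0]
      · rw [show (X l - (X l - 1 : ℕ) : ℤ) = 1 by omega]
        linarith [(abs_le.1 ((he i).lip (sig (mem i) (dn l X)))).1]
    · simp
  rw [sum_add_distrib] at this
  linarith

variable {m n : ℕ} (r : Fin m → ℕ) (c : Fin n → ℕ) (i₀ : Fin m) (j₀ : Fin n) (q Q : ℕ)
  (h : Fin (m * n) → ℕ) (g : Con m n → ℕ)

/-- The integer penalty used by the algorithm. -/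
def kf (X : Fin (m * n) → ℕ) : ℕ :=
  (∑ o, 8 * q * Q * viol r c i₀ j₀ (∑ l, (h l - 1)) o X / g o) / Q

/-- The weight of a block. -/
noncomputable def mu (Z : Fin (m * n) → ℕ) : ℝ := (1 / 2) ^ kf r c i₀ j₀ q Q h g fun l => h l * Z l

/-- The smooth energies. -/
noncomputable def ee (o : Con m n) (t : ℤ) : ℝ := Real.log 2 * (8 * q / g o) *
  hub (g o / Q ^ 2 + 1) (if o = none then bd r c i₀ j₀ o - t else t + -bd r c i₀ j₀ o)

/-- The side of a constraint. -/
def sd : Con m n → Bool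
  | some (.inr _) => false
  | _ => true

theorem lam2 : Lam2 (mem (m := m) (n := n)) sd := by
  rintro (_ | i | i) (_ | j | j) h <;> simp only [sd, mem, reduceCtorEq] at h ⊢ <;> try simp
  all_goals by_cases h : i = j
  all_goals first | (subst h; simp) | exact Or.inr (Or.inr fun l hl hl' => h (hl.symm.trans hl'))

theorem sum_mem_le {f : Con m n → ℝ} {a : ℝ} {l : Fin (m * n)} (h : ∀ o, mem o l → f o ≤ a) :
    ∑ o, (if mem o l then f o else 0) ≤ 3 * a := by
  have h1 := h none rfl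
  have h2 := h (some (.inl l.divNat)) (by simp [mem])
  have h3 := h (some (.inr l.modNat)) (by simp [mem])
  simp only [Fintype.sum_option, Fintype.sum_sum_type, mem, decide_eq_true_eq, sum_ite_eq,
    mem_univ, if_true]
  linarith

theorem ee_cvx (o : Con m n) : Cvx (ee r c i₀ j₀ q Q g o)
    (Real.log 2 * (8 * q / g o) * (1 / (g o / Q ^ 2 + 1 : ℕ))) (Real.log 2 * (8 * q / g o) * 1) := by
  have h0 : 0 ≤ Real.log 2 * (8 * q / g o) :=
    mul_nonneg (Real.log_pos one_lt_two).le (by positivity)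
  unfold ee
  split_ifs
  · exact ((hub_cvx (Nat.succ_pos _)).refl _).smul h0
  · exact ((hub_cvx (Nat.succ_pos _)).shift _).smul h0

theorem mu_pos (Z : Fin (m * n) → ℕ) : 0 < mu r c i₀ j₀ q Q h g Z := by unfold mu; positivity

theorem mu_eq (Z : Fin (m * n) → ℕ) : mu r c i₀ j₀ q Q h g Z =
    Real.exp (-(Real.log 2 * kf r c i₀ j₀ q Q h g fun l => h l * Z l)) := by
  rw [Real.exp_neg, exp_log_two, mu, one_div, inv_pow]

variable {r c i₀ j₀ q Q h g} {M : Fin (m * n) → ℕ}

namespace Par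
variable (P : Par r c i₀ j₀ q Q h M g)
include P

theorem Mpos (l : Fin (m * n)) : 0 < M l ∧ M l ≤ Q ^ 17 := by
  have : 0 < Q ^ 17 := pow_pos (by have := P.big; omega) _
  by_cases hl : star i₀ j₀ l
  · rw [(P.hstar l hl).2]; omega
  · rw [(P.hfree l hl).1]; omega

theorem hsmall {o : Con m n} {l : Fin (m * n)} (hl : mem o l) :
    (h l - 1) * Q ^ 5 ≤ 2 * g o ∧ h l ≤ g o := by
  have hQ : 256 ≤ Q := by have := P.big; omega
  have hg := P.gpos o
  have key : h l = 1 ∨ h l * Q ^ 5 ≤ 2 * g o := by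
    by_cases hs : star i₀ j₀ l
    · exact Or.inl (P.hstar l hs).1
    refine (P.hfree l hs).2.2.imp id fun h1 => ?_
    have : uu r c l ≤ g o * Q ^ 12 := by
      rcases o with _ | i | j
      · obtain ⟨g', e, -, h2, -⟩ := P.gnone
        have := P.rmax l.divNat
        have := P.cmax l.modNat
        have h3 : g' * Q ^ 6 ≤ g none * Q ^ 12 :=
          Nat.mul_le_mul (by omega) (Nat.pow_le_pow_right (by omega) (by norm_num))
        simp only [uu]; omega
      · have := (P.gsome (.inl i)).2.1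
        simp only [mem, decide_eq_true_eq] at hl
        simp only [uu, bd, hl] at this ⊢; omega
      · have := (P.gsome (.inr j)).2.1
        simp only [mem, decide_eq_true_eq] at hl
        simp only [uu, bd, hl] at this ⊢; omega
    refine Nat.le_of_mul_le_mul_right ?_ (pow_pos (by omega : 0 < Q) 12)
    calc h l * Q ^ 5 * Q ^ 12 = h l * Q ^ 17 := by ring
      _ ≤ _ := by rw [mul_assoc]; omega
  rcases key with h1 | h1
  · rw [h1]; omega
  · have := Nat.mul_le_mul_right (Q ^ 5) (Nat.sub_le (h l) 1)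
    have := Nat.mul_le_mul_left (h l) (show 2 ≤ Q ^ 5 from
      le_trans (by omega) (Nat.le_self_pow (by norm_num) Q))
    omega

theorem viol_le (a : ℕ) (o : Con m n) {X : Fin (m * n) → ℕ} (hX : X ∈ box fun l => h l * M l) :
    8 * q * Q * viol r c i₀ j₀ a o X / g o ≤ Q ^ 21 := by
  have hQ : 256 ≤ Q := by have := P.big; omega
  have key : viol r c i₀ j₀ a o X ≤ g o * Q ^ 19 := by
    rcases o with _ | o
    · obtain ⟨g', e, -, h2, -⟩ := P.gnone
      have hQ := P.big
      have a1 : ∑ i, r i ≤ Q * r i₀ := (sum_le_card_nsmul _ _ _ fun i _ => P.rmax i).trans (by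
        simp only [card_univ, Fintype.card_fin, smul_eq_mul]; exact Nat.mul_le_mul_right _ (by omega))
      have a2 : ∑ j, c j ≤ Q * c j₀ := (sum_le_card_nsmul _ _ _ fun i _ => P.cmax i).trans (by
        simp only [card_univ, Fintype.card_fin, smul_eq_mul]; exact Nat.mul_le_mul_right _ (by omega))
      have a3 := P.tot
      have a4 := Nat.mul_le_mul_left Q h2.le
      have a5 : Q * (g' * Q ^ 6) ≤ g none * Q ^ 19 := by
        rw [mul_left_comm, ← pow_succ']
        exact Nat.mul_le_mul (by omega) (Nat.pow_le_pow_right (by omega) (by norm_num))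
      rw [mul_min] at a4
      simp only [viol, bd]; omega
    · refine (Nat.sub_le _ _).trans ((sum_le_card_nsmul _ _ (g (some o) * Q ^ 17)
        fun l _ => ?_).trans ?_)
      · split_ifs with hl
        · exact (mem_box.1 hX l).le.trans (Nat.mul_le_mul (P.hsmall hl).2 (P.Mpos l).2)
        · exact Nat.zero_le _
      · simp only [card_univ, Fintype.card_fin, smul_eq_mul]
        exact (Nat.mul_le_mul_right _ P.dim).trans (le_of_eq (by ring))
  refine Nat.div_le_of_le_mul ((Nat.mul_le_mul (Nat.mul_le_mul_right Q P.qle) key).trans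
    (le_of_eq (by ring)))

theorem sum_le {X : Fin (m * n) → ℕ} (hX : X ∈ box fun l => h l * M l) :
    ∑ o, 8 * q * Q * viol r c i₀ j₀ (∑ l, (h l - 1)) o X / g o ≤ Q * Q ^ 21 := by
  refine (sum_le_card_nsmul _ _ _ fun o _ => P.viol_le _ o hX).trans ?_
  have := P.big
  simp only [card_univ, Fintype.card_option, Fintype.card_sum, Fintype.card_fin, smul_eq_mul]
  exact Nat.mul_le_mul_right _ (by omega)

theorem kf_le {X : Fin (m * n) → ℕ} (hX : X ∈ box fun l => h l * M l) :
    kf r c i₀ j₀ q Q h g X ≤ Q ^ 21 := Nat.div_le_of_le_mul (P.sum_le hX)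

theorem corner_mem {Z : Fin (m * n) → ℕ} (hZ : Z ∈ box M) :
    (fun l => h l * Z l) ∈ box fun l => h l * M l :=
  mem_box.2 fun l => Nat.mul_lt_mul_of_pos_left (mem_box.1 hZ l) (P.hpos l)

theorem kf_cmp {X Z : Fin (m * n) → ℕ} (hn : ∀ l, near (h l) (X l) (Z l)) :
    E0 r c i₀ j₀ q g X - 3 ≤ kf r c i₀ j₀ q Q h g (fun l => h l * Z l) ∧
      kf r c i₀ j₀ q Q h g (fun l => h l * Z l) ≤ E0 r c i₀ j₀ q g X + 1 := by
  have hQ : (256 + m + n : ℝ) ≤ Q := by exact_mod_cast P.big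
  have hm : (0 : ℝ) ≤ m + n := by positivity
  have hQ0 : (0 : ℝ) < Q := by linarith
  set v : Con m n → ℕ := fun o => viol r c i₀ j₀ (∑ l, (h l - 1)) o fun l => h l * Z l with hv
  have a1 : ∀ o, |8 * q * (v o : ℝ) / g o - 8 * q * (viol r c i₀ j₀ 0 o X : ℝ) / g o| ≤ 1 / Q := by
    intro o
    have b1 : sN o (fun l => h l * Z l) ≤ sN o X + sN o fun l => h l - 1 := by
      simp only [sN, ← sum_add_distrib]
      exact sum_le_sum fun l _ => by have := (hn l).1; split_ifs <;> omega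
    have b2 : sN o X ≤ sN o (fun l => h l * Z l) + 2 * sN o fun l => h l - 1 := by
      simp only [sN, mul_sum, ← sum_add_distrib]
      exact sum_le_sum fun l _ => by have := (hn l).2; split_ifs <;> omega
    have b3 : sN o (fun l => h l - 1) * Q ^ 5 ≤ Q ^ 2 * (2 * g o) := by
      rw [sN, sum_mul]
      refine (sum_le_card_nsmul _ _ (2 * g o) fun l _ => ?_).trans ?_
      · split_ifs with hl
        exacts [(P.hsmall hl).1, by simp]
      · simp only [card_univ, Fintype.card_fin, smul_eq_mul]; exact Nat.mul_le_mul_right _ P.dim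
    have b4 : v o ≤ viol r c i₀ j₀ 0 o X + 2 * sN o (fun l => h l - 1) ∧
        viol r c i₀ j₀ 0 o X ≤ v o + 2 * sN o fun l => h l - 1 := by
      have : sN none (fun l => h l - 1) = ∑ l, (h l - 1) := by simp [sN, mem]
      rcases o with _ | o <;> simp only [hv, viol] <;> omega
    have hg : (0 : ℝ) < g o := Nat.cast_pos.2 (P.gpos o)
    have b5 : (8 * q : ℝ) ≤ Q := by exact_mod_cast P.qle
    have b6 : |(v o : ℝ) - viol r c i₀ j₀ 0 o X| ≤ 2 * sN o fun l => h l - 1 := by
      have c1 := (Nat.cast_le (α := ℝ)).2 b4.1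
      have c2 := (Nat.cast_le (α := ℝ)).2 b4.2
      push_cast at c1 c2
      rw [abs_le]; constructor <;> linarith
    have b7 := (Nat.cast_le (α := ℝ)).2 b3
    push_cast at b7
    rw [← sub_div, ← mul_sub, abs_div, abs_mul, abs_of_pos hg, abs_of_nonneg (by positivity),
      div_le_div_iff₀ hg hQ0]
    refine (mul_le_mul_of_nonneg_right (mul_le_mul b5 b6 (abs_nonneg _) hQ0.le) hQ0.le).trans ?_
    refine le_of_mul_le_mul_right ?_ (pow_pos hQ0 3)
    have : 4 * (Q : ℝ) ^ 2 * g o ≤ Q * Q ^ 2 * g o := by gcongr; linarith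
    nlinarith
  have a2 : |∑ o, 8 * q * (v o : ℝ) / g o - E0 r c i₀ j₀ q g X| ≤ 1 := by
    rw [E0, ← sum_sub_distrib]
    refine (abs_sum_le_sum_abs _ _).trans ((sum_le_card_nsmul _ _ _ fun o _ => a1 o).trans ?_)
    simp only [card_univ, Fintype.card_option, Fintype.card_sum, Fintype.card_fin, nsmul_eq_mul]
    push_cast
    rw [mul_one_div, div_le_one hQ0]; linarith
  have fl : ∀ a b : ℕ, 0 < b → (a : ℝ) / b - 1 ≤ (a / b : ℕ) := fun a b hb => by
    have h1 : ((a : ℕ) : ℝ) ≤ (b * (a / b + 1) : ℕ) := Nat.cast_le.2 (Nat.lt_mul_div_succ a hb).le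
    have hb' : (0 : ℝ) < b := Nat.cast_pos.2 hb
    rw [sub_le_iff_le_add, div_le_iff₀ hb']
    push_cast at h1; linarith
  have a3 : ((∑ o, 8 * q * Q * v o / g o : ℕ) : ℝ) ≤ Q * ∑ o, 8 * q * (v o : ℝ) / g o := by
    rw [Nat.cast_sum, mul_sum]
    exact sum_le_sum fun o _ => Nat.cast_div_le.trans (le_of_eq (by push_cast; ring))
  have a4 : Q * ∑ o, 8 * q * (v o : ℝ) / g o - Q ≤ ((∑ o, 8 * q * Q * v o / g o : ℕ) : ℝ) := by
    have := sum_le_sum fun o (_ : o ∈ univ) => fl (8 * q * Q * v o) (g o) (P.gpos o)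
    rw [sum_sub_distrib] at this
    simp only [sum_const, card_univ, Fintype.card_option, Fintype.card_sum, Fintype.card_fin,
      nsmul_eq_mul] at this
    rw [Nat.cast_sum, mul_sum, sum_congr rfl (g := fun o => ((8 * q * Q * v o : ℕ) : ℝ) / g o)
      fun o _ => by push_cast; ring]
    push_cast at this ⊢
    linarith
  rw [abs_le] at a2
  constructor
  · refine le_trans ?_ (fl _ _ (by have := P.big; omega))
    rw [le_sub_iff_add_le, le_div_iff₀ hQ0]
    nlinarith [a2.1]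
  · refine Nat.cast_div_le.trans ?_
    rw [div_le_iff₀ hQ0]
    nlinarith [a2.2]

theorem Phi_cmp (X : Fin (m * n) → ℕ) :
    w0 r c i₀ j₀ q g X ≤ Phi mem (ee r c i₀ j₀ q Q g) X ∧
      Phi mem (ee r c i₀ j₀ q Q g) X ≤ 2 * w0 r c i₀ j₀ q g X := by
  have hQ : (256 + m + n : ℝ) ≤ Q := by exact_mod_cast P.big
  have hm : (0 : ℝ) ≤ m + n := by positivity
  have hQ0 : (0 : ℝ) < Q := by linarith
  have l2 := Real.log_pos one_lt_two
  have key : ∀ o, Real.log 2 * (8 * q * (viol r c i₀ j₀ 0 o X : ℝ) / g o - 1 / Q) ≤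
      ee r c i₀ j₀ q Q g o (sig (mem o) X) ∧ ee r c i₀ j₀ q Q g o (sig (mem o) X) ≤
        Real.log 2 * (8 * q * (viol r c i₀ j₀ 0 o X : ℝ) / g o) := by
    intro o
    have e1 : sig (mem o) X = sN o X := by simp [sig, sN]
    have e2 : (if o = none then bd r c i₀ j₀ o - (sN o X : ℤ) else sN o X + -bd r c i₀ j₀ o).toNat =
        viol r c i₀ j₀ 0 o X := by
      rcases o with _ | o <;> simp only [viol, if_true, reduceCtorEq, if_false] <;> omega
    have hb := hub_bounds (Nat.succ_pos (g o / Q ^ 2))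
      (if o = none then bd r c i₀ j₀ o - (sN o X : ℤ) else sN o X + -bd r c i₀ j₀ o)
    rw [e2, Nat.succ_sub_one] at hb
    have hg : (0 : ℝ) < g o := Nat.cast_pos.2 (P.gpos o)
    have b5 : (8 * q : ℝ) ≤ Q := by exact_mod_cast P.qle
    have b6 : 8 * q / (g o : ℝ) * (g o / Q ^ 2 : ℕ) ≤ 1 / Q := by
      refine (mul_le_mul (div_le_div_of_nonneg_right b5 hg.le) Nat.cast_div_le (by positivity)
        (by positivity)).trans (le_of_eq ?_)
      push_cast; field_simp
    have b7 := mul_le_mul_of_nonneg_left hb.1 (by positivity : (0 : ℝ) ≤ 8 * q / g o)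
    have b8 := mul_le_mul_of_nonneg_left hb.2 (by positivity : (0 : ℝ) ≤ 8 * q / g o)
    rw [ee, e1, mul_assoc (Real.log 2), mul_div_right_comm]
    exact ⟨mul_le_mul_of_nonneg_left (by linarith) l2.le, mul_le_mul_of_nonneg_left b8 l2.le⟩
  constructor
  · rw [w0, Phi, Real.exp_le_exp, neg_le_neg_iff, E0, mul_sum]
    exact sum_le_sum fun o _ => (key o).2
  · rw [w0, Phi, ← Real.exp_log two_pos, ← Real.exp_add, Real.exp_log two_pos, Real.exp_le_exp]
    have := sum_le_sum fun o (_ : o ∈ univ) => (key o).1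
    rw [← mul_sum, sum_sub_distrib, ← E0] at this
    simp only [sum_const, card_univ, Fintype.card_option, Fintype.card_sum, Fintype.card_fin,
      nsmul_eq_mul] at this
    have h1 : ((m + n + 1 : ℕ) : ℝ) * (1 / Q) ≤ 1 := by
      push_cast; rw [mul_one_div, div_le_one hQ0]; linarith
    nlinarith

theorem mu_cmp {X Z : Fin (m * n) → ℕ} (hn : ∀ l, near (h l) (X l) (Z l)) :
    w0 r c i₀ j₀ q g X ≤ 2 * mu r c i₀ j₀ q Q h g Z ∧
      mu r c i₀ j₀ q Q h g Z ≤ 8 * w0 r c i₀ j₀ q g X := by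
  have l2 := Real.log_pos one_lt_two
  have := P.kf_cmp hn
  rw [mu_eq, w0, show (8 : ℝ) = 2 ^ 3 by norm_num, ← exp_log_two 3, ← Real.exp_add]
  nth_rewrite 2 [← Real.exp_log two_pos]
  rw [← Real.exp_add, Real.exp_le_exp, Real.exp_le_exp]
  push_cast
  constructor <;> nlinarith [this.1, this.2]

theorem mix {ψ : (Fin (m * n) → ℕ) → ℝ} (h0 : ∀ Z, 0 ≤ ψ Z) (h1 : ∀ Z, ψ Z ≤ 1)
    {Z₀ : Fin (m * n) → ℕ} (hZ₀ : Z₀ ∈ box M) :
    (Pk M (1 / (2 * Q ^ 2)) (mu r c i₀ j₀ q Q h g))^[Q ^ 226] ψ Z₀ ≤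
      (∑ Z ∈ box M, mu r c i₀ j₀ q Q h g Z * ψ Z) / ∑ Z ∈ box M, mu r c i₀ j₀ q Q h g Z +
        Real.exp (-(Q : ℝ) ^ 2) := by
  have hQ : (256 + m + n : ℝ) ≤ Q := by exact_mod_cast P.big
  have hm : (0 : ℝ) ≤ m := by positivity
  have hn : (0 : ℝ) ≤ n := by positivity
  have hQ1 : (256 : ℝ) ≤ Q := by linarith
  have hQ0 : (0 : ℝ) < Q := by linarith
  have l2 := Real.log_pos one_lt_two
  have l2' : Real.log 2 ≤ 1 := by linarith [Real.log_two_lt_d9]
  have hq : (8 * q : ℝ) ≤ Q := by exact_mod_cast P.qle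
  have hD : ((m * n : ℕ) : ℝ) ≤ (Q : ℝ) ^ 2 := by exact_mod_cast P.dim
  have hQq : (Q : ℝ) = 2 ^ q := by exact_mod_cast P.hQ
  have hL : ∀ l : Fin (m * n), ∑ o, (if mem o l then Real.log 2 * (8 * q / g o) * 1 else 0) ≤
      3 * (Real.log 2 * (8 * q)) := fun l => sum_mem_le fun o _ => by
    rw [mul_one]
    exact mul_le_mul_of_nonneg_left (div_le_self (by positivity)
      (Nat.one_le_cast.2 (P.gpos o))) l2.le
  have eL : ∀ k : ℕ, Real.exp (k * (3 * (Real.log 2 * (8 * q)))) = (Q : ℝ) ^ (24 * k) := fun k => by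
    rw [hQq, ← pow_mul, ← exp_log_two]; congr 1; push_cast; ring
  have cmp : ∀ X Z : Fin (m * n) → ℕ, (∀ l, near (h l) (X l) (Z l)) →
      Phi mem (ee r c i₀ j₀ q Q g) X ≤ 8 * mu r c i₀ j₀ q Q h g Z ∧
      mu r c i₀ j₀ q Q h g Z ≤ 8 * Phi mem (ee r c i₀ j₀ q Q g) X := fun X Z hn => by
    have a1 := P.mu_cmp hn
    have a2 := P.Phi_cmp X
    have := mu_pos r c i₀ j₀ q Q h g Z
    constructor <;> linarith [a1.1, a1.2, a2.1, a2.2]
  have hP := coarse P.hpos (fun l => (P.Mpos l).1) (c := 8) (B := (Q : ℝ) ^ 17) (by norm_num)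
    (by positivity) (fun l => by exact_mod_cast (P.Mpos l).2) (fun _ => (Real.exp_pos _).le)
    (fun Z => (mu_pos r c i₀ j₀ q Q h g Z).le) (fun X _ Z _ => cmp X Z)
    (fine (Λ := 3 * (Q : ℝ) ^ 37) lam2 (ee_cvx r c i₀ j₀ q Q g)
      (fun l => Nat.mul_pos (P.hpos l) (P.Mpos l).1) hL fun l => by
        rw [mul_sum]
        simp only [mul_ite, mul_zero]
        refine sum_mem_le fun o ho => ?_
        have hg : (0 : ℝ) < g o := Nat.cast_pos.2 (P.gpos o)
        have b1 : ((h l * M l : ℕ) : ℝ) ≤ g o * Q ^ 17 := by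
          exact_mod_cast Nat.mul_le_mul (P.hsmall ho).2 (P.Mpos l).2
        have b2 : (1 : ℝ) / (g o / Q ^ 2 + 1 : ℕ) ≤ Q ^ 2 / g o := by
          rw [div_le_div_iff₀ (by positivity) hg, one_mul]
          exact_mod_cast (Nat.lt_mul_div_succ (g o) (pow_pos (by have := P.big; omega) 2)).le
        calc _ ≤ ((g o : ℝ) * Q ^ 17) ^ 2 * (1 * (Q / g o) * (Q ^ 2 / g o)) := by gcongr
          _ = _ := by field_simp)
  have e4 := eL 4
  have e1 := eL 1
  simp only [Nat.cast_ofNat, Nat.cast_one, one_mul, mul_one] at e4 e1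
  rw [e4] at hP
  have hmix := mixing_point (ρ := 1 / (2 * Q ^ 2)) (γ := 1 / (Q : ℝ) ^ 204) (K := 64 * (Q : ℝ) ^ 24)
    (mu_pos r c i₀ j₀ q Q h g) (by positivity) (by
      rw [div_mul_eq_mul_div, div_le_iff₀ (by positivity)]; push_cast; nlinarith [sq_nonneg ((m : ℝ) - n)])
    (by nlinarith [one_le_pow₀ (n := 24) (by linarith : (1 : ℝ) ≤ Q)]) (by positivity)
    (fun Z _ l => by
      have a1 := (cmp (fun l => h l * Z l) Z fun k => ⟨by omega, by omega⟩).2
      have a2 := Phi_dn (ee_cvx r c i₀ j₀ q Q g) (hL l) fun l => h l * Z l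
      have a3 := (cmp (dn l fun l => h l * Z l) (dn l Z) fun k => by
        by_cases hk : k = l
        · subst hk
          simp only [dn, Function.update_self, near]
          rcases Nat.eq_zero_or_pos (Z k) with h0 | h0
          · simp [h0]
          · obtain ⟨z, hz⟩ : ∃ z, Z k = z + 1 := ⟨Z k - 1, by omega⟩
            have := P.hpos k
            rw [hz, Nat.add_sub_cancel, mul_add]; omega
        · simp only [dn, Function.update_of_ne hk, near]; omega).1
      rw [e1] at a2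
      have := mul_le_mul_of_nonneg_left a3 (by positivity : 0 ≤ (Q : ℝ) ^ 24)
      linarith) hP (by
      have b1 : (8 : ℝ) + 32 * ((m * n : ℕ) : ℝ) ^ 3 * (3 * Q ^ 37) * Q ^ (24 * 4) ≤ Q ^ 140 := by
        calc _ ≤ 8 * (Q : ℝ) ^ 139 + 32 * (Q ^ 2) ^ 3 * (3 * Q ^ 37) * Q ^ (24 * 4) := by
              gcongr
              exact le_mul_of_one_le_right (by norm_num) (one_le_pow₀ (by linarith))
          _ = 104 * Q ^ 139 := by ring
          _ ≤ Q * Q ^ 139 := by gcongr; linarith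
          _ = _ := by ring
      rw [div_mul_eq_mul_div, one_mul, div_div, div_le_div_iff₀ (by positivity) (by positivity)]
      calc _ ≤ 8 ^ 2 * (18 * (Q : ℝ) ^ 140 * (Q ^ 17) ^ 2 + 6 * Q ^ 174) * (64 * Q ^ 24) *
            (2 * Q ^ 2 * 2) := by
            gcongr
            exact hD.trans (pow_le_pow_right₀ (by linarith) (by norm_num))
        _ = 393216 * Q ^ 200 := by ring
        _ ≤ Q ^ 4 * Q ^ 200 := by
            gcongr
            exact le_trans (by norm_num) (pow_le_pow_left₀ (by norm_num) hQ1 4)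
        _ = _ := by ring) (by positivity)
    (by rw [div_le_one (by positivity)]; exact one_le_pow₀ (by linarith)) ψ h0 h1 (Q ^ 226) hZ₀
  refine sub_le_iff_le_add'.1 (le_of_sq_le_sq₀' ?_ (Real.exp_pos _).le)
  have b1 : (1 - 1 / (Q : ℝ) ^ 204) ^ Q ^ 226 ≤ Real.exp (-(Q : ℝ) ^ 22) := by
    refine (pow_le_pow_left₀ (by
      rw [sub_nonneg, div_le_one (by positivity)]; exact one_le_pow₀ (by linarith))
      (Real.one_sub_le_exp_neg _) _).trans (le_of_eq ?_)
    rw [← Real.exp_nat_mul]; congr 1; push_cast; field_simp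
  have b2 : ∑ Z ∈ box M, mu r c i₀ j₀ q Q h g Z ≤ Real.exp ((Q : ℝ) ^ 21) := by
    refine (sum_le_card_nsmul _ _ 1 fun Z _ => pow_le_one₀ (by norm_num) (by norm_num)).trans ?_
    rw [nsmul_eq_mul, mul_one, box, Fintype.card_piFinset, Nat.cast_prod]
    refine (prod_le_prod (g := fun _ => Real.exp ((Q : ℝ) ^ 17)) (fun _ _ => Nat.cast_nonneg _)
      fun l _ => ?_).trans ?_
    · rw [card_range]
      exact ((Nat.cast_le.2 (P.Mpos l).2).trans_eq (Nat.cast_pow _ _)).trans
        (by linarith [Real.add_one_le_exp ((Q : ℝ) ^ 17)])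
    · rw [prod_const, ← Real.exp_nat_mul, Real.exp_le_exp, card_univ, Fintype.card_fin]
      exact (mul_le_mul_of_nonneg_right hD (by positivity)).trans (by
        rw [← pow_add]; exact pow_le_pow_right₀ (by linarith) (by norm_num))
  have b3 : Real.exp (-(Q : ℝ) ^ 21) ≤ mu r c i₀ j₀ q Q h g Z₀ := by
    rw [mu_eq, Real.exp_le_exp, neg_le_neg_iff]
    have : (kf r c i₀ j₀ q Q h g (fun l => h l * Z₀ l) : ℝ) ≤ Q ^ 21 := by
      exact_mod_cast P.kf_le (P.corner_mem hZ₀)
    exact (mul_le_mul l2' this (by positivity) zero_le_one).trans_eq (one_mul _)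
  refine le_of_mul_le_mul_left (((mul_le_mul_of_nonneg_right b3 (sq_nonneg _)).trans hmix).trans
    ((mul_le_mul b1 b2 (sum_nonneg fun Z _ => (mu_pos r c i₀ j₀ q Q h g Z).le)
      (Real.exp_pos _).le).trans ?_)) (Real.exp_pos _)
  rw [sq (Real.exp _), ← Real.exp_add, ← Real.exp_add, ← Real.exp_add, Real.exp_le_exp]
  have c1 : (Q : ℝ) ^ 2 ≤ Q ^ 21 := pow_le_pow_right₀ (by linarith) (by norm_num)
  have c2 : 256 * (Q : ℝ) ^ 21 ≤ Q ^ 22 := by rw [pow_succ' _ 21]; gcongr
  have : (0 : ℝ) ≤ Q ^ 2 := by positivity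
  linarith

end Par

end Vale.Agent.P328
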