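import Vale.Agent.P328.Lam

/-! The padded model: comparison of neighbouring conditional means and log-concavity. -/

namespace Vale.Agent.P328

open Finset Vale.Agent.P317

/-- Convex sequences with bounded curvature and slope. -/
structure Cvx (e : ℤ → ℝ) (κ lam : ℝ) : Prop where
  cvx : ∀ t, 2 * e (t + 1) ≤ e t + e (t + 2)
  curv : ∀ t, e t + e (t + 2) ≤ 2 * e (t + 1) + κ
  lip : ∀ t, |e (t + 1) - e t| ≤ lam

theorem Cvx.shift {e : ℤ → ℝ} {κ lam : ℝ} (h : Cvx e κ lam) (c : ℤ) :
    Cvx (fun t => e (t + c)) κ lam where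
  cvx := fun t => by have := h.cvx (t + c); ring_nf at this ⊢; exact this
  curv := fun t => by have := h.curv (t + c); ring_nf at this ⊢; exact this
  lip := fun t => by have := h.lip (t + c); ring_nf at this ⊢; exact this

/-- The sum of the selected coordinates. -/
def sig {D : ℕ} (m : Fin D → Bool) (X : Fin D → ℕ) : ℤ := ∑ l, if m l then (X l : ℤ) else 0

/-- Lower one coordinate. -/
def dn {D : ℕ} (l : Fin D) (X : Fin D → ℕ) : Fin D → ℕ := Function.update X l (X l - 1)

/-- The binomial weight. -/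
def bw {D : ℕ} (s X : Fin D → ℕ) : ℝ := ∏ l, ((2 * s l).choose (s l + X l) : ℝ)

variable {I : Type} [Fintype I]

/-- The Boltzmann weight. -/
noncomputable def Phi {D : ℕ} (mem : I → Fin D → Bool) (e : I → ℤ → ℝ) (X : Fin D → ℕ) : ℝ :=
  Real.exp (-∑ i, e i (sig (mem i) X))

/-- Constraints on the same side are nested or disjoint. -/
def Lam2 {D : ℕ} (mem : I → Fin D → Bool) (side : I → Bool) : Prop :=
  ∀ i j, side i = side j →
    (∀ l, mem i l → mem j l) ∨ (∀ l, mem j l → mem i l) ∨ ∀ l, mem i l → ¬mem j l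

theorem lim0 {f g : ℝ → ℝ} (hf : Continuous f) (hg : Continuous g)
    (h : ∀ ε, 0 < ε → ε < 1 → f ε ≤ g ε) : f 0 ≤ g 0 :=
  le_of_tendsto_of_tendsto ((hf.tendsto 0).mono_left (nhdsWithin_le_nhds (s := Set.Ioi 0)))
    ((hg.tendsto 0).mono_left nhdsWithin_le_nhds)
    (Filter.Eventually.mono (Ioo_mem_nhdsGT zero_lt_one) fun ε hε => h ε hε.1 hε.2)

theorem le_of_sq_le_sq₀' {a b : ℝ} (h : a ^ 2 ≤ b ^ 2) (hb : 0 ≤ b) : a ≤ b :=
  (abs_le_of_sq_le_sq' h hb).2

theorem amgm {A B C κ p q : ℝ} (hA : 0 < A) (hB : 0 < B) (hC : 0 < C) (hp : 0 ≤ p) (hq : 0 ≤ q)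
    (h : B ^ 2 * Real.exp (-κ) ≤ A * C) : 2 * p * q * B - p ^ 2 * A - q ^ 2 * C ≤ κ * p * q * B := by
  set r := Real.exp (-κ / 2) with hr
  have h1 : r ^ 2 = Real.exp (-κ) := by rw [hr, sq, ← Real.exp_add]; ring_nf
  have h2 : 1 - κ / 2 ≤ r := by linarith [Real.add_one_le_exp (-κ / 2)]
  have h3 : 2 * p * q * (r * B) ≤ p ^ 2 * A + q ^ 2 * C := by
    refine le_of_sq_le_sq₀' ?_ (by positivity)
    have := mul_le_mul_of_nonneg_left h (by positivity : 0 ≤ 4 * p ^ 2 * q ^ 2)
    rw [← h1] at this
    nlinarith [sq_nonneg (p ^ 2 * A - q ^ 2 * C)]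
  have := mul_le_mul_of_nonneg_left h2 (by positivity : 0 ≤ 2 * p * q * B)
  nlinarith

section
variable {D : ℕ} (mem : I → Fin (D + 1) → Bool) (side : I → Bool) (e : I → ℤ → ℝ)

/-- The energies after the first cell is fixed. -/
def sh (u v : ℤ) : I → ℤ → ℝ :=
  fun i t => e i (t + if mem i 0 then (if side i then u else v) else 0)

omit [Fintype I] in
theorem sig_cons (m : Fin (D + 1) → Bool) (x : ℕ) (X : Fin D → ℕ) :
    sig m (Fin.cons x X) = sig (Fin.tail m) X + if m 0 then (x : ℤ) else 0 := by
  rw [add_comm (sig _ _), sig, Fin.sum_univ_succ]; rfl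

theorem Phi_cons (x : ℕ) (X : Fin D → ℕ) :
    Phi mem e (Fin.cons x X) = Phi (fun i => Fin.tail (mem i)) (sh mem side e x x) X := by
  simp only [Phi, sh, sig_cons, ite_self]

/-- The members of the laminar family. -/
def pp : I ⊕ Fin D → Fin (D + 1) × Bool → Bool
  | .inl i, y => mem i y.1 && y.2 == side i
  | .inr l, y => decide (y = (l.succ, true))

variable (s R : Fin D → ℕ) (u v : ℤ)

/-- The argument of an energy as a function of the count. -/
def arg (i : I) (k : ℕ) : ℤ :=
  if side i then (if mem i 0 then u else 0) - sig (Fin.tail (mem i)) s + k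
  else (if mem i 0 then v else 0) + sig (Fin.tail (mem i)) s - k

/-- The factors. -/
noncomputable def ff (ε : ℝ) : I ⊕ Fin D → ℕ → ℝ
  | .inl i, k => Real.exp (-e i (arg mem side s u v i k))
  | .inr l, k => ε ^ ((s l - k) + (k + 1 - (s l + R l)))

/-- The padded weight function. -/
noncomputable def GG (ε : ℝ) : Multiset (Fin (D + 1) × Bool) → ℝ :=
  LG (pp mem side) (ff mem side e s R u v ε)

/-- The number of selected elements on one side. -/
def cnt (m : Fin (D + 1) → Bool) (b : Bool) (σ : Multiset (Fin (D + 1) × Bool)) : ℕ :=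
  σ.countP fun y => m y.1 && y.2 == b

theorem cnt_cons (m : Fin (D + 1) → Bool) (b : Bool) (y : Fin (D + 1) × Bool)
    (σ : Multiset (Fin (D + 1) × Bool)) :
    cnt m b (y ::ₘ σ) = cnt m b σ + if m y.1 && y.2 == b then 1 else 0 :=
  Multiset.countP_cons _ _ _

/-- The energy of a configuration. -/
def Ee (σ : Multiset (Fin (D + 1) × Bool)) : ℝ :=
  ∑ i, e i (arg mem side s u v i (cnt (mem i) (side i) σ))

/-- The cell factors of a configuration. -/
def Ch (ε : ℝ) (σ : Multiset (Fin (D + 1) × Bool)) : ℝ :=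
  ∏ l, ε ^ ((s l - σ.count (l.succ, true)) + (σ.count (l.succ, true) + 1 - (s l + R l)))

theorem GG_eq (ε : ℝ) (σ : Multiset (Fin (D + 1) × Bool)) :
    GG mem side e s R u v ε σ = Real.exp (-Ee mem side e s u v σ) * Ch s R ε σ := by
  rw [GG, LG, Fintype.prod_sum_type, Ee, ← sum_neg_distrib, Real.exp_sum]
  congr 1
  refine prod_congr rfl fun l _ => ?_
  have : (σ.countP fun y => pp mem side (.inr l) y = true) = σ.count (l.succ, true) :=
    Multiset.countP_congr rfl fun y _ => by simp only [pp, decide_eq_true_eq]; exact propext eq_comm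
  rw [this]; rfl

theorem GG_cont (σ : Multiset (Fin (D + 1) × Bool)) :
    Continuous fun ε => GG mem side e s R u v ε σ := by
  simp only [GG_eq, Ch]; fun_prop

theorem Ch_cons (ε : ℝ) (σ : Multiset (Fin (D + 1) × Bool)) {y : Fin (D + 1) × Bool}
    (hy : y.1 = 0 ∨ y.2 = false) : Ch s R ε (y ::ₘ σ) = Ch s R ε σ := by
  refine prod_congr rfl fun l _ => ?_
  rw [Multiset.count_cons_of_ne]
  rintro rfl
  simp at hy

variable {mem side e} {κ lam : I → ℝ}

theorem lor_GG (hl : Lam2 mem side) (he : ∀ i, Cvx (e i) (κ i) (lam i)) (hR : ∀ l, 0 < R l)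
    {ε : ℝ} (h0 : 0 < ε) (h1 : ε ≤ 1) : Lor (GG mem side e s R u v ε) := by
  refine lor_LG ?_ ?_ ?_
  · rintro (i | i) (j | j)
    · by_cases h : side i = side j
      · simp only [pp, Bool.and_eq_true, beq_iff_eq, h]
        rcases hl i j h with h' | h' | h'
        · exact Or.inl fun y hy => ⟨h' _ hy.1, hy.2⟩
        · exact Or.inr (Or.inl fun y hy => ⟨h' _ hy.1, hy.2⟩)
        · exact Or.inr (Or.inr fun y hy hy' => h' _ hy.1 hy'.1)
      · simp only [pp, Bool.and_eq_true, beq_iff_eq]
        exact Or.inr (Or.inr fun y hy hy' => h (hy.2.symm.trans hy'.2))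
    · by_cases h : pp mem side (.inl i) (j.succ, true)
      · exact Or.inr (Or.inl fun y hy => by simp only [pp, decide_eq_true_eq] at hy; rwa [hy])
      · exact Or.inr (Or.inr fun y hy hy' => by
          simp only [pp, decide_eq_true_eq] at hy'; exact h (hy' ▸ hy))
    · by_cases h : pp mem side (.inl j) (i.succ, true)
      · exact Or.inl fun y hy => by simp only [pp, decide_eq_true_eq] at hy; rwa [hy]
      · exact Or.inr (Or.inr fun y hy hy' => by
          simp only [pp, decide_eq_true_eq] at hy; exact h (hy ▸ hy'))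
    · by_cases h : i = j
      · subst h; exact Or.inl fun _ h => h
      · refine Or.inr (Or.inr fun y hy hy' => h ?_)
        simp only [pp, decide_eq_true_eq] at hy hy'
        simpa using hy.symm.trans hy'
  · rintro (i | l) k
    · exact Real.exp_pos _
    · exact pow_pos h0 _
  · rintro (i | l) k
    · simp only [ff, sq, ← Real.exp_add, Real.exp_le_exp, arg]
      split_ifs
      all_goals push_cast
      · have := (he i).cvx (u - sig (Fin.tail (mem i)) s + k); ring_nf at this ⊢; linarith
      · have := (he i).cvx (0 - sig (Fin.tail (mem i)) s + k); ring_nf at this ⊢; linarith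
      · have := (he i).cvx (v + sig (Fin.tail (mem i)) s - k - 2); ring_nf at this ⊢; linarith
      · have := (he i).cvx (0 + sig (Fin.tail (mem i)) s - k - 2); ring_nf at this ⊢; linarith
    · simp only [ff, sq, ← pow_add]
      exact pow_le_pow_of_le_one h0.le h1 (by have := hR l; omega)

theorem Ee_lip (he : ∀ i, Cvx (e i) (κ i) (lam i)) {L : ℝ}
    (hL : ∀ l, ∑ i, (if mem i l then lam i else 0) ≤ L) (y : Fin (D + 1) × Bool)
    (σ : Multiset (Fin (D + 1) × Bool)) :
    |Ee mem side e s u v (y ::ₘ σ) - Ee mem side e s u v σ| ≤ L := by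
  rw [Ee, Ee, ← sum_sub_distrib]
  refine (abs_sum_le_sum_abs _ _).trans ((sum_le_sum fun i _ => ?_).trans (hL y.1))
  rw [cnt_cons]
  have h0 : 0 ≤ lam i := (abs_nonneg _).trans ((he i).lip 0)
  by_cases h : (mem i y.1 && y.2 == side i) = true
  · rw [if_pos h, if_pos (by simp only [Bool.and_eq_true] at h; exact h.1)]
    generalize cnt (mem i) (side i) σ = k
    unfold arg
    by_cases hs : side i
    · simp only [hs, if_true]; push_cast; rw [← add_assoc]; exact (he i).lip _
    · simp only [hs, Bool.false_eq_true, if_false]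
      rw [abs_sub_comm]
      have := (he i).lip ((if mem i 0 then v else 0) + sig (Fin.tail (mem i)) s - (k + 1 : ℕ))
      rwa [show (if mem i 0 then v else 0) + sig (Fin.tail (mem i)) s - (k + 1 : ℕ) + 1 =
        (if mem i 0 then v else 0) + sig (Fin.tail (mem i)) s - k by push_cast; ring] at this
  · rw [if_neg h, add_zero, sub_self, abs_zero]; split_ifs; exacts [h0, le_rfl]

theorem Ee_curv (he : ∀ i, Cvx (e i) (κ i) (lam i)) (σ : Multiset (Fin (D + 1) × Bool)) :
    Ee mem side e s u v ((0, true) ::ₘ (0, true) ::ₘ σ) +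
      Ee mem side e s u v ((0, false) ::ₘ (0, false) ::ₘ σ) ≤
      2 * Ee mem side e s u v ((0, true) ::ₘ (0, false) ::ₘ σ) +
        ∑ i, if mem i 0 then κ i else 0 := by
  simp only [Ee, mul_sum, ← sum_add_distrib]
  refine sum_le_sum fun i _ => ?_
  simp only [cnt_cons]
  generalize cnt (mem i) (side i) σ = k
  unfold arg
  by_cases h : mem i 0 <;> by_cases hs : side i <;> simp [h, hs]
  · have := (he i).curv (u - sig (Fin.tail (mem i)) s + k); ring_nf at this ⊢; linarith
  · have := (he i).curv (v + sig (Fin.tail (mem i)) s - k - 2); ring_nf at this ⊢; linarith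
  · linarith
  · linarith

theorem GG_ratio (he : ∀ i, Cvx (e i) (κ i) (lam i)) {L : ℝ}
    (hL : ∀ l, ∑ i, (if mem i l then lam i else 0) ≤ L) {ε : ℝ} (h0 : 0 < ε)
    (k k' : Fin (D + 1)) (σ : Multiset (Fin (D + 1) × Bool)) :
    GG mem side e s R u v ε ((k, false) ::ₘ σ) ≤
      Real.exp (2 * L) * GG mem side e s R u v ε ((k', false) ::ₘ σ) := by
  rw [GG_eq, GG_eq, Ch_cons s R ε σ (Or.inr rfl), Ch_cons s R ε σ (Or.inr rfl), ← mul_assoc,
    ← Real.exp_add]
  refine mul_le_mul_of_nonneg_right (Real.exp_le_exp.2 ?_) (prod_nonneg fun _ _ => by positivity)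
  have h1 := abs_le.1 (Ee_lip (side := side) s u v he hL (k, false) σ)
  have h2 := abs_le.1 (Ee_lip (side := side) s u v he hL (k', false) σ)
  linarith [h1.1, h2.2]

/-- The slots of the padded model. -/
def slots : List ((Fin (D + 1) × Bool) × (Fin (D + 1) × Bool)) :=
  flat (fun l : Fin D => (l.succ, true)) (fun l => (l.succ, false)) fun l => 2 * s l

/-- The table encoded by a configuration. -/
def Xof (σ : Multiset (Fin (D + 1) × Bool)) : Fin D → ℕ := fun l => σ.count (l.succ, true) - s l

theorem S_eval (hR : ∀ l, R l ≤ s l + 1) (p p' : ℕ) (F : (Fin D → ℕ) → ℝ) :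
    S (slots s) (fun σ => GG mem side e s R u v 0
      (Multiset.replicate p (0, true) + Multiset.replicate p' (0, false) + σ) * F (Xof s σ)) =
    ∑ X ∈ box R, bw s X *
      (Phi (fun i => Fin.tail (mem i)) (sh mem side e (u + p) (v - p')) X * F X) := by
  have hc : ∀ (α : Fin D → ℕ) (l : Fin D), (cfg (fun l : Fin D => (l.succ, true))
      (fun l => (l.succ, false)) (fun l => 2 * s l) α).count (l.succ, true) = α l := by
    intro α l
    rw [Multiset.count, countP_cfg]
    simp
  have hc' : ∀ (σ : Multiset (Fin (D + 1) × Bool)) (l : Fin D), (Multiset.replicate p (0, true) +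
      Multiset.replicate p' (0, false) + σ).count (l.succ, true) = σ.count (l.succ, true) := by
    intro σ l
    simp [Multiset.count_replicate, (Fin.succ_ne_zero l).symm]
  rw [slots, S_flat, sum_box_shift _ s R (fun l => by have := hR l; omega)]
  · refine sum_congr rfl fun X hX => ?_
    rw [mem_box] at hX
    have e1 : Xof s (cfg (fun l : Fin D => (l.succ, true)) (fun l => (l.succ, false))
        (fun l => 2 * s l) fun l => s l + X l) = X := by funext l; simp [Xof, hc]
    rw [e1, GG_eq, Ch, prod_eq_one (f := fun l => (0 : ℝ) ^ _) fun l _ => by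
      rw [hc', hc, show s l - (s l + X l) + (s l + X l + 1 - (s l + R l)) = 0 by
        have := hX l; omega, pow_zero], mul_one]
    congr 4
    refine sum_congr rfl fun i _ => ?_
    have h : ∀ (n : ℕ) (y : Fin (D + 1) × Bool), (Multiset.replicate n y).countP
        (fun y => mem i y.1 && y.2 == side i) = if mem i y.1 && y.2 == side i then n else 0 := by
      intro n y
      induction n with
      | zero => simp
      | succ n ih => rw [Multiset.replicate_succ, Multiset.countP_cons, ih]; split_ifs <;> rfl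
    have h2 : (cnt (mem i) (side i) (cfg (fun l : Fin D => (l.succ, true))
        (fun l => (l.succ, false)) (fun l => 2 * s l) fun l => s l + X l) : ℤ) =
        sig (Fin.tail (mem i)) s +
          if side i then sig (Fin.tail (mem i)) X else -sig (Fin.tail (mem i)) X := by
      rw [cnt, countP_cfg]
      push_cast
      by_cases hs : side i
      · simp only [hs, sig, Fin.tail, if_true, ← sum_add_distrib]
        refine sum_congr rfl fun l _ => ?_
        by_cases hm : mem i l.succ <;> simp [hm]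
      · simp only [hs, sig, Fin.tail, Bool.false_eq_true, if_false, ← sum_neg_distrib,
          ← sum_add_distrib]
        refine sum_congr rfl fun l _ => ?_
        have := hR l
        have := hX l
        by_cases hm : mem i l.succ <;> simp [hm]
        omega
    rw [cnt] at h2
    simp only [sh, cnt, Multiset.countP_add, h, arg]
    congr 1
    push_cast
    rw [h2]
    by_cases hs : side i <;> by_cases hm : mem i 0 <;> simp [hs, hm] <;> ring
  · intro α hα
    push Not at hα
    obtain ⟨l, hl⟩ := hα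
    rw [GG_eq, Ch, prod_eq_zero (f := fun l => (0 : ℝ) ^ _) (mem_univ l) (by
      rw [hc', hc]; exact zero_pow (by have := hR l; omega))]
    simp

variable (mem side e) in
/-- Weighted sums over the remaining cells when the first cell has value `x`. -/
noncomputable def WS (x : ℤ) (F : (Fin D → ℕ) → ℝ) : ℝ :=
  ∑ X ∈ box R, bw s X * (Phi (fun i => Fin.tail (mem i)) (sh mem side e x x) X * F X)

theorem logconc (hl : Lam2 mem side) (he : ∀ i, Cvx (e i) (κ i) (lam i)) (hR : ∀ l, 0 < R l)
    (hR' : ∀ l, R l ≤ s l + 1) (x : ℤ) :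
    WS mem side e s R x (fun _ => 1) * WS mem side e s R (x + 2) (fun _ => 1) ≤
      WS mem side e s R (x + 1) (fun _ => 1) ^ 2 := by
  set G := GG mem side e s R x (x + 2) with hG
  have key := lim0 (f := fun ε => S (slots s) (link (0, false) (link (0, false) (G ε))) *
      S (slots s) (link (0, true) (link (0, true) (G ε))))
    (g := fun ε => S (slots s) (link (0, false) (link (0, true) (G ε))) ^ 2)
    ((S_cont _ fun _ => GG_cont _ _ _ _ _ _ _ _).mul (S_cont _ fun _ => GG_cont _ _ _ _ _ _ _ _))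
    ((S_cont _ fun _ => GG_cont _ _ _ _ _ _ _ _).pow 2) fun ε h0 h1 => by
      have hG' : Lor (G ε) := lor_GG s R x (x + 2) hl he hR h0 h1.le
      have := rcs (ker_hyp (slots s) hG') (fun a b => by rw [link_comm])
        (v := fun y => if y = (0, true) then 1 else 0)
        (by
          have : 0 < S (slots s) (link (0, true) (link (0, true) (G ε))) := S_pos _ fun _ => hG'.1 _
          simpa [bil] using this) fun y => if y = (0, false) then 1 else 0
      simpa [bil] using this
  have e1 := S_eval (mem := mem) (side := side) (e := e) s R x (x + 2) hR' 0 2 fun _ => 1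
  have e2 := S_eval (mem := mem) (side := side) (e := e) s R x (x + 2) hR' 2 0 fun _ => 1
  have e3 := S_eval (mem := mem) (side := side) (e := e) s R x (x + 2) hR' 1 1 fun _ => 1
  simp only [Multiset.replicate_succ, Multiset.replicate_zero, Multiset.cons_add, zero_add,
    add_zero, mul_one, Nat.cast_ofNat, Nat.cast_zero, Nat.cast_one, add_sub_cancel_right,
    sub_zero, show x + 2 - 1 = x + 1 by ring] at e1 e2 e3
  simp only [WS, mul_one]
  rw [← e1, ← e2, ← e3]
  exact key

theorem mean_diff (hl : Lam2 mem side) (he : ∀ i, Cvx (e i) (κ i) (lam i)) (hR : ∀ l, 0 < R l)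
    (hR' : ∀ l, R l ≤ s l + 1) {L : ℝ} (hL : ∀ l, ∑ i, (if mem i l then lam i else 0) ≤ L)
    {κ₀ : ℝ} (hκ : ∑ i, (if mem i 0 then κ i else 0) ≤ κ₀) (x : ℤ) (F : (Fin D → ℕ) → ℝ) (θ : ℝ) :
    2 * (θ * (WS mem side e s R x (fun _ => 1) * WS mem side e s R (x + 1) F -
      WS mem side e s R (x + 1) (fun _ => 1) * WS mem side e s R x F)) ≤
    D * (κ₀ * θ ^ 2 * WS mem side e s R x (fun _ => 1) * WS mem side e s R (x + 1) (fun _ => 1) *
        (Real.exp (2 * L) * WS mem side e s R (x + 1) (fun _ => 1))) +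
      ∑ l, ((2 * s l : ℕ) : ℝ) *
        (Real.exp (2 * L) * WS mem side e s R x fun X => (F X - F (dn l X)) ^ 2) := by
  set G := GG mem side e s R x (x + 1) with hG
  set t := slots s with ht
  set A : ℝ → ((Fin D → ℕ) → ℝ) → ℝ := fun ε F => S t fun σ => G ε ((0, true) ::ₘ σ) * F (Xof s σ)
    with hA
  set B : ℝ → ((Fin D → ℕ) → ℝ) → ℝ := fun ε F => S t fun σ => G ε ((0, false) ::ₘ σ) * F (Xof s σ)
    with hB
  have cA : ∀ F, Continuous fun ε => A ε F := fun F =>
    S_cont _ fun _ => (GG_cont _ _ _ _ _ _ _ _).mul continuous_const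
  have cB : ∀ F, Continuous fun ε => B ε F := fun F =>
    S_cont _ fun _ => (GG_cont _ _ _ _ _ _ _ _).mul continuous_const
  have eA : ∀ F, WS mem side e s R (x + 1) F = A 0 F := fun F => by
    have := S_eval (mem := mem) (side := side) (e := e) s R x (x + 1) hR' 1 0 F
    simp only [Multiset.replicate_succ, Multiset.replicate_zero, Multiset.cons_add, zero_add,
      add_zero, Nat.cast_zero, Nat.cast_one, sub_zero] at this
    exact this.symm
  have eB : ∀ F, WS mem side e s R x F = B 0 F := fun F => by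
    have := S_eval (mem := mem) (side := side) (e := e) s R x (x + 1) hR' 0 1 F
    simp only [Multiset.replicate_succ, Multiset.replicate_zero, Multiset.cons_add, zero_add,
      add_zero, Nat.cast_zero, Nat.cast_one, add_sub_cancel_right] at this
    exact this.symm
  simp only [eA, eB]
  have hκ0 : 0 ≤ κ₀ := le_trans (sum_nonneg fun i _ => by
    split_ifs
    · linarith [(he i).cvx 0, (he i).curv 0]
    · exact le_rfl) hκ
  refine lim0 (f := fun ε => 2 * (θ * (B ε (fun _ => 1) * A ε F - A ε (fun _ => 1) * B ε F)))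
    (g := fun ε => D * (κ₀ * θ ^ 2 * B ε (fun _ => 1) * A ε (fun _ => 1) *
      (Real.exp (2 * L) * A ε (fun _ => 1))) + ∑ l, ((2 * s l : ℕ) : ℝ) *
        (Real.exp (2 * L) * B ε fun X => (F X - F (dn l X)) ^ 2))
    (by clear_value A B; fun_prop) (by clear_value A B; fun_prop) fun ε h0 h1 => ?_
  have hG' : Lor (G ε) := lor_GG s R x (x + 1) hl he hR h0 h1.le
  set Za := A ε fun _ => 1 with hZa
  set Zb := B ε fun _ => 1 with hZb
  have pa : 0 < Za := S_pos _ fun _ => mul_pos (hG'.1 _) one_pos
  have pb : 0 < Zb := S_pos _ fun _ => mul_pos (hG'.1 _) one_pos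
  set z : Fin (D + 1) × Bool → ℝ := fun y =>
    (if y = (0, true) then θ * Zb else 0) - if y = (0, false) then θ * Za else 0 with hz
  have dz : ∀ H : Multiset (Fin (D + 1) × Bool) → ℝ, der z H =
      fun σ => θ * Zb * H ((0, true) ::ₘ σ) + -(θ * Za) * H ((0, false) ::ₘ σ) := by
    intro H; funext σ
    simp [der, hz, sub_eq_add_neg, add_mul, sum_add_distrib]
  have fl := flow t hG' z (by
    rw [dz, S_lin]
    simp only [hZa, hZb, hA, hB, mul_one]; ring) fun σ => F (Xof s σ)
  have lhs : S t (fun σ => der z (G ε) σ * F (Xof s σ)) = θ * (Zb * A ε F - Za * B ε F) := by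
    simp only [dz, add_mul, mul_assoc _ (G ε _)]
    rw [S_lin]
    simp only [hA, hB]; ring
  have en : En t (G ε) z ≤ D * (κ₀ * θ ^ 2 * Zb * Za * (Real.exp (2 * L) * Za)) := by
    refine (sum_le_card_nsmul _ _ (κ₀ * θ ^ 2 * Zb * Za * (Real.exp (2 * L) * Za))
      fun l hl' => ?_).trans ?_
    · obtain ⟨k, rfl⟩ := mem_flat (List.mem_toFinset.1 hl')
      have h2 := S_erase_le (List.mem_toFinset.1 hl') (H := link (0, true) (G ε))
        fun _ => (hG'.1 _).le
      rw [show S t (link (0, true) (G ε)) = Za by simp only [hZa, hA, mul_one]; rfl] at h2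
      refine le_trans ?_ (mul_le_mul_of_nonneg_left (mul_le_mul_of_nonneg_left h2
        (Real.exp_pos _).le) (by positivity))
      rw [← neg_one_mul, ← S_smul (-1), ← S_smul (Real.exp _), ← S_smul (κ₀ * θ ^ 2 * Zb * Za)]
      refine S_mono _ fun σ => ?_
      have h5 := amgm (κ := κ₀) (hG'.1 ((0, true) ::ₘ (0, true) ::ₘ σ))
        (hG'.1 ((0, true) ::ₘ (0, false) ::ₘ σ)) (hG'.1 ((0, false) ::ₘ (0, false) ::ₘ σ))
        pb.le pa.le (by
          have := Ee_curv (mem := mem) (side := side) s x (x + 1) he σ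
          simp only [hG, GG_eq, Ch_cons s R ε _ (Or.inl (rfl : ((0 : Fin (D + 1)), true).1 = 0)),
            Ch_cons s R ε _ (Or.inl (rfl : ((0 : Fin (D + 1)), false).1 = 0))]
          rw [mul_pow, mul_right_comm, mul_mul_mul_comm, ← sq (Ch s R ε σ), sq (Real.exp _),
            ← Real.exp_add, ← Real.exp_add, ← Real.exp_add]
          exact mul_le_mul_of_nonneg_right (Real.exp_le_exp.2 (by linarith)) (sq_nonneg _))
      have h6 := GG_ratio (side := side) s R x (x + 1) he hL h0 0 k.succ ((0, true) ::ₘ σ)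
      rw [← hG, Multiset.cons_swap (0, false), Multiset.cons_swap (k.succ, false)] at h6
      simp only [dz, link]
      rw [Multiset.cons_swap (0, false) (0, true)]
      have h7 := mul_le_mul_of_nonneg_left h5 (sq_nonneg θ)
      have h8 := mul_le_mul_of_nonneg_left h6 (by positivity : 0 ≤ κ₀ * θ ^ 2 * Zb * Za)
      linarith
    · rw [nsmul_eq_mul]
      exact mul_le_mul_of_nonneg_right (Nat.cast_le.2 (card_flat _ _ _)) (by positivity)
  have di : Dir t (G ε) (fun σ => F (Xof s σ)) ≤ ∑ l, ((2 * s l : ℕ) : ℝ) *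
      (Real.exp (2 * L) * B ε fun X => (F X - F (dn l X)) ^ 2) := by
    rw [Dir, ht, slots, sum_flat, ← slots, ← ht]
    refine sum_le_sum fun k _ => ?_
    rcases Nat.eq_zero_or_pos (2 * s k) with h | h
    · rw [h]; simp
    refine mul_le_mul_of_nonneg_left ?_ (Nat.cast_nonneg _)
    have hk : ((k.succ, true), (k.succ, false)) ∈ t := by
      simp only [ht, slots, flat, List.mem_flatten, List.mem_ofFn]
      exact ⟨_, ⟨k, rfl⟩, List.mem_replicate.2 ⟨h.ne', rfl⟩⟩
    simp only [hB]
    rw [S_erase hk, mul_add, ← S_smul]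
    refine le_add_of_le_of_nonneg (S_mono _ fun σ => ?_) (mul_nonneg (Real.exp_pos _).le
      (S_nonneg _ fun _ => mul_nonneg (hG'.1 _).le (sq_nonneg _)))
    have h6 := GG_ratio (side := side) s R x (x + 1) he hL h0 k.succ 0 ((k.succ, true) ::ₘ σ)
    have e1 : Xof s ((k.succ, false) ::ₘ σ) = dn k (Xof s ((k.succ, true) ::ₘ σ)) := by
      funext l
      by_cases hlk : l = k
      · subst hlk; simp [Xof, dn]; omega
      · simp [Xof, dn, hlk]
    simp only [dd, link, e1, ← mul_assoc]
    rw [Multiset.cons_swap]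
    exact mul_le_mul_of_nonneg_right h6 (sq_nonneg _)
  rw [lhs] at fl
  linarith

end

end Vale.Agent.P328
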